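import Mathlib

/-!
Entrywise derivations of matrices over a commutative ring, Maurer-Cartan identity, Jacobi formula.
-/

set_option linter.unusedSectionVars false
set_option linter.unusedVariables false

namespace Vale.Agent.P084

open Matrix

variable {ι R : Type*} [Fintype ι] [DecidableEq ι] [CommRing R] [Algebra ℝ R]

/-- entrywise derivative of a matrix -/
def dM (d : Derivation ℝ R R) (A : Matrix ι ι R) : Matrix ι ι R := A.map d

@[simp] lemma dM_apply (d : Derivation ℝ R R) (A : Matrix ι ι R) (i j : ι) :
    dM d A i j = d (A i j) := rfl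

lemma dM_mul (d : Derivation ℝ R R) (A B : Matrix ι ι R) :
    dM d (A * B) = dM d A * B + A * dM d B := by
  ext i j
  simp only [dM_apply, Matrix.mul_apply, Matrix.add_apply, map_sum, Derivation.leibniz, smul_eq_mul,
    ← Finset.sum_add_distrib]
  exact Finset.sum_congr rfl fun k _ => by ring

lemma dM_add (d : Derivation ℝ R R) (A B : Matrix ι ι R) :
    dM d (A + B) = dM d A + dM d B := by
  ext i j; simp

lemma dM_sub (d : Derivation ℝ R R) (A B : Matrix ι ι R) :
    dM d (A - B) = dM d A - dM d B := by
  ext i j; simp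

lemma dM_neg (d : Derivation ℝ R R) (A : Matrix ι ι R) :
    dM d (-A) = - dM d A := by
  ext i j; simp

@[simp] lemma dM_zero (d : Derivation ℝ R R) : dM d (0 : Matrix ι ι R) = 0 := by
  ext i j; simp

@[simp] lemma dM_one (d : Derivation ℝ R R) : dM d (1 : Matrix ι ι R) = 0 := by
  ext i j
  simp only [dM_apply, Matrix.one_apply, Matrix.zero_apply]
  split_ifs <;> simp

lemma dM_smul (d : Derivation ℝ R R) (r : R) (A : Matrix ι ι R) :
    dM d (r • A) = d r • A + r • dM d A := by
  ext i j
  simp only [dM_apply, Matrix.smul_apply, Matrix.add_apply, smul_eq_mul, Derivation.leibniz]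
  ring

lemma dM_nsmul_two (d : Derivation ℝ R R) (A : Matrix ι ι R) :
    dM d ((2 : R) • A) = (2 : R) • dM d A := by
  ext i j
  simp only [dM_apply, Matrix.smul_apply, smul_eq_mul, Derivation.leibniz]
  have : d (2 : R) = 0 := by
    have := d.map_natCast 2
    simpa using this
  rw [this]; ring

lemma dM_sum {κ : Type*} (d : Derivation ℝ R R) (s : Finset κ) (A : κ → Matrix ι ι R) :
    dM d (∑ k ∈ s, A k) = ∑ k ∈ s, dM d (A k) := by
  ext i j
  simp [Matrix.sum_apply]

lemma dM_transpose (d : Derivation ℝ R R) (A : Matrix ι ι R) :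
    dM d Aᵀ = (dM d A)ᵀ := by
  ext i j; simp

lemma trace_dM (d : Derivation ℝ R R) (A : Matrix ι ι R) :
    d (trace A) = trace (dM d A) := by
  simp [Matrix.trace, map_sum]

/-- Derivative of an inverse -/
lemma dM_inv (d : Derivation ℝ R R) {A B : Matrix ι ι R} (h : B * A = 1) :
    dM d B = - (B * dM d A * B) := by
  have h' : A * B = 1 := mul_eq_one_comm.mp h
  have h1 : dM d B * A + B * dM d A = 0 := by
    rw [← dM_mul, h, dM_one]
  have h2 : dM d B = (dM d B * A) * B := by
    rw [Matrix.mul_assoc, h', Matrix.mul_one]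
  rw [h2, eq_neg_of_add_eq_zero_left h1]
  simp [Matrix.mul_assoc]

/-- logarithmic derivative -/
def logD (d : Derivation ℝ R R) (B A : Matrix ι ι R) : Matrix ι ι R := B * dM d A

/-- Maurer-Cartan identity for the logarithmic derivative of an invertible matrix. -/
lemma maurerCartan (d₁ d₂ : Derivation ℝ R R) (hc : ∀ r, d₁ (d₂ r) = d₂ (d₁ r))
    {A B : Matrix ι ι R} (h : B * A = 1) :
    dM d₁ (B * dM d₂ A) - dM d₂ (B * dM d₁ A)
      = - ((B * dM d₁ A) * (B * dM d₂ A) - (B * dM d₂ A) * (B * dM d₁ A)) := by
  have hcomm : dM d₁ (dM d₂ A) = dM d₂ (dM d₁ A) := by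
    ext i j; exact hc _
  rw [dM_mul, dM_mul, dM_inv d₁ h, dM_inv d₂ h, hcomm]
  noncomm_ring

/-- Jacobi's formula -/
lemma derivation_det (d : Derivation ℝ R R) (A : Matrix ι ι R) :
    d (det A) = trace (adjugate A * dM d A) := by
  have key : ∀ (s : Finset ι) (g : ι → R), d (∏ i ∈ s, g i)
      = ∑ j ∈ s, d (g j) * ∏ i ∈ s.erase j, g i := by
    classical
    intro s g
    induction s using Finset.induction_on with
    | empty => simp
    | insert a s ha ih =>
      rw [Finset.prod_insert ha, Finset.sum_insert ha, Derivation.leibniz, ih]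
      simp only [smul_eq_mul]
      have h1 : s.erase a = s := Finset.erase_eq_of_notMem ha
      have h2 : ∀ j ∈ s, (insert a s).erase j = insert a (s.erase j) := by
        intro j hj
        rw [Finset.erase_insert_of_ne]
        rintro rfl; exact ha hj
      rw [Finset.erase_insert ha, Finset.mul_sum]
      have h3 : ∑ j ∈ s, d (g j) * ∏ i ∈ (insert a s).erase j, g i
          = ∑ j ∈ s, g a * (d (g j) * ∏ i ∈ s.erase j, g i) := by
        refine Finset.sum_congr rfl fun j hj => ?_
        rw [h2 j hj, Finset.prod_insert (by simp [ha])]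
        ring
      rw [h3]; ring
  have hrhs : trace (adjugate A * dM d A)
      = ∑ j, det (A.updateCol j (fun i => d (A i j))) := by
    simp only [Matrix.trace, Matrix.diag, Matrix.mul_apply]
    refine Finset.sum_congr rfl fun j _ => ?_
    have := congrFun (Matrix.cramer_eq_adjugate_mulVec A (fun i => d (A i j))) j
    rw [Matrix.cramer_apply] at this
    rw [this, Matrix.mulVec, dotProduct]
    simp
  rw [hrhs]
  simp only [Matrix.det_apply']
  rw [Finset.sum_comm, map_sum]
  refine Finset.sum_congr rfl fun σ _ => ?_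
  rw [Derivation.leibniz, key]
  have h0 : d ((((Equiv.Perm.sign σ : ℤˣ) : ℤ) : R)) = 0 := d.map_intCast _
  rw [h0, smul_zero, add_zero, smul_eq_mul, Finset.mul_sum]
  refine Finset.sum_congr rfl fun j _ => ?_
  congr 1
  rw [← Finset.mul_prod_erase Finset.univ _ (Finset.mem_univ j)]
  simp only [Matrix.updateCol_self]
  congr 1
  refine Finset.prod_congr rfl fun i hi => ?_
  rw [Matrix.updateCol_ne (Finset.ne_of_mem_erase hi)]

end Vale.Agent.P084
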