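import Vale.Agent.P084.Data

/-!
The covariant derivative `E` of `A`, its symmetries and the fundamental equation.
-/

set_option linter.unusedSectionVars false
set_option linter.unusedVariables false

namespace Vale.Agent.P084

open Matrix

variable {ι R : Type*} [Fintype ι] [DecidableEq ι] [CommRing R] [Algebra ℝ R]

lemma mul3_apply (X Y Z : Matrix ι ι R) (b e : ι) :
    (X * Y * Z) b e = ∑ m, (X * Y) b m * Z m e := Matrix.mul_apply

/-- Transport on the family index. -/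
def Tw (X : Matrix ι ι R) (U : ι → Matrix ι ι R) (j : ι) : Matrix ι ι R := ∑ m, X m j • U m

namespace Data

variable (d : Data ι R)

/-- (twice) the covariant derivative on families of matrices -/
def cov (q : ι) (U : ι → Matrix ι ι R) (j : ι) : Matrix ι ι R :=
  (2 : R) • dM (d.D q) (U j) + (d.Θ q * U j - U j * d.Θ q) - Tw (d.Θ q) U j

/-- `E q j = 2 ∇_q A_j` -/
def E (q j : ι) : Matrix ι ι R := d.cov q d.A j

lemma two_cancel (a b : R) (h : (2 : R) * a = 2 * b) : a = b := by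
  have h2 : (algebraMap ℝ R (1/2)) * (2 : R) = 1 := by
    have : (2 : R) = algebraMap ℝ R 2 := (map_ofNat (algebraMap ℝ R) 2).symm
    rw [this, ← map_mul]; norm_num
  calc a = (algebraMap ℝ R (1/2)) * (2 : R) * a := by rw [h2, one_mul]
    _ = (algebraMap ℝ R (1/2)) * ((2 : R) * a) := by ring
    _ = (algebraMap ℝ R (1/2)) * ((2 : R) * b) := by rw [h]
    _ = (algebraMap ℝ R (1/2)) * (2 : R) * b := by ring
    _ = b := by rw [h2, one_mul]

lemma E_comm (l i : ι) : d.E l i = d.E i l := by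
  have hT : Tw (d.Θ l) d.A i = Tw (d.Θ i) d.A l := by
    simp only [Tw]
    refine Finset.sum_congr rfl fun m _ => ?_
    rw [d.Θ_symm l m i]
  have h1 := d.MC_A l i
  have h2 := d.GE l i
  rw [← sub_eq_zero]
  have e1 : d.E l i - d.E i l = (2 : R) • (dM (d.D l) (d.A i) - dM (d.D i) (d.A l))
      + (d.Θ l * d.A i - d.A i * d.Θ l) - (d.Θ i * d.A l - d.A l * d.Θ i) := by
    simp only [E, cov, hT, smul_sub]
    abel
  rw [e1, h1]
  simp only [two_smul, d.Θ_eq_add]
  rw [← h2]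
  noncomm_ring

lemma E_sym2 (l i m k : ι) : d.E l i m k = d.E l k m i := by
  simp only [E, cov, Tw, Matrix.sub_apply, Matrix.add_apply, Matrix.smul_apply, smul_eq_mul,
    dM_apply, Matrix.mul_apply, Matrix.sum_apply]
  have h1 : d.D l (d.A i m k) = d.D l (d.A k m i) := by rw [d.A_symm i m k]
  have h2 : ∑ j, d.Θ l m j * d.A i j k = ∑ j, d.Θ l m j * d.A k j i := by
    refine Finset.sum_congr rfl fun j _ => ?_
    rw [d.A_symm i j k]
  have h3 : ∑ c, d.Θ l c i * d.A c m k = ∑ j, d.A k m j * d.Θ l j i := by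
    refine Finset.sum_congr rfl fun j _ => ?_
    rw [d.A_symm j m k]; ring
  have h4 : ∑ c, d.Θ l c k * d.A c m i = ∑ j, d.A i m j * d.Θ l j k := by
    refine Finset.sum_congr rfl fun j _ => ?_
    rw [d.A_symm j m i]; ring
  rw [h1, h2, h3, h4]
  ring

/-- The flattened form of `E`. -/
lemma G_E (l i : ι) : d.G * d.E l i
    = (2 : R) • dM (d.D l) (d.B i) - dM (d.D l) d.G * d.A i - (d.A i)ᵀ * dM (d.D l) d.G
      - ∑ m, d.Θ l m i • d.B m := by
  have h1 : dM (d.D l) (d.B i) = dM (d.D l) d.G * d.A i + d.G * dM (d.D l) (d.A i) := by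
    simp only [B, dM_mul]
  have h2 : d.G * (d.A i * d.Θ l) = (d.A i)ᵀ * dM (d.D l) d.G := by
    rw [← Matrix.mul_assoc, ← d.A_transpose_G, Matrix.mul_assoc, d.G_Θ]
  have h3 : d.G * (d.Θ l * d.A i) = dM (d.D l) d.G * d.A i := by
    rw [← Matrix.mul_assoc, d.G_Θ]
  have h4 : d.G * Tw (d.Θ l) d.A i = ∑ m, d.Θ l m i • d.B m := by
    simp only [Tw, B, Matrix.mul_sum, Matrix.mul_smul]
  simp only [E, cov, Matrix.mul_add, Matrix.mul_sub, Matrix.mul_smul, h2, h3, h4, h1, smul_add,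
    two_smul]
  abel

lemma E_flat_symm (l i k j : ι) : (d.G * d.E l i) k j = (d.G * d.E l i) j k := by
  rw [d.G_E]
  simp only [Matrix.sub_apply, Matrix.smul_apply, smul_eq_mul, dM_apply, Matrix.sum_apply]
  have h1 : d.B i k j = d.B i j k := d.B_symm12 i k j
  have h2 : ∀ a b, ((d.A i)ᵀ * dM (d.D l) d.G) a b = (dM (d.D l) d.G * d.A i) b a := by
    intro a b
    have h : (dM (d.D l) d.G * d.A i)ᵀ = (d.A i)ᵀ * dM (d.D l) d.G := by
      rw [Matrix.transpose_mul, d.dmG_transpose]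
    rw [← h]; rfl
  have h3 : ∀ m, d.B m k j = d.B m j k := fun m => d.B_symm12 m k j
  rw [h1, h2, h2]
  simp only [h3]
  ring

/-- Flattened `E`. -/
def Ef (l i k j : ι) : R := (d.G * d.E l i) k j

lemma Ef_swap12 (l i k j : ι) : d.Ef l i k j = d.Ef i l k j := by
  simp only [Ef, d.E_comm l i]

lemma Ef_swap34 (l i k j : ι) : d.Ef l i k j = d.Ef l i j k := d.E_flat_symm l i k j

lemma Ef_swap24 (l i k j : ι) : d.Ef l i k j = d.Ef l j k i := by
  simp only [Ef, Matrix.mul_apply]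
  refine Finset.sum_congr rfl fun m _ => ?_
  rw [d.E_sym2 l i m j]

lemma Ef_swap13 (l i k j : ι) : d.Ef l i k j = d.Ef k i l j := by
  rw [d.Ef_swap34 l i k j, d.Ef_swap24 l i j k, d.Ef_swap12 l k j i, d.Ef_swap24 k l j i,
    d.Ef_swap34 k i j l]

/-- `𝐒` -/
def SSn (a b c e : ι) : R := (d.G * d.A a * d.A c) b e

/-- `W` -/
def WW (a b c e : ι) : R := (d.G * d.C a * d.A c) b e

lemma GA_apply_symm (a b m : ι) : (d.G * d.A a) b m = (d.G * d.A b) a m := d.B_symm01 a b m

lemma GC_apply_symm (a b m : ι) : (d.G * d.C a) b m = (d.G * d.C b) a m := by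
  have h : ∀ a, d.G * d.C a = dM (d.D a) d.G - d.G * d.A a := by
    intro a
    simp only [C, Matrix.mul_sub, d.G_Θ]
  rw [h a, h b]
  simp only [Matrix.sub_apply]
  rw [d.dmG_symm' a b m, d.GA_apply_symm a b m]

lemma SSn_swap12 (a b c e : ι) : d.SSn a b c e = d.SSn b a c e := by
  simp only [SSn]
  rw [mul3_apply, mul3_apply]
  refine Finset.sum_congr rfl fun m _ => ?_
  rw [d.GA_apply_symm a b m]

lemma SSn_swap34 (a b c e : ι) : d.SSn a b c e = d.SSn a b e c := by
  simp only [SSn]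
  rw [mul3_apply, mul3_apply]
  refine Finset.sum_congr rfl fun m _ => ?_
  rw [d.A_symm c m e]

lemma WW_swap12 (a b c e : ι) : d.WW a b c e = d.WW b a c e := by
  simp only [WW]
  rw [mul3_apply, mul3_apply]
  refine Finset.sum_congr rfl fun m _ => ?_
  rw [d.GC_apply_symm a b m]

lemma WW_swap34 (a b c e : ι) : d.WW a b c e = d.WW a b e c := by
  simp only [WW]
  rw [mul3_apply, mul3_apply]
  refine Finset.sum_congr rfl fun m _ => ?_
  rw [d.A_symm c m e]

/-- transposition rule -/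
lemma mul_transpose_rule (X Y : Matrix ι ι R) (hX : Xᵀ * d.G = d.G * X) (hY : Yᵀ * d.G = d.G * Y)
    (b e : ι) : (d.G * X * Y) b e = (d.G * Y * X) e b := by
  have h : (d.G * X * Y)ᵀ = d.G * Y * X := by
    rw [Matrix.transpose_mul (d.G * X) Y, Matrix.transpose_mul d.G X, d.G_transpose, hX,
      ← Matrix.mul_assoc, hY]
  have := congrFun (congrFun h e) b
  simpa using this

lemma SSn_pair (a b c e : ι) : d.SSn a b c e = d.SSn c e a b :=
  d.mul_transpose_rule _ _ (d.A_transpose_G a) (d.A_transpose_G c) b e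

/-- `Q` -/
def Q (a b c e : ι) : R := (d.G * (d.A a * d.C c + d.C a * d.A c)) b e

lemma Q_eq (a b c e : ι) : d.Q a b c e = d.WW c e a b + d.WW a b c e := by
  simp only [Q, WW, Matrix.mul_add, Matrix.add_apply, ← Matrix.mul_assoc]
  rw [d.mul_transpose_rule _ _ (d.A_transpose_G a) (d.C_transpose_G c) b e]

lemma Q_swap12 (a b c e : ι) : d.Q a b c e = d.Q b a c e := by
  rw [d.Q_eq, d.Q_eq, d.WW_swap34 c e a b, d.WW_swap12 a b c e]

lemma Q_swap34 (a b c e : ι) : d.Q a b c e = d.Q a b e c := by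
  rw [d.Q_eq, d.Q_eq, d.WW_swap12 c e a b, d.WW_swap34 a b c e]

lemma Q_swap13 (a b c e : ι) : d.Q a b c e = d.Q c b a e := by
  have h := d.GE a c
  have h' : d.A a * d.C c + d.C a * d.A c = d.A c * d.C a + d.C c * d.A a := by
    have : d.A a * d.C c + d.C a * d.A c - (d.A c * d.C a + d.C c * d.A a)
        = (d.C a * d.A c - d.A c * d.C a) + (d.A a * d.C c - d.C c * d.A a) := by abel
    rw [← sub_eq_zero, this, h]
  simp only [Q, h']

lemma Q_pair (a b c e : ι) : d.Q a b c e = d.Q c e a b := by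
  rw [d.Q_eq, d.Q_eq]; ring

/-- The second differentiated relation. -/
lemma Z2 (l k i j : ι) :
    d.D l (d.B i k j) = - d.X4 l k i j - (d.G * (d.A k * d.A i + dM (d.D k) (d.A i))) l j := by
  have h1 : d.B i k j = - d.X3 k i j := d.Z1 i j k
  rw [h1, map_neg]
  have h2 : d.D l (d.X3 k i j) = d.X4 l k i j
      + ∑ α, d.D l (d.dY α) * d.D k (d.D i (d.D j (d.f α))) := by
    simp only [X3, X4, map_sum, Derivation.leibniz, smul_eq_mul, Finset.sum_add_distrib]
    congr 1
    refine Finset.sum_congr rfl fun α _ => ?_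
    ring
  rw [h2]
  have h3 : ∑ α, d.D l (d.dY α) * d.D k (d.D i (d.D j (d.f α)))
      = (d.Pᵀ * d.S * dM (d.D k) (dM (d.D i) d.P)) l j := by
    simp only [Matrix.mul_apply, Matrix.transpose_apply, P_apply, dM_apply]
    refine Finset.sum_congr rfl fun β _ => ?_
    rw [d.chain2 l β, Finset.sum_mul, Finset.sum_mul]
    refine Finset.sum_congr rfl fun α _ => ?_
    ring
  have h4 : dM (d.D k) (dM (d.D i) d.P) = d.P * (d.A k * d.A i + dM (d.D k) (d.A i)) := by
    rw [← d.P_A i, dM_mul, ← d.P_A k]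
    simp only [Matrix.mul_add, Matrix.mul_assoc]
  have h5 : d.Pᵀ * d.S * dM (d.D k) (dM (d.D i) d.P) = d.G * (d.A k * d.A i + dM (d.D k) (d.A i)) := by
    rw [h4, d.G_eq]
    simp only [Matrix.mul_assoc]
  rw [h3, h5]
  ring

/-- symmetrized form -/
lemma Z2' (l k i j : ι) :
    d.D l (d.B i k j) + d.D k (d.B i l j) = - d.X4 l k i j + d.WW k l i j := by
  rw [d.Z2 l k i j]
  have h1 : d.G * dM (d.D k) (d.A i) = dM (d.D k) (d.B i) - dM (d.D k) d.G * d.A i := by
    simp only [B, dM_mul]; abel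
  have h2 : d.G * d.C k = dM (d.D k) d.G - d.G * d.A k := by
    simp only [C, Matrix.mul_sub, d.G_Θ]
  have h3 : (d.G * (d.A k * d.A i + dM (d.D k) (d.A i))) l j
      = (d.G * d.A k * d.A i) l j + d.D k (d.B i l j) - (dM (d.D k) d.G * d.A i) l j := by
    rw [Matrix.mul_add, h1, ← Matrix.mul_assoc]
    simp [Matrix.add_apply, Matrix.sub_apply]
    ring
  have h4 : d.WW k l i j = (dM (d.D k) d.G * d.A i) l j - (d.G * d.A k * d.A i) l j := by
    simp only [WW, h2, Matrix.sub_mul, Matrix.sub_apply]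
  rw [h3, h4]
  ring

/-- Entries of the flattened `E`. -/
lemma Ef_eq (l i k j : ι) :
    d.Ef l i k j = (2 : R) * d.D l (d.B i k j) - (dM (d.D l) d.G * d.A i) k j
      - (dM (d.D l) d.G * d.A i) j k - (dM (d.D l) d.G * d.A j) i k := by
  simp only [Ef, d.G_E, Matrix.sub_apply, Matrix.smul_apply, smul_eq_mul, dM_apply,
    Matrix.sum_apply]
  have h2 : ∀ a b, ((d.A i)ᵀ * dM (d.D l) d.G) a b = (dM (d.D l) d.G * d.A i) b a := by
    intro a b
    have h : (dM (d.D l) d.G * d.A i)ᵀ = (d.A i)ᵀ * dM (d.D l) d.G := by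
      rw [Matrix.transpose_mul, d.dmG_transpose]
    rw [← h]; rfl
  have h3 : ∑ m, d.Θ l m i * d.B m k j = (dM (d.D l) d.G * d.A j) i k := by
    have e : dM (d.D l) d.G * d.A j = d.G * d.Θ l * d.A j := by rw [d.G_Θ]
    have h5 : (d.G * d.Θ l * d.A j) i k = (d.G * d.A j * d.Θ l) k i :=
      d.mul_transpose_rule _ _ (d.Θ_transpose_G l) (d.A_transpose_G j) i k
    rw [e, h5, Matrix.mul_apply]
    refine Finset.sum_congr rfl fun m _ => ?_
    have : (d.G * d.A j) k m = d.B m k j := by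
      show d.B j k m = d.B m k j
      exact d.B_symm13 j k m
    rw [this]; ring
  rw [h2, h3]

lemma dG_A_apply (a b c e : ι) : (dM (d.D a) d.G * d.A c) b e = d.SSn a b c e + d.WW a b c e := by
  have : dM (d.D a) d.G = d.G * d.A a + d.G * d.C a := by
    simp only [C, Matrix.mul_sub, d.G_Θ]; abel
  rw [this, Matrix.add_mul, Matrix.add_apply]; rfl

/-- The fundamental equation -/
theorem FE (l i k j : ι) :
    d.ψ * d.Ef l i k j
      = - (d.D l d.ψ * d.B k i j + d.D k d.ψ * d.B l i j + d.D i d.ψ * d.B l k j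
          + d.D j d.ψ * d.B l k i) - d.ψ * d.Q l i k j := by
  have hsum : (2 : R) * d.Ef l i k j = d.Ef l i k j + d.Ef k i l j := by
    rw [← d.Ef_swap13 l i k j]; ring
  -- K converted
  have hSS : ∀ a b c e, ∑ γ, ∑ δ, d.D a (d.D b (d.f γ)) * d.S γ δ * d.D c (d.D e (d.f δ))
      = d.SSn a b c e := by
    intro a b c e
    have h1 : d.SSn a b c e = ((d.A a)ᵀ * d.G * d.A c) b e := by
      simp only [SSn, d.A_transpose_G]
    have h2 : (d.A a)ᵀ * d.G * d.A c = (dM (d.D a) d.P)ᵀ * d.S * dM (d.D c) d.P := by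
      rw [← d.P_A a, ← d.P_A c, Matrix.transpose_mul, d.G_eq]
      simp only [Matrix.mul_assoc]
    rw [h1, h2]
    simp only [Matrix.mul_apply, Matrix.transpose_apply, dM_apply, P_apply]
    rw [Finset.sum_comm]
    refine Finset.sum_congr rfl fun γ _ => ?_
    rw [Finset.sum_mul]
  have hK := d.K l k i j
  rw [hSS, hSS, hSS] at hK
  have hKK : d.ψ * (d.X4 l k i j + d.SSn l k i j + d.SSn l i k j + d.SSn l j k i)
      = - (d.D l d.ψ * d.X3 k i j + d.D k d.ψ * d.X3 l i j + d.D i d.ψ * d.X3 l k j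
        + d.D j d.ψ * d.X3 l k i) := hK
  have hE1 := d.Ef_eq l i k j
  have hE2 := d.Ef_eq k i l j
  rw [d.dG_A_apply, d.dG_A_apply, d.dG_A_apply] at hE1 hE2
  have hZ := d.Z2' l k i j
  have b1 : d.B k i j = - d.X3 k i j := by
    rw [d.Z1 k j i, d.X3_swap12 i k j]
  have b2 : d.B l i j = - d.X3 l i j := by
    rw [d.Z1 l j i, d.X3_swap12 i l j]
  have b3 : d.B l k j = - d.X3 l k j := by
    rw [d.Z1 l j k, d.X3_swap12 k l j]
  have b4 : d.B l k i = - d.X3 l k i := by
    rw [d.Z1 l i k, d.X3_swap12 k l i]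
  have s1 : d.WW l k i j = d.WW k l i j := d.WW_swap12 _ _ _ _
  have s2 : d.SSn l k i j = d.SSn k l i j := d.SSn_swap12 _ _ _ _
  have s3 : d.SSn k i j l = d.SSn l j k i := by
    rw [d.SSn_pair k i j l, d.SSn_swap12 j l k i]
  have s4 : d.SSn l j i k = d.SSn l j k i := d.SSn_swap34 _ _ _ _
  have s5 : d.SSn l i j k = d.SSn l i k j := d.SSn_swap34 _ _ _ _
  have s6 : d.SSn k j i l = d.SSn l i k j := by
    rw [d.SSn_pair k j i l, d.SSn_swap12 i l k j]
  have q1 : d.Q l i k j = d.WW k j i l + d.WW l i j k := by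
    rw [d.Q_eq, d.WW_swap34 k j l i, d.WW_swap34 l i k j]
  have q2 : d.Q l i k j = d.WW k i j l + d.WW l j i k := by
    have : d.Q l i k j = d.Q l j i k := by
      rw [d.Q_swap34 l i k j, d.Q_swap12 l i j k, d.Q_swap13 i l j k, d.Q_swap12 j l i k]
    rw [this, d.Q_eq, d.WW_swap12 i k l j, d.WW_swap34 k i l j]
  apply two_cancel
  rw [b1, b2, b3, b4]
  have : (2 : R) * (d.ψ * d.Ef l i k j) = d.ψ * (d.Ef l i k j + d.Ef k i l j) := by
    rw [← hsum]; ring
  rw [this, hE1, hE2]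
  linear_combination (2 * d.ψ) * hZ + (-2) * hKK + d.ψ * s2 - d.ψ * s1 - d.ψ * s3 - d.ψ * s4
    - d.ψ * s5 - d.ψ * s6 + d.ψ * q1 + d.ψ * q2

end Data

end Vale.Agent.P084
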