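import Vale.Agent.P084.Alg2

/-!
Radial facts, trace formula, equation for the squared Jacobian.
-/

set_option linter.unusedSectionVars false
set_option linter.unusedVariables false

namespace Vale.Agent.P084

open Matrix

variable {ι R : Type*} [Fintype ι] [DecidableEq ι] [CommRing R] [Algebra ℝ R]

namespace Data

variable (d : Data ι R)

/-- `G x = dψ` -/
lemma x_G (j : ι) : ∑ i, d.x i * d.G i j = d.D j d.ψ := by
  have h := congrArg (d.D j) d.euler_ψ
  rw [map_sum, Derivation.leibniz] at h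
  simp only [Derivation.leibniz, smul_eq_mul, d.D_x, mul_ite, mul_one, mul_zero,
    Finset.sum_add_distrib, Finset.sum_ite_eq', Finset.mem_univ, if_true] at h
  have h2 : d.D j (2 : R) = 0 := by
    have := (d.D j).map_natCast 2
    simpa using this
  rw [h2] at h
  have h3 : ∑ i, d.x i * d.G i j = ∑ x, d.x x * d.D j (d.D x d.ψ) := by
    refine Finset.sum_congr rfl fun i _ => ?_
    rw [G_apply, d.D_comm i j]
  rw [h3]
  simp only [mul_zero, add_zero] at h
  linear_combination h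

/-- second radial identity -/
lemma x_dmP (α j : ι) : ∑ i, d.x i * d.D i (d.D j (d.f α)) = 0 := by
  have h := congrArg (d.D j) (d.euler_f α)
  rw [map_sum] at h
  simp only [Derivation.leibniz, smul_eq_mul, d.D_x, mul_ite, mul_one, mul_zero,
    Finset.sum_add_distrib, Finset.sum_ite_eq', Finset.mem_univ, if_true] at h
  have h3 : ∑ i, d.x i * d.D i (d.D j (d.f α)) = ∑ x, d.x x * d.D j (d.D x (d.f α)) := by
    refine Finset.sum_congr rfl fun i _ => ?_
    rw [d.D_comm i j]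
  rw [h3]
  linear_combination h

/-- third radial identity -/
lemma x_dmG (k j : ι) : ∑ i, d.x i * d.D i (d.G k j) = 0 := by
  have h := congrArg (d.D k) (d.x_G j)
  rw [map_sum] at h
  simp only [Derivation.leibniz, smul_eq_mul, d.D_x, mul_ite, mul_one, mul_zero,
    Finset.sum_add_distrib, Finset.sum_ite_eq', Finset.mem_univ, if_true] at h
  have h3 : ∑ i, d.x i * d.D i (d.G k j) = ∑ x, d.x x * d.D k (d.G x j) := by
    refine Finset.sum_congr rfl fun i _ => ?_
    simp only [G_apply]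
    rw [d.D_comm i k]
  rw [h3]
  have h4 : d.D k (d.D j d.ψ) = d.G k j := rfl
  rw [h4] at h
  linear_combination h

lemma sum_x_dmP : ∑ i, d.x i • dM (d.D i) d.P = 0 := by
  ext α j
  simp only [Matrix.sum_apply, Matrix.smul_apply, smul_eq_mul, dM_apply, P_apply, Matrix.zero_apply]
  exact d.x_dmP α j

lemma sum_x_dmG : ∑ i, d.x i • dM (d.D i) d.G = 0 := by
  ext k j
  simp only [Matrix.sum_apply, Matrix.smul_apply, smul_eq_mul, dM_apply, Matrix.zero_apply]
  exact d.x_dmG k j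

lemma sum_x_A : ∑ i, d.x i • d.A i = 0 := by
  simp only [A, ← Matrix.mul_smul, ← Matrix.mul_sum, d.sum_x_dmP, Matrix.mul_zero]

lemma sum_x_Θ : ∑ i, d.x i • d.Θ i = 0 := by
  simp only [Θ, ← Matrix.mul_smul, ← Matrix.mul_sum, d.sum_x_dmG, Matrix.mul_zero]

lemma sum_x_C : ∑ i, d.x i • d.C i = 0 := by
  simp only [C, smul_sub, Finset.sum_sub_distrib, d.sum_x_A, d.sum_x_Θ, sub_zero]

/-- contraction of the third tensor with the position -/
lemma x_B (i j : ι) : ∑ q, d.x q * d.B i q j = 0 := by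
  have h : ∑ q, d.x q * d.B i q j = (d.G * ∑ q, d.x q • d.A q) i j := by
    rw [Matrix.mul_sum, Matrix.sum_apply]
    refine Finset.sum_congr rfl fun q _ => ?_
    rw [Matrix.mul_smul, Matrix.smul_apply, smul_eq_mul, d.B_symm01 i q j]
    rfl
  rw [h, d.sum_x_A, Matrix.mul_zero, Matrix.zero_apply]

lemma x_A (m i : ι) : ∑ q, d.x q * d.A i m q = 0 := by
  have h : ∑ q, d.x q * d.A i m q = (∑ q, d.x q • d.A q) m i := by
    rw [Matrix.sum_apply]
    refine Finset.sum_congr rfl fun q _ => ?_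
    rw [Matrix.smul_apply, smul_eq_mul, d.A_symm i m q]
  rw [h, d.sum_x_A, Matrix.zero_apply]

lemma x_C (m i : ι) : ∑ q, d.x q * d.C i m q = 0 := by
  have h : ∑ q, d.x q * d.C i m q = (∑ q, d.x q • d.C q) m i := by
    rw [Matrix.sum_apply]
    refine Finset.sum_congr rfl fun q _ => ?_
    rw [Matrix.smul_apply, smul_eq_mul, d.C_symm i m q]
  rw [h, d.sum_x_C, Matrix.zero_apply]

/-- `G⁻¹ dψ = x` -/
lemma Gi_dψ (i : ι) : ∑ j, d.Gi i j * d.D j d.ψ = d.x i := by
  have h : ∑ j, d.Gi i j * d.D j d.ψ = ((d.Gi * d.G) *ᵥ d.x) i := by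
    rw [← Matrix.mulVec_mulVec]
    simp only [Matrix.mulVec, dotProduct]
    refine Finset.sum_congr rfl fun j _ => ?_
    congr 1
    rw [← d.x_G j]
    refine Finset.sum_congr rfl fun l _ => ?_
    rw [d.G_symm j l]; ring
  rw [h, d.Gi_G, Matrix.one_mulVec]

/-- The trace of `A k`. -/
def β (k : ι) : R := trace (d.A k)

/-- The trace of `C k`. -/
def γ (k : ι) : R := trace (d.C k)

lemma x_β : ∑ k, d.x k * d.β k = 0 := by
  have : ∑ k, d.x k * d.β k = trace (∑ k, d.x k • d.A k) := by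
    rw [Matrix.trace_sum]
    refine Finset.sum_congr rfl fun k _ => ?_
    rw [Matrix.trace_smul, smul_eq_mul]; rfl
  rw [this, d.sum_x_A, Matrix.trace_zero]

lemma Gi_mul_GF (F : Matrix ι ι R) : d.Gi * (d.G * F) = F := by
  rw [← Matrix.mul_assoc, d.Gi_G, Matrix.one_mul]

/-- Contraction of a symmetric family. -/
lemma contr (F : ι → Matrix ι ι R) (hF : ∀ n s m, (d.G * F n) s m = (d.G * F s) n m) (r : ι) :
    ∑ m, ∑ n, d.Gi m n * F n r m = ∑ s, d.Gi r s * trace (F s) := by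
  have h1 : ∀ n m, F n r m = ∑ s, d.Gi r s * (d.G * F s) n m := by
    intro n m
    conv_lhs => rw [← d.Gi_mul_GF (F n), Matrix.mul_apply]
    refine Finset.sum_congr rfl fun s _ => ?_
    rw [hF n s m]
  have h2 : ∀ s, trace (F s) = ∑ m, ∑ n, d.Gi m n * (d.G * F s) n m := by
    intro s
    conv_lhs => rw [← d.Gi_mul_GF (F s)]
    simp only [Matrix.trace, Matrix.diag, Matrix.mul_apply]
  simp only [h1, h2, Finset.mul_sum]
  calc ∑ m, ∑ n, ∑ s, d.Gi m n * (d.Gi r s * (d.G * F s) n m)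
      = ∑ m, ∑ s, ∑ n, d.Gi m n * (d.Gi r s * (d.G * F s) n m) :=
        Finset.sum_congr rfl fun m _ => Finset.sum_comm
    _ = ∑ s, ∑ m, ∑ n, d.Gi m n * (d.Gi r s * (d.G * F s) n m) := Finset.sum_comm
    _ = _ := by
        refine Finset.sum_congr rfl fun s _ => ?_
        refine Finset.sum_congr rfl fun m _ => ?_
        refine Finset.sum_congr rfl fun n _ => ?_
        ring

lemma contr_A (r : ι) : ∑ m, ∑ n, d.Gi m n * d.A n r m = ∑ s, d.Gi r s * d.β s :=
  d.contr d.A (fun n s m => d.B_symm01 n s m) r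

lemma contr_C (r : ι) : ∑ m, ∑ n, d.Gi m n * d.C n r m = ∑ s, d.Gi r s * d.γ s :=
  d.contr d.C (fun n s m => d.GC_apply_symm n s m) r

lemma contr_B (s : ι) : ∑ m, ∑ n, d.Gi m n * d.B s n m = d.β s := by
  have : d.β s = trace (d.Gi * d.B s) := by
    simp only [β, B, d.Gi_mul_GF]
  rw [this]
  simp only [Matrix.trace, Matrix.diag, Matrix.mul_apply]

/-- `G A Gi = Aᵀ` -/
lemma G_A_Gi (i : ι) : d.G * d.A i * d.Gi = (d.A i)ᵀ := by
  rw [← d.A_transpose_G, Matrix.mul_assoc, d.G_Gi, Matrix.mul_one]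

lemma G_C_Gi (i : ι) : d.G * d.C i * d.Gi = (d.C i)ᵀ := by
  rw [← d.C_transpose_G, Matrix.mul_assoc, d.G_Gi, Matrix.mul_one]

/-- Contraction of `Q`. -/
lemma contr_Q (i k : ι) : ∑ m, ∑ n, d.Gi m n * d.Q i k n m
    = ∑ s, d.A i s k * d.γ s + ∑ s, d.C i s k * d.β s := by
  have h1 : ∀ (X : Matrix ι ι R) (Y : ι → Matrix ι ι R) (w : ι → R)
      (hY : ∀ r, ∑ m, ∑ n, d.Gi m n * Y n r m = ∑ s, d.Gi r s * w s),
      ∑ m, ∑ n, d.Gi m n * (d.G * X * Y n) k m = ∑ s, (d.G * X * d.Gi) k s * w s := by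
    intro X Y w hY
    have e1 : ∀ m n, d.Gi m n * (d.G * X * Y n) k m
        = ∑ r, (d.G * X) k r * (d.Gi m n * Y n r m) := by
      intro m n
      rw [Matrix.mul_apply, Finset.mul_sum]
      refine Finset.sum_congr rfl fun r _ => ?_
      ring
    simp only [e1]
    calc ∑ m, ∑ n, ∑ r, (d.G * X) k r * (d.Gi m n * Y n r m)
        = ∑ m, ∑ r, ∑ n, (d.G * X) k r * (d.Gi m n * Y n r m) :=
          Finset.sum_congr rfl fun m _ => Finset.sum_comm
      _ = ∑ r, ∑ m, ∑ n, (d.G * X) k r * (d.Gi m n * Y n r m) := Finset.sum_comm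
      _ = ∑ r, (d.G * X) k r * ∑ s, d.Gi r s * w s := by
          refine Finset.sum_congr rfl fun r _ => ?_
          rw [← hY r, Finset.mul_sum]
          refine Finset.sum_congr rfl fun m _ => ?_
          rw [Finset.mul_sum]
      _ = ∑ r, ∑ s, (d.G * X) k r * d.Gi r s * w s := by
          refine Finset.sum_congr rfl fun r _ => ?_
          rw [Finset.mul_sum]
          refine Finset.sum_congr rfl fun s _ => ?_
          ring
      _ = ∑ s, ∑ r, (d.G * X) k r * d.Gi r s * w s := Finset.sum_comm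
      _ = ∑ s, (d.G * X * d.Gi) k s * w s := by
          refine Finset.sum_congr rfl fun s _ => ?_
          rw [Matrix.mul_apply, Finset.sum_mul]
  have h2 : ∀ n m, d.Q i k n m = (d.G * d.A i * d.C n) k m + (d.G * d.C i * d.A n) k m := by
    intro n m
    simp only [Q, Matrix.mul_add, Matrix.add_apply, ← Matrix.mul_assoc]
  simp only [h2, mul_add, Finset.sum_add_distrib]
  rw [h1 (d.A i) d.C d.γ d.contr_C, h1 (d.C i) d.A d.β d.contr_A, d.G_A_Gi, d.G_C_Gi]
  simp only [Matrix.transpose_apply]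

/-- `tr E` -/
lemma trace_E (i k : ι) : trace (d.E i k)
    = (2 : R) * d.D i (d.β k) - ∑ m, d.Θ i m k * d.β m := by
  simp only [E, cov, Tw, Matrix.trace_sub, Matrix.trace_add, Matrix.trace_smul, smul_eq_mul,
    Matrix.trace_sum, ← trace_dM, Matrix.trace_mul_comm (d.Θ i) (d.A k), sub_self, add_zero]
  rfl

lemma trace_eq_Ef (i k : ι) : trace (d.E i k) = ∑ m, ∑ n, d.Gi m n * d.Ef i k n m := by
  conv_lhs => rw [← d.Gi_mul_GF (d.E i k)]
  simp only [Matrix.trace, Matrix.diag, Matrix.mul_apply, Ef]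

/-- Trace of the fundamental equation -/
theorem TF0 (i k : ι) : d.ψ * trace (d.E i k)
    = - (d.D i d.ψ * d.β k + d.D k d.ψ * d.β i)
      - d.ψ * (∑ s, d.A i s k * d.γ s + ∑ s, d.C i s k * d.β s) := by
  rw [d.trace_eq_Ef, Finset.mul_sum]
  have h : ∀ m n, d.ψ * (d.Gi m n * d.Ef i k n m)
      = - (d.D i d.ψ * (d.Gi m n * d.B k n m) + d.D k d.ψ * (d.Gi m n * d.B i n m)
          + (d.Gi m n * d.D n d.ψ) * d.B i k m + (d.Gi m n * d.D m d.ψ) * d.B i k n)
        - d.ψ * (d.Gi m n * d.Q i k n m) := by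
    intro m n
    have := d.FE i k n m
    have e1 : d.B n k m = d.B k n m := d.B_symm01 n k m
    have e2 : d.B i n k = d.B i k n := d.B_symm12 i n k
    rw [e1, e2] at this
    linear_combination (d.Gi m n) * this
  simp only [Finset.mul_sum, h]
  simp only [Finset.sum_sub_distrib, Finset.sum_neg_distrib, Finset.sum_add_distrib,
    ← Finset.mul_sum, d.contr_B, d.contr_Q]
  have h3 : ∑ m, ∑ n, d.Gi m n * d.D n d.ψ * d.B i k m = 0 := by
    have : ∀ m, ∑ n, d.Gi m n * d.D n d.ψ * d.B i k m = d.x m * d.B i k m := by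
      intro m
      rw [← Finset.sum_mul, d.Gi_dψ]
    simp only [this]
    have e : ∑ m, d.x m * d.B i k m = ∑ m, d.x m * d.B i m k := by
      refine Finset.sum_congr rfl fun m _ => ?_
      rw [d.B_symm12 i k m]
    rw [e, d.x_B]
  have h4 : ∑ m, ∑ n, d.Gi m n * d.D m d.ψ * d.B i k n = 0 := by
    rw [Finset.sum_comm]
    have : ∀ n, ∑ m, d.Gi m n * d.D m d.ψ * d.B i k n = d.x n * d.B i k n := by
      intro n
      rw [← Finset.sum_mul, ← d.Gi_dψ n]
      congr 1
      refine Finset.sum_congr rfl fun m _ => ?_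
      rw [d.Gi_symm m n]
    simp only [this]
    have e : ∑ m, d.x m * d.B i k m = ∑ m, d.x m * d.B i m k := by
      refine Finset.sum_congr rfl fun m _ => ?_
      rw [d.B_symm12 i k m]
    rw [e, d.x_B]
  rw [h3, h4]
  ring

/-- The trace formula. -/
theorem TF (i k : ι) : d.ψ * ((2 : R) * d.D i (d.β k))
    = d.ψ * ∑ m, d.A i m k * (d.β m - d.γ m) - d.D i d.ψ * d.β k - d.D k d.ψ * d.β i := by
  have h1 := d.TF0 i k
  rw [d.trace_E] at h1
  have h2 : ∑ m, d.Θ i m k * d.β m = ∑ m, d.A i m k * d.β m + ∑ m, d.C i m k * d.β m := by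
    rw [← Finset.sum_add_distrib]
    refine Finset.sum_congr rfl fun m _ => ?_
    rw [d.Θ_eq_add, Matrix.add_apply]; ring
  have h3 : ∑ m, d.A i m k * (d.β m - d.γ m)
      = ∑ m, d.A i m k * d.β m - ∑ m, d.A i m k * d.γ m := by
    rw [← Finset.sum_sub_distrib]
    refine Finset.sum_congr rfl fun m _ => ?_
    ring
  rw [h2] at h1
  rw [h3]
  linear_combination h1

/-- squared Jacobian determinant -/
def h : R := (det d.P) ^ 2

lemma adjugate_P : adjugate d.P = (det d.P) • d.Pi := by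
  calc adjugate d.P = adjugate d.P * (d.P * d.Pi) := by rw [d.P_Pi, Matrix.mul_one]
    _ = (adjugate d.P * d.P) * d.Pi := by rw [Matrix.mul_assoc]
    _ = (det d.P) • d.Pi := by rw [Matrix.adjugate_mul, Matrix.smul_mul, Matrix.one_mul]

lemma D_det (k : ι) : d.D k (det d.P) = det d.P * d.β k := by
  rw [derivation_det, d.adjugate_P, Matrix.smul_mul, Matrix.trace_smul, smul_eq_mul]
  rfl

lemma D_h (k : ι) : d.D k d.h = 2 * d.h * d.β k := by
  simp only [h, Derivation.leibniz_pow, d.D_det, smul_eq_mul, nsmul_eq_mul]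
  norm_num
  ring

lemma DD_h (i k : ι) : d.D i (d.D k d.h)
    = 4 * d.h * (d.β i * d.β k) + d.h * (2 * d.D i (d.β k)) := by
  rw [d.D_h k]
  have h2 : d.D i (2 : R) = 0 := by
    have := (d.D i).map_natCast 2
    simpa using this
  simp only [Derivation.leibniz, smul_eq_mul, h2, d.D_h i]
  ring

/-- first order coefficient in the equation of `h` -/
def bh (k : ι) : R := ∑ m, d.Gi k m * (d.γ m - d.β m)

lemma ψ_cancel (a b : R) (h : d.ψ * a = d.ψ * b) : a = b := by
  calc a = d.ψi * (d.ψ * a) := by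
        rw [← mul_assoc, mul_comm d.ψi, d.ψ_mul, one_mul]
    _ = d.ψi * (d.ψ * b) := by rw [h]
    _ = b := by rw [← mul_assoc, mul_comm d.ψi, d.ψ_mul, one_mul]

theorem h_eq : (2 : R) * ∑ i, ∑ k, d.Gi i k * d.D i (d.D k d.h) + ∑ k, d.bh k * d.D k d.h
    = 8 * d.h * ∑ i, ∑ k, d.Gi i k * (d.β i * d.β k) := by
  set BB := ∑ i, ∑ k, d.Gi i k * (d.β i * d.β k) with hBB
  set TT := ∑ m, ∑ s, d.Gi m s * d.β s * (d.β m - d.γ m) with hTT
  -- contractions
  have c1 : d.ψ * ∑ i, ∑ k, d.Gi i k * (2 * d.D i (d.β k)) = d.ψ * TT := by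
    have e : ∀ i k, d.ψ * (d.Gi i k * (2 * d.D i (d.β k)))
        = d.ψ * ∑ m, (d.Gi k i * d.A i m k) * (d.β m - d.γ m)
          - (d.Gi i k * d.D i d.ψ) * d.β k - (d.Gi i k * d.D k d.ψ) * d.β i := by
      intro i k
      have h1 := d.TF i k
      have h2 : ∑ m, (d.Gi k i * d.A i m k) * (d.β m - d.γ m)
          = d.Gi k i * ∑ m, d.A i m k * (d.β m - d.γ m) := by
        rw [Finset.mul_sum]
        refine Finset.sum_congr rfl fun m _ => ?_
        ring
      rw [h2, d.Gi_symm k i]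
      linear_combination (d.Gi i k) * h1
    simp only [Finset.mul_sum]
    simp only [e, Finset.sum_sub_distrib]
    have e2 : ∑ i, ∑ k, (d.Gi i k * d.D i d.ψ) * d.β k = 0 := by
      rw [Finset.sum_comm]
      rw [← d.x_β]
      refine Finset.sum_congr rfl fun k _ => ?_
      rw [← Finset.sum_mul, ← d.Gi_dψ k]
      congr 1
      refine Finset.sum_congr rfl fun i _ => ?_
      rw [d.Gi_symm i k]
    have e3 : ∑ i, ∑ k, (d.Gi i k * d.D k d.ψ) * d.β i = 0 := by
      rw [← d.x_β]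
      refine Finset.sum_congr rfl fun i _ => ?_
      rw [← Finset.sum_mul, d.Gi_dψ i]
    rw [e2, e3, sub_zero, sub_zero]
    have e4 : ∑ i, ∑ k, ∑ m, d.ψ * (d.Gi k i * d.A i m k * (d.β m - d.γ m))
        = d.ψ * ∑ m, ∑ s, d.Gi m s * d.β s * (d.β m - d.γ m) := by
      calc ∑ i, ∑ k, ∑ m, d.ψ * (d.Gi k i * d.A i m k * (d.β m - d.γ m))
          = ∑ k, ∑ i, ∑ m, d.ψ * (d.Gi k i * d.A i m k * (d.β m - d.γ m)) := Finset.sum_comm
        _ = ∑ k, ∑ m, ∑ i, d.ψ * (d.Gi k i * d.A i m k * (d.β m - d.γ m)) :=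
            Finset.sum_congr rfl fun k _ => Finset.sum_comm
        _ = ∑ m, ∑ k, ∑ i, d.ψ * (d.Gi k i * d.A i m k * (d.β m - d.γ m)) := Finset.sum_comm
        _ = ∑ m, d.ψ * ((∑ k, ∑ i, d.Gi k i * d.A i m k) * (d.β m - d.γ m)) := by
            refine Finset.sum_congr rfl fun m _ => ?_
            rw [Finset.sum_mul, Finset.mul_sum]
            refine Finset.sum_congr rfl fun k _ => ?_
            rw [Finset.sum_mul, Finset.mul_sum]
        _ = _ := by
            rw [Finset.mul_sum]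
            refine Finset.sum_congr rfl fun m _ => ?_
            rw [d.contr_A, Finset.sum_mul]
    simp only [Finset.mul_sum] at e4 ⊢
    rw [e4]
    simp only [hTT, Finset.mul_sum]
  have c2 : ∑ k, d.bh k * d.D k d.h = - (2 * d.h * TT) := by
    simp only [bh, d.D_h, hTT, Finset.mul_sum, Finset.sum_mul, ← Finset.sum_neg_distrib]
    rw [Finset.sum_comm]
    refine Finset.sum_congr rfl fun m _ => ?_
    refine Finset.sum_congr rfl fun k _ => ?_
    rw [d.Gi_symm k m]
    ring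
  have c3 : ∑ i, ∑ k, d.Gi i k * d.D i (d.D k d.h)
      = 4 * d.h * BB + d.h * ∑ i, ∑ k, d.Gi i k * (2 * d.D i (d.β k)) := by
    simp only [d.DD_h, hBB, Finset.mul_sum, ← Finset.sum_add_distrib]
    refine Finset.sum_congr rfl fun i _ => ?_
    refine Finset.sum_congr rfl fun k _ => ?_
    ring
  apply d.ψ_cancel
  rw [c2, c3]
  linear_combination (2 * d.h) * c1

end Data

end Vale.Agent.P084
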