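import Vale.Agent.P084.Alg3

/-!
Pairing, curvature identity and the second derivative of the squared norm of the second
fundamental form `A`.
-/

set_option linter.unusedSectionVars false
set_option linter.unusedVariables false

namespace Vale.Agent.P084

open Matrix

variable {ι R : Type*} [Fintype ι] [DecidableEq ι] [CommRing R] [Algebra ℝ R]

section Tw

lemma Tw_apply (X : Matrix ι ι R) (U : ι → Matrix ι ι R) (j : ι) :
    Tw X U j = ∑ m, X m j • U m := rfl

lemma Tw_sub_left (X Y : Matrix ι ι R) (U : ι → Matrix ι ι R) (j : ι) :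
    Tw (X - Y) U j = Tw X U j - Tw Y U j := by
  simp only [Tw, Matrix.sub_apply, sub_smul, Finset.sum_sub_distrib]

lemma Tw_neg_left (X : Matrix ι ι R) (U : ι → Matrix ι ι R) (j : ι) :
    Tw (-X) U j = - Tw X U j := by
  simp only [Tw, Matrix.neg_apply, neg_smul, Finset.sum_neg_distrib]

lemma Tw_add_right (X : Matrix ι ι R) (U V : ι → Matrix ι ι R) (j : ι) :
    Tw X (fun m => U m + V m) j = Tw X U j + Tw X V j := by
  simp only [Tw, smul_add, Finset.sum_add_distrib]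

lemma Tw_sub_right (X : Matrix ι ι R) (U V : ι → Matrix ι ι R) (j : ι) :
    Tw X (fun m => U m - V m) j = Tw X U j - Tw X V j := by
  simp only [Tw, smul_sub, Finset.sum_sub_distrib]

lemma Tw_two_smul (X : Matrix ι ι R) (U : ι → Matrix ι ι R) (j : ι) :
    Tw X (fun m => (2 : R) • U m) j = (2 : R) • Tw X U j := by
  simp only [Tw, Finset.smul_sum, smul_comm (X _ j) (2 : R)]

lemma Tw_Tw (X Y : Matrix ι ι R) (U : ι → Matrix ι ι R) (j : ι) :
    Tw X (fun m => Tw Y U m) j = Tw (Y * X) U j := by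
  simp only [Tw, Finset.smul_sum, Matrix.mul_apply, Finset.sum_smul, smul_smul]
  rw [Finset.sum_comm]
  refine Finset.sum_congr rfl fun m _ => ?_
  refine Finset.sum_congr rfl fun n _ => ?_
  rw [mul_comm]

lemma dM_Tw (d : Derivation ℝ R R) (X : Matrix ι ι R) (U : ι → Matrix ι ι R) (j : ι) :
    dM d (Tw X U j) = Tw (dM d X) U j + Tw X (fun m => dM d (U m)) j := by
  simp only [Tw, dM_sum, dM_smul, Finset.sum_add_distrib, dM_apply]

lemma mul_Tw (Z X : Matrix ι ι R) (U : ι → Matrix ι ι R) (j : ι) :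
    Z * Tw X U j = Tw X (fun m => Z * U m) j := by
  simp only [Tw, Matrix.mul_sum, Matrix.mul_smul]

lemma Tw_mul (Z X : Matrix ι ι R) (U : ι → Matrix ι ι R) (j : ι) :
    Tw X U j * Z = Tw X (fun m => U m * Z) j := by
  simp only [Tw, Matrix.sum_mul, Matrix.smul_mul]

lemma Tw_congr (X : Matrix ι ι R) (U V : ι → Matrix ι ι R) (h : ∀ m, U m = V m) (j : ι) :
    Tw X U j = Tw X V j := by
  simp only [Tw, h]

end Tw

namespace Data

variable (d : Data ι R)

/-- The `G⁻¹`-pairing of families of matrices. -/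
def pair (U V : ι → Matrix ι ι R) : R := ∑ j, ∑ b, d.Gi j b * trace (U j * V b)

lemma pair_comm (U V : ι → Matrix ι ι R) : d.pair U V = d.pair V U := by
  simp only [pair]
  rw [Finset.sum_comm]
  refine Finset.sum_congr rfl fun j _ => ?_
  refine Finset.sum_congr rfl fun b _ => ?_
  rw [d.Gi_symm b j, Matrix.trace_mul_comm]

/-- `Θ Gi` -/
def ΘGi (q : ι) : Matrix ι ι R := d.Θ q * d.Gi

lemma dM_Gi (q : ι) : dM (d.D q) d.Gi = - d.ΘGi q := by
  rw [dM_inv (d.D q) d.Gi_G]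
  rfl

lemma ΘGi_symm (q a b : ι) : d.ΘGi q a b = d.ΘGi q b a := by
  have : (d.ΘGi q)ᵀ = d.ΘGi q := by
    simp only [ΘGi, Θ, Matrix.transpose_mul, d.Gi_transpose, d.dmG_transpose, Matrix.mul_assoc]
  have := congrFun (congrFun this b) a
  simpa using this

/-- metric compatibility, abstract form -/
lemma metric_compat {W : Type*} [AddCommGroup W] [Module R W] (q : ι) (t : ι → ι → W) :
    ∑ p, ∑ b, d.Gi p b • (∑ m, d.Θ q m p • t m b + ∑ m, d.Θ q m b • t p m)
      = (2 : R) • ∑ p, ∑ b, d.ΘGi q p b • t p b := by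
  have hA : ∑ p, ∑ b, d.Gi p b • ∑ m, d.Θ q m p • t m b = ∑ p, ∑ b, d.ΘGi q p b • t p b := by
    simp only [Finset.smul_sum, smul_smul]
    calc ∑ p, ∑ b, ∑ m, (d.Gi p b * d.Θ q m p) • t m b
        = ∑ b, ∑ p, ∑ m, (d.Gi p b * d.Θ q m p) • t m b := Finset.sum_comm
      _ = ∑ b, ∑ m, ∑ p, (d.Gi p b * d.Θ q m p) • t m b :=
          Finset.sum_congr rfl fun b _ => Finset.sum_comm
      _ = ∑ m, ∑ b, ∑ p, (d.Gi p b * d.Θ q m p) • t m b := Finset.sum_comm
      _ = ∑ m, ∑ b, d.ΘGi q m b • t m b := by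
          refine Finset.sum_congr rfl fun m _ => ?_
          refine Finset.sum_congr rfl fun b _ => ?_
          rw [← Finset.sum_smul, ΘGi, Matrix.mul_apply]
          congr 1
          refine Finset.sum_congr rfl fun p _ => ?_
          ring
  have hB : ∑ p, ∑ b, d.Gi p b • ∑ m, d.Θ q m b • t p m = ∑ p, ∑ b, d.ΘGi q p b • t p b := by
    simp only [Finset.smul_sum, smul_smul]
    refine Finset.sum_congr rfl fun p _ => ?_
    calc ∑ b, ∑ m, (d.Gi p b * d.Θ q m b) • t p m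
        = ∑ m, ∑ b, (d.Gi p b * d.Θ q m b) • t p m := Finset.sum_comm
      _ = ∑ m, d.ΘGi q p m • t p m := by
          refine Finset.sum_congr rfl fun m _ => ?_
          rw [← Finset.sum_smul, d.ΘGi_symm q p m, ΘGi, Matrix.mul_apply]
          congr 1
          refine Finset.sum_congr rfl fun b _ => ?_
          rw [d.Gi_symm p b]
          ring
  simp only [smul_add, Finset.sum_add_distrib]
  rw [hA, hB, two_smul]

/-- Leibniz rule for the pairing. -/
lemma pair_leibniz (q : ι) (U V : ι → Matrix ι ι R) :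
    (2 : R) * d.D q (d.pair U V) = d.pair (d.cov q U) V + d.pair U (d.cov q V) := by
  have h1 : ∀ j b, trace (d.cov q U j * V b) + trace (U j * d.cov q V b)
      = (2 : R) * d.D q (trace (U j * V b))
        - (∑ m, d.Θ q m j * trace (U m * V b) + ∑ m, d.Θ q m b * trace (U j * V m)) := by
    intro j b
    simp only [cov, Tw, Matrix.add_mul, Matrix.sub_mul, Matrix.mul_add, Matrix.mul_sub,
      Matrix.sum_mul, Matrix.mul_sum, Matrix.trace_add, Matrix.trace_sub, Matrix.trace_sum,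
      Matrix.smul_mul, Matrix.mul_smul, Matrix.trace_smul, smul_eq_mul, trace_dM, dM_mul]
    have e1 : trace (U j * d.Θ q * V b) = trace (U j * (d.Θ q * V b)) := by
      rw [Matrix.mul_assoc]
    have e2 : trace (d.Θ q * U j * V b) = trace (U j * (V b * d.Θ q)) := by
      rw [Matrix.mul_assoc, Matrix.trace_mul_comm]
      simp only [Matrix.mul_assoc]
    rw [e1, e2]
    ring
  have hD : ∀ j b, d.D q (d.Gi j b) = - d.ΘGi q j b := by
    intro j b
    have := congrFun (congrFun (d.dM_Gi q) j) b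
    simpa using this
  have h3 := d.metric_compat q (fun j b => trace (U j * V b))
  simp only [smul_eq_mul] at h3
  have hR : d.pair (d.cov q U) V + d.pair U (d.cov q V)
      = (2 : R) * ∑ j, ∑ b, d.Gi j b * d.D q (trace (U j * V b))
        - (2 : R) * ∑ j, ∑ b, d.ΘGi q j b * trace (U j * V b) := by
    rw [← h3, Finset.mul_sum, ← Finset.sum_sub_distrib]
    simp only [pair, ← Finset.sum_add_distrib]
    refine Finset.sum_congr rfl fun j _ => ?_
    rw [Finset.mul_sum, ← Finset.sum_sub_distrib]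
    refine Finset.sum_congr rfl fun b _ => ?_
    rw [← mul_add, h1, Finset.sum_add_distrib]
    ring
  have hL : d.D q (d.pair U V) = ∑ j, ∑ b, d.Gi j b * d.D q (trace (U j * V b))
      - ∑ j, ∑ b, d.ΘGi q j b * trace (U j * V b) := by
    simp only [pair, map_sum, Derivation.leibniz, smul_eq_mul, hD, ← Finset.sum_sub_distrib]
    refine Finset.sum_congr rfl fun j _ => ?_
    refine Finset.sum_congr rfl fun b _ => ?_
    ring
  rw [hR, hL]
  ring

/-- squared norm of `A` -/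
def S0 : R := d.pair d.A d.A

lemma E_eq_cov (q : ι) : d.E q = d.cov q d.A := rfl

/-- first derivative of `S0` -/
lemma D_S0 (q : ι) : d.D q d.S0 = d.pair (d.E q) d.A := by
  apply two_cancel
  rw [S0, d.pair_leibniz, d.pair_comm d.A (d.cov q d.A), ← d.E_eq_cov]
  ring

/-- second derivative of `S0` -/
lemma DD_S0 (p q : ι) : (2 : R) * d.D p (d.D q d.S0)
    = d.pair (d.cov p (d.E q)) d.A + d.pair (d.E q) (d.E p) := by
  rw [d.D_S0 q, d.pair_leibniz, ← d.E_eq_cov]

/-- curvature -/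
def RR (p j : ι) : Matrix ι ι R := - (d.Θ p * d.Θ j - d.Θ j * d.Θ p)

/-- The curvature identity for `cov`. -/
lemma cov_cov (p j : ι) (U : ι → Matrix ι ι R) (q : ι) :
    d.cov p (d.cov j U) q - d.cov j (d.cov p U) q
      = (d.RR p j * U q - U q * d.RR p j) - Tw (d.RR p j) U q := by
  have hexp : ∀ a b : ι, d.cov a (d.cov b U) q
      = (2 : R) • ((2 : R) • dM (d.D a) (dM (d.D b) (U q))
          + (dM (d.D a) (d.Θ b) * U q + d.Θ b * dM (d.D a) (U q)
             - (dM (d.D a) (U q) * d.Θ b + U q * dM (d.D a) (d.Θ b)))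
          - (Tw (dM (d.D a) (d.Θ b)) U q + Tw (d.Θ b) (fun m => dM (d.D a) (U m)) q))
        + (d.Θ a * ((2 : R) • dM (d.D b) (U q) + (d.Θ b * U q - U q * d.Θ b))
            - ((2 : R) • dM (d.D b) (U q) + (d.Θ b * U q - U q * d.Θ b)) * d.Θ a
            - (Tw (d.Θ b) (fun m => d.Θ a * U m - U m * d.Θ a) q))
        - ((2 : R) • Tw (d.Θ a) (fun m => dM (d.D b) (U m)) q
            + Tw (d.Θ a) (fun m => d.Θ b * U m - U m * d.Θ b) q
            - Tw (d.Θ b * d.Θ a) U q) := by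
    intro a b
    have h1 : dM (d.D a) (d.cov b U q)
        = (2 : R) • dM (d.D a) (dM (d.D b) (U q))
          + (dM (d.D a) (d.Θ b) * U q + d.Θ b * dM (d.D a) (U q)
             - (dM (d.D a) (U q) * d.Θ b + U q * dM (d.D a) (d.Θ b)))
          - (Tw (dM (d.D a) (d.Θ b)) U q + Tw (d.Θ b) (fun m => dM (d.D a) (U m)) q) := by
      simp only [cov, dM_add, dM_sub, dM_nsmul_two, dM_mul, dM_Tw]
    have h2 : d.Θ a * d.cov b U q - d.cov b U q * d.Θ a
        = d.Θ a * ((2 : R) • dM (d.D b) (U q) + (d.Θ b * U q - U q * d.Θ b))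
            - ((2 : R) • dM (d.D b) (U q) + (d.Θ b * U q - U q * d.Θ b)) * d.Θ a
            - (Tw (d.Θ b) (fun m => d.Θ a * U m - U m * d.Θ a) q) := by
      have e : (fun m => d.Θ a * U m - U m * d.Θ a)
          = (fun m => (fun m => d.Θ a * U m) m - (fun m => U m * d.Θ a) m) := rfl
      rw [e, Tw_sub_right, ← mul_Tw, ← Tw_mul]
      simp only [cov, Matrix.mul_sub, Matrix.sub_mul]
      abel
    have h3 : Tw (d.Θ a) (d.cov b U) q
        = (2 : R) • Tw (d.Θ a) (fun m => dM (d.D b) (U m)) q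
            + Tw (d.Θ a) (fun m => d.Θ b * U m - U m * d.Θ b) q
            - Tw (d.Θ b * d.Θ a) U q := by
      rw [← Tw_Tw, ← Tw_two_smul, ← Tw_add_right, ← Tw_sub_right]
      exact Tw_congr _ _ _ (fun m => rfl) q
    conv_lhs => rw [cov, h1, h2, h3]
  rw [hexp p j, hexp j p]
  have hc : dM (d.D p) (dM (d.D j) (U q)) = dM (d.D j) (dM (d.D p) (U q)) := by
    ext a b; exact d.D_comm _ _ _
  have hMC := d.MC_Θ p j
  have hT1 : Tw (dM (d.D p) (d.Θ j)) U q - Tw (dM (d.D j) (d.Θ p)) U q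
      = Tw (-(d.Θ p * d.Θ j - d.Θ j * d.Θ p)) U q := by
    rw [← Tw_sub_left, hMC]
  have hT2 : Tw (d.Θ j * d.Θ p) U q - Tw (d.Θ p * d.Θ j) U q
      = Tw (-(d.Θ p * d.Θ j - d.Θ j * d.Θ p)) U q := by
    rw [← Tw_sub_left]; congr 1; abel
  have hM : dM (d.D p) (d.Θ j) = dM (d.D j) (d.Θ p) - (d.Θ p * d.Θ j - d.Θ j * d.Θ p) := by
    rw [← sub_eq_zero]
    rw [show dM (d.D p) (d.Θ j) - (dM (d.D j) (d.Θ p) - (d.Θ p * d.Θ j - d.Θ j * d.Θ p))
      = (dM (d.D p) (d.Θ j) - dM (d.D j) (d.Θ p)) + (d.Θ p * d.Θ j - d.Θ j * d.Θ p) by abel, hMC]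
    abel
  have T1eq : Tw (dM (d.D p) (d.Θ j)) U q
      = Tw (dM (d.D j) (d.Θ p)) U q + Tw (-(d.Θ p * d.Θ j - d.Θ j * d.Θ p)) U q := by
    rw [← hT1]; abel
  have T4eq : Tw (d.Θ j * d.Θ p) U q
      = Tw (d.Θ p * d.Θ j) U q + Tw (-(d.Θ p * d.Θ j - d.Θ j * d.Θ p)) U q := by
    rw [← hT2]; abel
  simp only [RR]
  rw [T1eq, T4eq, hc, hM]
  generalize Tw (dM (d.D j) (d.Θ p)) U q = t1
  generalize Tw (-(d.Θ p * d.Θ j - d.Θ j * d.Θ p)) U q = t2
  generalize Tw (d.Θ p * d.Θ j) U q = t3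
  generalize Tw (d.Θ j) (fun m => dM (d.D p) (U m)) q = t4
  generalize Tw (d.Θ p) (fun m => dM (d.D j) (U m)) q = t5
  generalize Tw (d.Θ j) (fun m => d.Θ p * U m - U m * d.Θ p) q = t6
  generalize Tw (d.Θ p) (fun m => d.Θ j * U m - U m * d.Θ j) q = t7
  generalize Tw (dM (d.D p) (d.Θ j)) U q = t8
  generalize dM (d.D j) (dM (d.D p) (U q)) = u1
  generalize dM (d.D p) (U q) = u2
  generalize dM (d.D j) (U q) = u3
  generalize dM (d.D j) (d.Θ p) = u4
  generalize U q = u5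
  generalize d.Θ p = u6
  generalize d.Θ j = u7
  simp only [two_smul]
  noncomm_ring

/-- The covariant Hessian of `A`. -/
def H (p q j : ι) : Matrix ι ι R := d.cov p (d.E q) j - Tw (d.Θ p) (fun m => d.E m j) q

lemma H_symm (p q j : ι) : d.H p q j = d.H p j q := by
  have h1 : Tw (d.Θ p) (d.E q) j = Tw (d.Θ p) (fun m => d.E m q) j :=
    Tw_congr _ _ _ (fun m => d.E_comm q m) j
  have h2 : Tw (d.Θ p) (d.E j) q = Tw (d.Θ p) (fun m => d.E m j) q :=
    Tw_congr _ _ _ (fun m => d.E_comm j m) q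
  simp only [H, cov]
  rw [h1, h2, d.E_comm q j]
  abel

/-- `RmA` -/
def RmA (p j q : ι) : Matrix ι ι R :=
  (d.RR p j * d.A q - d.A q * d.RR p j) - Tw (d.RR p j) d.A q

lemma H_diff (p j q : ι) : d.H p j q - d.H j p q = d.RmA p j q := by
  have h1 : Tw (d.Θ p) (fun m => d.E m q) j = Tw (d.Θ j) (fun m => d.E m q) p := by
    simp only [Tw]
    refine Finset.sum_congr rfl fun m _ => ?_
    rw [d.Θ_symm p m j]
  have h2 := d.cov_cov p j d.A q
  simp only [H, RmA, ← d.E_eq_cov] at h2 ⊢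
  rw [h1, ← h2]
  abel

/-- the trace of `E` -/
def TT : Matrix ι ι R := ∑ p, ∑ q, d.Gi p q • d.E p q

lemma dM_TT (j : ι) : (2 : R) • dM (d.D j) d.TT
    = (2 : R) • (∑ p, ∑ q, d.Gi p q • dM (d.D j) (d.E p q))
      - ∑ p, ∑ q, d.Gi p q • (∑ m, d.Θ j m p • d.E m q + ∑ m, d.Θ j m q • d.E p m) := by
  rw [d.metric_compat j d.E]
  simp only [TT, dM_sum, dM_smul]
  simp only [Finset.sum_add_distrib, smul_add, smul_sub]
  have hD : ∀ p q, d.D j (d.Gi p q) = - d.ΘGi j p q := by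
    intro p q
    have := congrFun (congrFun (d.dM_Gi j) p) q
    simpa using this
  simp only [hD, neg_smul, Finset.sum_neg_distrib, smul_neg]
  abel

lemma H_trace (j : ι) : ∑ p, ∑ q, d.Gi p q • d.H j p q
    = (2 : R) • dM (d.D j) d.TT + (d.Θ j * d.TT - d.TT * d.Θ j) := by
  rw [d.dM_TT]
  have e : ∀ p q, d.H j p q = (2 : R) • dM (d.D j) (d.E p q) + (d.Θ j * d.E p q - d.E p q * d.Θ j)
      - (∑ m, d.Θ j m p • d.E m q + ∑ m, d.Θ j m q • d.E p m) := by
    intro p q
    simp only [H, cov, Tw]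
    abel
  have e2 : ∀ p q, d.Gi p q • d.H j p q
      = (2 : R) • (d.Gi p q • dM (d.D j) (d.E p q))
        + (d.Θ j * (d.Gi p q • d.E p q) - (d.Gi p q • d.E p q) * d.Θ j)
        - d.Gi p q • (∑ m, d.Θ j m p • d.E m q + ∑ m, d.Θ j m q • d.E p m) := by
    intro p q
    rw [e p q, smul_sub, smul_add, smul_sub, smul_comm (d.Gi p q) (2 : R), Matrix.mul_smul,
      Matrix.smul_mul]
  simp only [e2, Finset.sum_sub_distrib, Finset.sum_add_distrib, ← Finset.smul_sum,
    ← Matrix.mul_sum, ← Matrix.sum_mul]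
  simp only [TT]
  abel

lemma TT_apply (m k : ι) : d.TT m k = ∑ r, d.Gi m r * trace (d.E k r) := by
  have h1 : ∀ p q, d.E p q m k = ∑ r, d.Gi m r * d.Ef k r p q := by
    intro p q
    rw [d.E_sym2 p q m k, d.E_comm p k]
    conv_lhs => rw [← d.Gi_mul_GF (d.E k p), Matrix.mul_apply]
    refine Finset.sum_congr rfl fun r _ => ?_
    congr 1
    show d.Ef k p r q = d.Ef k r p q
    rw [d.Ef_swap24 k p r q, d.Ef_swap34 k q r p, d.Ef_swap24 k q p r]
  simp only [TT, Matrix.sum_apply, Matrix.smul_apply, smul_eq_mul, h1, d.trace_eq_Ef,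
    Finset.mul_sum]
  calc ∑ p, ∑ q, ∑ r, d.Gi p q * (d.Gi m r * d.Ef k r p q)
      = ∑ p, ∑ r, ∑ q, d.Gi p q * (d.Gi m r * d.Ef k r p q) :=
        Finset.sum_congr rfl fun p _ => Finset.sum_comm
    _ = ∑ r, ∑ p, ∑ q, d.Gi p q * (d.Gi m r * d.Ef k r p q) := Finset.sum_comm
    _ = ∑ r, ∑ q, ∑ p, d.Gi p q * (d.Gi m r * d.Ef k r p q) :=
        Finset.sum_congr rfl fun r _ => Finset.sum_comm
    _ = _ := by
        refine Finset.sum_congr rfl fun r _ => ?_
        refine Finset.sum_congr rfl fun q _ => ?_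
        refine Finset.sum_congr rfl fun p _ => ?_
        rw [d.Gi_symm p q]
        ring

/-- Under the vanishing of `β` -/
lemma TT_eq_zero (hβ : ∀ k, d.β k = 0) : d.TT = 0 := by
  ext m k
  rw [d.TT_apply, Matrix.zero_apply]
  refine Finset.sum_eq_zero fun r _ => ?_
  rw [d.trace_E]
  simp [hβ]

/-- trace of `Θ` along the metric -/
def τ (m : ι) : R := ∑ p, ∑ q, d.Gi p q * d.Θ p m q

/-- the Laplacian of `A` -/
def RA (j : ι) : Matrix ι ι R := ∑ p, ∑ q, d.Gi p q • d.RmA p j q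

lemma lap_cov (hβ : ∀ k, d.β k = 0) (j : ι) :
    ∑ p, ∑ q, d.Gi p q • d.cov p (d.E q) j = d.RA j + ∑ m, d.τ m • d.E m j := by
  have h1 : ∀ p q, d.cov p (d.E q) j
      = d.H j p q + d.RmA p j q + ∑ m, d.Θ p m q • d.E m j := by
    intro p q
    have e1 : d.cov p (d.E q) j = d.H p q j + ∑ m, d.Θ p m q • d.E m j := by
      simp only [H, Tw]
      abel
    rw [e1, d.H_symm p q j, ← d.H_diff p j q]
    abel
  simp only [h1, smul_add, Finset.sum_add_distrib]
  rw [d.H_trace j, d.TT_eq_zero hβ]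
  simp only [dM_zero, smul_zero, Matrix.mul_zero, Matrix.zero_mul, sub_self, add_zero, zero_add]
  congr 1
  simp only [τ, Finset.sum_smul, Finset.smul_sum, smul_smul, RA]
  calc ∑ p, ∑ q, ∑ m, (d.Gi p q * d.Θ p m q) • d.E m j
      = ∑ p, ∑ m, ∑ q, (d.Gi p q * d.Θ p m q) • d.E m j :=
        Finset.sum_congr rfl fun p _ => Finset.sum_comm
    _ = ∑ m, ∑ p, ∑ q, (d.Gi p q * d.Θ p m q) • d.E m j := Finset.sum_comm

lemma pair_add_left (U V W : ι → Matrix ι ι R) :
    d.pair (fun j => U j + V j) W = d.pair U W + d.pair V W := by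
  simp only [pair, Matrix.add_mul, Matrix.trace_add, mul_add, Finset.sum_add_distrib]

lemma pair_smul_sum_left {κ : Type*} [Fintype κ] (c : κ → R) (U : κ → ι → Matrix ι ι R)
    (W : ι → Matrix ι ι R) :
    d.pair (fun j => ∑ k, c k • U k j) W = ∑ k, c k * d.pair (U k) W := by
  simp only [pair, Matrix.sum_mul, Matrix.smul_mul, Matrix.trace_sum, Matrix.trace_smul,
    smul_eq_mul, Finset.mul_sum]
  calc ∑ j, ∑ b, ∑ k, d.Gi j b * (c k * trace (U k j * W b))
      = ∑ j, ∑ k, ∑ b, d.Gi j b * (c k * trace (U k j * W b)) :=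
        Finset.sum_congr rfl fun j _ => Finset.sum_comm
    _ = ∑ k, ∑ j, ∑ b, d.Gi j b * (c k * trace (U k j * W b)) := Finset.sum_comm
    _ = _ := by
        refine Finset.sum_congr rfl fun k _ => ?_
        refine Finset.sum_congr rfl fun j _ => ?_
        refine Finset.sum_congr rfl fun b _ => ?_
        ring

lemma pair_smul_sum2_left (c : ι → ι → R) (U : ι → ι → ι → Matrix ι ι R)
    (W : ι → Matrix ι ι R) :
    d.pair (fun j => ∑ p, ∑ q, c p q • U p q j) W = ∑ p, ∑ q, c p q * d.pair (U p q) W := by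
  simp only [pair, Matrix.sum_mul, Matrix.smul_mul, Matrix.trace_sum, Matrix.trace_smul,
    smul_eq_mul, Finset.mul_sum]
  calc ∑ j, ∑ b, ∑ p, ∑ q, d.Gi j b * (c p q * trace (U p q j * W b))
      = ∑ j, ∑ p, ∑ b, ∑ q, d.Gi j b * (c p q * trace (U p q j * W b)) :=
        Finset.sum_congr rfl fun j _ => Finset.sum_comm
    _ = ∑ p, ∑ j, ∑ b, ∑ q, d.Gi j b * (c p q * trace (U p q j * W b)) := Finset.sum_comm
    _ = ∑ p, ∑ j, ∑ q, ∑ b, d.Gi j b * (c p q * trace (U p q j * W b)) :=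
        Finset.sum_congr rfl fun p _ => Finset.sum_congr rfl fun j _ => Finset.sum_comm
    _ = ∑ p, ∑ q, ∑ j, ∑ b, d.Gi j b * (c p q * trace (U p q j * W b)) :=
        Finset.sum_congr rfl fun p _ => Finset.sum_comm
    _ = _ := by
        refine Finset.sum_congr rfl fun p _ => ?_
        refine Finset.sum_congr rfl fun q _ => ?_
        refine Finset.sum_congr rfl fun j _ => ?_
        refine Finset.sum_congr rfl fun b _ => ?_
        ring

/-- The main second derivative identity. -/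
theorem M1 (hβ : ∀ k, d.β k = 0) :
    (2 : R) * ∑ p, ∑ q, d.Gi p q * d.D p (d.D q d.S0)
      = d.pair d.RA d.A + ∑ m, d.τ m * d.D m d.S0
        + ∑ p, ∑ q, d.Gi p q * d.pair (d.E q) (d.E p) := by
  have h1 : ∑ p, ∑ q, d.Gi p q * d.pair (d.cov p (d.E q)) d.A
      = d.pair d.RA d.A + ∑ m, d.τ m * d.D m d.S0 := by
    rw [← d.pair_smul_sum2_left (fun p q => d.Gi p q) (fun p q => d.cov p (d.E q)) d.A]
    simp only [d.lap_cov hβ]
    rw [d.pair_add_left, d.pair_smul_sum_left]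
    simp only [d.D_S0]
  have h2 : ∀ p q, d.Gi p q * ((2 : R) * d.D p (d.D q d.S0))
      = d.Gi p q * d.pair (d.cov p (d.E q)) d.A + d.Gi p q * d.pair (d.E q) (d.E p) := by
    intro p q
    rw [d.DD_S0]; ring
  have h3 : (2 : R) * ∑ p, ∑ q, d.Gi p q * d.D p (d.D q d.S0)
      = ∑ p, ∑ q, d.Gi p q * ((2 : R) * d.D p (d.D q d.S0)) := by
    simp only [Finset.mul_sum]
    refine Finset.sum_congr rfl fun p _ => ?_
    refine Finset.sum_congr rfl fun q _ => ?_
    ring
  rw [h3]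
  simp only [h2, Finset.sum_add_distrib]
  rw [h1]

/-- the function `w` -/
def w : R := d.ψ * d.S0

lemma D_w (q : ι) : d.D q d.w = d.D q d.ψ * d.S0 + d.ψ * d.D q d.S0 := by
  simp only [w, Derivation.leibniz, smul_eq_mul]
  ring

lemma DD_w (p q : ι) : d.D p (d.D q d.w) = d.G p q * d.S0 + d.D q d.ψ * d.D p d.S0
    + d.D p d.ψ * d.D q d.S0 + d.ψ * d.D p (d.D q d.S0) := by
  simp only [D_w, map_add, Derivation.leibniz, smul_eq_mul, G_apply]
  ring

end Data

end Vale.Agent.P084
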