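import Mathlib

/-!
The real-array inequality at an orthonormal point.
-/

set_option linter.unusedSectionVars false
set_option linter.unusedVariables false

namespace Vale.Agent.P084

open Matrix

variable {ι : Type*} [Fintype ι] [DecidableEq ι]

lemma trace_mul_transpose_eq (W : Matrix ι ι ℝ) : trace (W * Wᵀ) = ∑ i, ∑ j, (W i j) ^ 2 := by
  simp only [Matrix.trace, Matrix.diag, Matrix.mul_apply, Matrix.transpose_apply, sq]

lemma trace_mul_transpose_nonneg (W : Matrix ι ι ℝ) : 0 ≤ trace (W * Wᵀ) := by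
  rw [trace_mul_transpose_eq]
  positivity

/-- Frobenius expression of a trace -/
lemma trace_mul_symm (X Y : Matrix ι ι ℝ) (hY : Yᵀ = Y) :
    trace (X * Y) = ∑ r, ∑ s, X r s * Y r s := by
  simp only [Matrix.trace, Matrix.diag, Matrix.mul_apply]
  refine Finset.sum_congr rfl fun r _ => ?_
  refine Finset.sum_congr rfl fun s _ => ?_
  have := congrFun (congrFun hY r) s
  simp only [Matrix.transpose_apply] at this
  rw [this]

/-- Schur-product positivity for Gram matrices. -/
lemma gram_product_nonneg {κ₁ κ₂ : Type*} [Fintype κ₁] [Fintype κ₂]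
    (x : ι → κ₁ → ℝ) (y : ι → κ₂ → ℝ) :
    0 ≤ ∑ j, ∑ m, (∑ α, x m α * x j α) * (∑ β, y m β * y j β) := by
  have h : ∑ j, ∑ m, (∑ α, x m α * x j α) * (∑ β, y m β * y j β)
      = ∑ α, ∑ β, (∑ m, x m α * y m β) ^ 2 := by
    have e : ∀ α β, (∑ m, x m α * y m β) ^ 2
        = ∑ j, ∑ m, (x m α * x j α) * (y m β * y j β) := by
      intro α β
      rw [sq, Finset.sum_mul_sum, Finset.sum_comm]
      refine Finset.sum_congr rfl fun j _ => ?_
      refine Finset.sum_congr rfl fun m _ => ?_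
      ring
    simp only [e]
    simp only [Finset.sum_mul_sum]
    calc ∑ j, ∑ m, ∑ α, ∑ β, x m α * x j α * (y m β * y j β)
        = ∑ j, ∑ α, ∑ m, ∑ β, x m α * x j α * (y m β * y j β) :=
          Finset.sum_congr rfl fun j _ => Finset.sum_comm
      _ = ∑ α, ∑ j, ∑ m, ∑ β, x m α * x j α * (y m β * y j β) := Finset.sum_comm
      _ = ∑ α, ∑ j, ∑ β, ∑ m, x m α * x j α * (y m β * y j β) :=
          Finset.sum_congr rfl fun α _ => Finset.sum_congr rfl fun j _ => Finset.sum_comm
      _ = ∑ α, ∑ β, ∑ j, ∑ m, x m α * x j α * (y m β * y j β) :=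
          Finset.sum_congr rfl fun α _ => Finset.sum_comm
  rw [h]
  positivity

/-- a symmetric array -/
structure SymArr (a : ι → Matrix ι ι ℝ) : Prop where
  t : ∀ i, (a i)ᵀ = a i
  s : ∀ i m j, a i m j = a j m i

lemma SymArr.t' {a : ι → Matrix ι ι ℝ} (h : SymArr a) (i m j : ι) : a i m j = a i j m := by
  have := congrFun (congrFun (h.t i) j) m
  simpa using this

lemma SymArr.s01 {a : ι → Matrix ι ι ℝ} (h : SymArr a) (i m j : ι) : a i m j = a m i j := by
  rw [h.s i m j, h.t' j m i, h.s j i m]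

lemma trace_eq_prod {a b : Matrix ι ι ℝ} (hb : bᵀ = b) :
    trace (a * b) = ∑ α : ι × ι, a α.1 α.2 * b α.1 α.2 := by
  rw [trace_mul_symm a b hb, Fintype.sum_prod_type]

/-- Contraction of a commutator. -/
lemma comm_contract {a : ι → Matrix ι ι ℝ} (h : SymArr a) (j m : ι) :
    ∑ p, (a p * a j - a j * a p) m p
      = trace (a m * a j) - ∑ r, a j m r * trace (a r) := by
  simp only [Matrix.sub_apply, Finset.sum_sub_distrib]
  congr 1
  · simp only [Matrix.trace, Matrix.diag, Matrix.mul_apply]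
    refine Finset.sum_congr rfl fun p _ => ?_
    refine Finset.sum_congr rfl fun r _ => ?_
    rw [h.s01 p m r]
  · simp only [Matrix.trace, Matrix.diag, Matrix.mul_apply, Finset.mul_sum]
    rw [Finset.sum_comm]
    refine Finset.sum_congr rfl fun r _ => ?_
    refine Finset.sum_congr rfl fun p _ => ?_
    rw [h.s01 p r p]

lemma trace4 (W X Y Z : Matrix ι ι ℝ) :
    trace (W * X * Y * Z) = ∑ u, ∑ v, ∑ s, ∑ t, W u v * X v s * Y s t * Z t u := by
  simp only [Matrix.trace, Matrix.diag, Matrix.mul_apply, Finset.sum_mul]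
  refine Finset.sum_congr rfl fun u _ => ?_
  calc ∑ t, ∑ s, ∑ v, W u v * X v s * Y s t * Z t u
      = ∑ s, ∑ t, ∑ v, W u v * X v s * Y s t * Z t u := Finset.sum_comm
    _ = ∑ s, ∑ v, ∑ t, W u v * X v s * Y s t * Z t u :=
        Finset.sum_congr rfl fun s _ => Finset.sum_comm
    _ = ∑ v, ∑ s, ∑ t, W u v * X v s * Y s t * Z t u := Finset.sum_comm

lemma sum_front3 {β : Type*} [AddCommMonoid β] (f : ι → ι → ι → β) :
    ∑ a, ∑ b, ∑ c, f a b c = ∑ c, ∑ a, ∑ b, f a b c := by
  calc ∑ a, ∑ b, ∑ c, f a b c = ∑ a, ∑ c, ∑ b, f a b c :=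
        Finset.sum_congr rfl fun a _ => Finset.sum_comm
    _ = _ := Finset.sum_comm

lemma sum_front4 {β : Type*} [AddCommMonoid β] (f : ι → ι → ι → ι → β) :
    ∑ a, ∑ b, ∑ c, ∑ e, f a b c e = ∑ e, ∑ a, ∑ b, ∑ c, f a b c e := by
  calc ∑ a, ∑ b, ∑ c, ∑ e, f a b c e = ∑ a, ∑ e, ∑ b, ∑ c, f a b c e :=
        Finset.sum_congr rfl fun a _ => sum_front3 (f a)
    _ = _ := Finset.sum_comm

lemma sum_front5 {β : Type*} [AddCommMonoid β] (f : ι → ι → ι → ι → ι → β) :
    ∑ a, ∑ b, ∑ c, ∑ e, ∑ g, f a b c e g = ∑ g, ∑ a, ∑ b, ∑ c, ∑ e, f a b c e g := by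
  calc ∑ a, ∑ b, ∑ c, ∑ e, ∑ g, f a b c e g = ∑ a, ∑ g, ∑ b, ∑ c, ∑ e, f a b c e g :=
        Finset.sum_congr rfl fun a _ => sum_front4 (f a)
    _ = _ := Finset.sum_comm

/-- The tetrahedral identity. -/
lemma T3_eq_T4 {a c : ι → Matrix ι ι ℝ} (ha : SymArr a) (hc : SymArr c) :
    ∑ p, ∑ j, trace (c p * c j * a p * a j) = ∑ p, ∑ j, trace (c p * a j * c p * a j) := by
  simp only [trace4]
  -- reorder the left side
  have key : ∑ p, ∑ j, ∑ u, ∑ v, ∑ s, ∑ t, c p u v * c j v s * a p s t * a j t u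
      = ∑ v, ∑ t, ∑ u, ∑ p, ∑ s, ∑ j, c p u v * c j v s * a p s t * a j t u := by
    calc ∑ p, ∑ j, ∑ u, ∑ v, ∑ s, ∑ t, c p u v * c j v s * a p s t * a j t u
        = ∑ v, ∑ p, ∑ j, ∑ u, ∑ s, ∑ t, c p u v * c j v s * a p s t * a j t u :=
          sum_front4 (fun p j u v => ∑ s, ∑ t, c p u v * c j v s * a p s t * a j t u)
      _ = ∑ v, ∑ t, ∑ p, ∑ j, ∑ u, ∑ s, c p u v * c j v s * a p s t * a j t u :=
          Finset.sum_congr rfl fun v _ =>
            sum_front5 (fun p j u s t => c p u v * c j v s * a p s t * a j t u)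
      _ = ∑ v, ∑ t, ∑ u, ∑ p, ∑ j, ∑ s, c p u v * c j v s * a p s t * a j t u :=
          Finset.sum_congr rfl fun v _ => Finset.sum_congr rfl fun t _ =>
            sum_front3 (fun p j u => ∑ s, c p u v * c j v s * a p s t * a j t u)
      _ = _ :=
          Finset.sum_congr rfl fun v _ => Finset.sum_congr rfl fun t _ =>
            Finset.sum_congr rfl fun u _ => Finset.sum_congr rfl fun p _ => Finset.sum_comm
  rw [key]
  refine Finset.sum_congr rfl fun v _ => ?_
  refine Finset.sum_congr rfl fun t _ => ?_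
  refine Finset.sum_congr rfl fun u _ => ?_
  refine Finset.sum_congr rfl fun p _ => ?_
  refine Finset.sum_congr rfl fun s _ => ?_
  refine Finset.sum_congr rfl fun j _ => ?_
  have e1 : c p u v = c v u p := hc.s p u v
  have e2 : c j v s = c v s j := by rw [hc.s01 j v s, hc.t' v j s]
  have e3 : a p s t = a t p s := by rw [ha.s p s t, ha.t' t s p]
  have e4 : a j t u = a t j u := ha.s01 j t u
  rw [e1, e2, e3, e4]
  ring

/-- The curvature of the real model -/
def rrM (a c : ι → Matrix ι ι ℝ) (p j : ι) : Matrix ι ι ℝ :=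
  - ((a p + c p) * (a j + c j) - (a j + c j) * (a p + c p))

/-- The commutator -/
def brk (a : ι → Matrix ι ι ℝ) (p j : ι) : Matrix ι ι ℝ := a p * a j - a j * a p

lemma rrM_eq {a c : ι → Matrix ι ι ℝ}
    (hGE : ∀ i j, (c i * a j - a j * c i) + (a i * c j - c j * a i) = 0) (p j : ι) :
    rrM a c p j = - (brk a p j + brk c p j) := by
  have h := hGE p j
  have e : (a p + c p) * (a j + c j) - (a j + c j) * (a p + c p)
      = brk a p j + brk c p j + ((c p * a j - a j * c p) + (a p * c j - c j * a p)) := by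
    simp only [brk]
    noncomm_ring
  rw [rrM, e, h, add_zero]

lemma brk_transpose {a : ι → Matrix ι ι ℝ} (h : SymArr a) (p j : ι) :
    (brk a p j)ᵀ = - brk a p j := by
  simp only [brk, Matrix.transpose_sub, Matrix.transpose_mul, h.t]
  abel

lemma tr_rot (W X Y Z : Matrix ι ι ℝ) : trace (W * (X * (Y * Z))) = trace (X * (Y * (Z * W))) := by
  rw [Matrix.trace_mul_comm]
  simp only [Matrix.mul_assoc]

/-- tetrahedral contraction -/
def T3f (a c : ι → Matrix ι ι ℝ) : ℝ := ∑ p, ∑ j, trace (c p * (c j * (a p * a j)))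

/-- tetrahedral contraction, second form -/
def T4f (a c : ι → Matrix ι ι ℝ) : ℝ := ∑ p, ∑ j, trace (c p * (a j * (c p * a j)))

/-- squared norm of `Y` -/
def NYf (a c : ι → Matrix ι ι ℝ) : ℝ := ∑ p, ∑ j, trace (a p * (c p * (c j * a j)))

lemma T3f_eq_T4f {a c : ι → Matrix ι ι ℝ} (ha : SymArr a) (hc : SymArr c) :
    T3f a c = T4f a c := by
  have := T3_eq_T4 ha hc
  simpa only [T3f, T4f, Matrix.mul_assoc] using this

lemma sumq_eq {a c : ι → Matrix ι ι ℝ} (ha : SymArr a) (hc : SymArr c)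
    (hGE : ∀ i j, (c i * a j - a j * c i) + (a i * c j - c j * a i) = 0) :
    ∑ l, ∑ k, ∑ i, ∑ j, ((a l * c k + c l * a k) i j) ^ 2 = 2 * T3f a c + 2 * T4f a c := by
  have e1 : ∀ l k, ∑ i, ∑ j, ((a l * c k + c l * a k) i j) ^ 2
      = trace (c k * (c l * (a k * a l))) + trace (c k * (a l * (c k * a l)))
        + trace (c k * (c l * (a k * a l))) + trace (c l * (a k * (c l * a k))) := by
    intro l k
    have hsym : (a l * c k + c l * a k)ᵀ = a l * c k + c l * a k := by
      simp only [Matrix.transpose_add, Matrix.transpose_mul, ha.t, hc.t]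
      have h := hGE l k
      have : a l * c k + c l * a k - (c k * a l + a k * c l)
          = (c l * a k - a k * c l) + (a l * c k - c k * a l) := by abel
      rw [← sub_eq_zero, ← neg_sub, this, h, neg_zero]
    rw [← trace_mul_transpose_eq, hsym]
    simp only [Matrix.mul_add, Matrix.add_mul, Matrix.trace_add, Matrix.mul_assoc]
    rw [tr_rot (a l) (c k) (a l) (c k), tr_rot (a l) (c k) (c l) (a k),
      tr_rot (c l) (a k) (a l) (c k), tr_rot (a k) (a l) (c k) (c l),
      tr_rot (a l) (c k) (c l) (a k)]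
    ring
  simp only [e1, Finset.sum_add_distrib]
  have s1 : ∑ l, ∑ k, trace (c k * (c l * (a k * a l))) = T3f a c := by
    rw [Finset.sum_comm]; rfl
  have s2 : ∑ l, ∑ k, trace (c k * (a l * (c k * a l))) = T4f a c := by
    rw [Finset.sum_comm]; rfl
  have s3 : ∑ l, ∑ k, trace (c l * (a k * (c l * a k))) = T4f a c := rfl
  rw [s1, s2, s3]
  ring

lemma part_A {a c : ι → Matrix ι ι ℝ} (ha : SymArr a)
    (hGE : ∀ i j, (c i * a j - a j * c i) + (a i * c j - c j * a i) = 0) (j p : ι) :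
    trace ((rrM a c p j * a p - a p * rrM a c p j) * a j)
      = trace (brk a p j * (brk a p j)ᵀ) - trace (brk c p j * brk a p j) := by
  have e : trace ((rrM a c p j * a p - a p * rrM a c p j) * a j)
      = trace (rrM a c p j * brk a p j) := by
    simp only [brk, Matrix.sub_mul, Matrix.mul_sub, Matrix.trace_sub]
    congr 1
    · simp only [Matrix.mul_assoc]
    · rw [Matrix.mul_assoc, Matrix.trace_mul_comm]
      simp only [Matrix.mul_assoc]
  rw [e, rrM_eq hGE, brk_transpose ha]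
  simp only [Matrix.neg_mul, Matrix.mul_neg, Matrix.add_mul, Matrix.trace_neg, Matrix.trace_add]
  ring

lemma part_B {a c : ι → Matrix ι ι ℝ} (ha : SymArr a) (hc : SymArr c)
    (hGE : ∀ i j, (c i * a j - a j * c i) + (a i * c j - c j * a i) = 0)
    (hβ : ∀ k, trace (a k) = 0) (j : ι) :
    ∑ p, trace ((∑ m, (rrM a c p j m p) • a m) * a j)
      = - ∑ m, (trace (a m * a j) + trace (c m * c j) - ∑ r, c j m r * trace (c r))
            * trace (a m * a j) := by
  have e1 : ∀ p, trace ((∑ m, (rrM a c p j m p) • a m) * a j)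
      = ∑ m, rrM a c p j m p * trace (a m * a j) := by
    intro p
    simp only [Matrix.sum_mul, Matrix.smul_mul, Matrix.trace_sum, Matrix.trace_smul, smul_eq_mul]
  simp only [e1]
  rw [Finset.sum_comm, ← Finset.sum_neg_distrib]
  refine Finset.sum_congr rfl fun m _ => ?_
  rw [← Finset.sum_mul]
  have e2 : ∑ p, rrM a c p j m p
      = - (trace (a m * a j) + trace (c m * c j) - ∑ r, c j m r * trace (c r)) := by
    simp only [rrM_eq hGE, Matrix.neg_apply, Matrix.add_apply, Finset.sum_neg_distrib,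
      Finset.sum_add_distrib, brk]
    rw [comm_contract ha j m, comm_contract hc j m]
    simp only [hβ, mul_zero, Finset.sum_const_zero, sub_zero]
    ring
  rw [e2]
  ring

lemma NYf_nonneg {a c : ι → Matrix ι ι ℝ} (ha : SymArr a) (hc : SymArr c) : 0 ≤ NYf a c := by
  have e : NYf a c = trace ((∑ p, a p * c p) * (∑ p, a p * c p)ᵀ) := by
    simp only [Matrix.transpose_sum, Matrix.transpose_mul, ha.t, hc.t, Finset.sum_mul,
      Finset.mul_sum, Matrix.trace_sum, NYf, Matrix.mul_assoc]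
    exact Finset.sum_comm
  rw [e]
  exact trace_mul_transpose_nonneg _

lemma part_X {a c : ι → Matrix ι ι ℝ} :
    ∑ j, ∑ p, trace (brk c p j * brk a p j) = 2 * T3f a c - 2 * NYf a c := by
  have e : ∀ j p, trace (brk c p j * brk a p j)
      = trace (c p * (c j * (a p * a j))) - trace (a p * (c p * (c j * a j)))
        - trace (a j * (c j * (c p * a p))) + trace (c j * (c p * (a j * a p))) := by
    intro j p
    simp only [brk, Matrix.mul_sub, Matrix.sub_mul, Matrix.trace_sub, Matrix.mul_assoc]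
    rw [tr_rot (c p) (c j) (a j) (a p), tr_rot (c j) (a j) (a p) (c p),
      tr_rot (a j) (a p) (c p) (c j), tr_rot (c j) (c p) (a p) (a j),
      tr_rot (c p) (a p) (a j) (c j), tr_rot (a p) (a j) (c j) (c p)]
    ring
  simp only [e, Finset.sum_sub_distrib, Finset.sum_add_distrib]
  have s1 : ∑ j, ∑ p, trace (c p * (c j * (a p * a j))) = T3f a c := by rw [Finset.sum_comm]; rfl
  have s2 : ∑ j, ∑ p, trace (a p * (c p * (c j * a j))) = NYf a c := by rw [Finset.sum_comm]; rfl
  have s3 : ∑ j, ∑ p, trace (a j * (c j * (c p * a p))) = NYf a c := rfl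
  have s4 : ∑ j, ∑ p, trace (c j * (c p * (a j * a p))) = T3f a c := rfl
  rw [s1, s2, s3, s4]
  ring

lemma part_gram {a c : ι → Matrix ι ι ℝ} (ha : SymArr a) (hc : SymArr c) :
    0 ≤ ∑ j, ∑ m, trace (a m * a j) * trace (a m * a j)
      ∧ 0 ≤ ∑ j, ∑ m, trace (c m * c j) * trace (a m * a j) := by
  constructor
  · have := gram_product_nonneg (κ₁ := ι × ι) (κ₂ := ι × ι)
      (fun m α => a m α.1 α.2) (fun m α => a m α.1 α.2)
    simpa only [trace_eq_prod (ha.t _)] using this
  · have := gram_product_nonneg (κ₁ := ι × ι) (κ₂ := ι × ι)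
      (fun m α => c m α.1 α.2) (fun m α => a m α.1 α.2)
    simpa only [trace_eq_prod (ha.t _), trace_eq_prod (hc.t _)] using this

/-- integrand of the Laplacian term -/
def rmTerm (a c : ι → Matrix ι ι ℝ) (j p : ι) : ℝ :=
  trace (((rrM a c p j * a p - a p * rrM a c p j) - ∑ m, (rrM a c p j m p) • a m) * a j)

lemma rmTerm_eq {a c : ι → Matrix ι ι ℝ} (ha : SymArr a)
    (hGE : ∀ i j, (c i * a j - a j * c i) + (a i * c j - c j * a i) = 0) (j p : ι) :
    rmTerm a c j p = trace (brk a p j * (brk a p j)ᵀ) - trace (brk c p j * brk a p j)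
          - trace ((∑ m, (rrM a c p j m p) • a m) * a j) := by
  rw [rmTerm, Matrix.sub_mul, Matrix.trace_sub, part_A ha hGE]

/-- The real-array inequality. -/
theorem final_ineq {a c : ι → Matrix ι ι ℝ} (ha : SymArr a) (hc : SymArr c)
    (hGE : ∀ i j, (c i * a j - a j * c i) + (a i * c j - c j * a i) = 0)
    (hβ : ∀ k, trace (a k) = 0)
    (hγ : ∑ j, ∑ m, (∑ r, c j m r * trace (c r)) * trace (a m * a j) = 0) :
    0 ≤ ∑ j, ∑ p, rmTerm a c j p
        + ∑ l, ∑ k, ∑ i, ∑ j, ((a l * c k + c l * a k) i j) ^ 2 := by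
  have hq := sumq_eq ha hc hGE
  have hT34 := T3f_eq_T4f ha hc
  have hT3nn : 0 ≤ T3f a c := by
    have : 0 ≤ ∑ l, ∑ k, ∑ i, ∑ j, ((a l * c k + c l * a k) i j) ^ 2 :=
      Finset.sum_nonneg fun _ _ => Finset.sum_nonneg fun _ _ => Finset.sum_nonneg fun _ _ =>
        Finset.sum_nonneg fun _ _ => sq_nonneg _
    rw [hq, ← hT34] at this
    linarith
  have hSplit : ∑ j, ∑ p, rmTerm a c j p
      = ∑ j, ∑ p, trace (brk a p j * (brk a p j)ᵀ) - ∑ j, ∑ p, trace (brk c p j * brk a p j)
        + ∑ j, ∑ m, (trace (a m * a j) + trace (c m * c j) - ∑ r, c j m r * trace (c r))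
            * trace (a m * a j) := by
    simp only [rmTerm_eq ha hGE, Finset.sum_sub_distrib, part_B ha hc hGE hβ,
      sub_neg_eq_add]
    rw [Finset.sum_add_distrib, Finset.sum_sub_distrib]
  obtain ⟨hT11, hT0⟩ := part_gram ha hc
  have hNYnn := NYf_nonneg ha hc
  have hX := part_X (a := a) (c := c)
  have hNW : 0 ≤ ∑ j, ∑ p, trace (brk a p j * (brk a p j)ᵀ) := by
    refine Finset.sum_nonneg fun j _ => Finset.sum_nonneg fun p _ => ?_
    exact trace_mul_transpose_nonneg _
  have hSum : ∑ j, ∑ m, (trace (a m * a j) + trace (c m * c j) - ∑ r, c j m r * trace (c r))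
            * trace (a m * a j)
      = ∑ j, ∑ m, trace (a m * a j) * trace (a m * a j)
        + ∑ j, ∑ m, trace (c m * c j) * trace (a m * a j) := by
    have : ∀ j m, (trace (a m * a j) + trace (c m * c j) - ∑ r, c j m r * trace (c r))
            * trace (a m * a j)
        = trace (a m * a j) * trace (a m * a j) + trace (c m * c j) * trace (a m * a j)
          - (∑ r, c j m r * trace (c r)) * trace (a m * a j) := by
      intro j m; ring
    simp only [this, Finset.sum_sub_distrib, Finset.sum_add_distrib, hγ, sub_zero]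
  rw [hSplit, hX, hSum, hq, ← hT34]
  linarith

end Vale.Agent.P084
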