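import Vale.Agent.P084.Arr

/-!
Sums of the fundamental equation at an orthonormal point.
-/

set_option linter.unusedSectionVars false
set_option linter.unusedVariables false

namespace Vale.Agent.P084

open Matrix

variable {ι : Type*} [Fintype ι] [DecidableEq ι]

section sums

lemma zero4_1 (F : ι → ι → ι → ι → ℝ) (h : ∀ j m n, ∑ p, F p j m n = 0) :
    ∑ p, ∑ j, ∑ m, ∑ n, F p j m n = 0 := by
  calc ∑ p, ∑ j, ∑ m, ∑ n, F p j m n = ∑ j, ∑ p, ∑ m, ∑ n, F p j m n := Finset.sum_comm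
    _ = ∑ j, ∑ m, ∑ p, ∑ n, F p j m n := Finset.sum_congr rfl fun j _ => Finset.sum_comm
    _ = ∑ j, ∑ m, ∑ n, ∑ p, F p j m n :=
        Finset.sum_congr rfl fun j _ => Finset.sum_congr rfl fun m _ => Finset.sum_comm
    _ = 0 := by simp [h]

lemma zero4_2 (F : ι → ι → ι → ι → ℝ) (h : ∀ p m n, ∑ j, F p j m n = 0) :
    ∑ p, ∑ j, ∑ m, ∑ n, F p j m n = 0 := by
  refine Finset.sum_eq_zero fun p _ => ?_
  calc ∑ j, ∑ m, ∑ n, F p j m n = ∑ m, ∑ j, ∑ n, F p j m n := Finset.sum_comm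
    _ = ∑ m, ∑ n, ∑ j, F p j m n := Finset.sum_congr rfl fun j _ => Finset.sum_comm
    _ = 0 := by simp [h]

lemma zero4_3 (F : ι → ι → ι → ι → ℝ) (h : ∀ p j n, ∑ m, F p j m n = 0) :
    ∑ p, ∑ j, ∑ m, ∑ n, F p j m n = 0 := by
  refine Finset.sum_eq_zero fun p _ => Finset.sum_eq_zero fun j _ => ?_
  calc ∑ m, ∑ n, F p j m n = ∑ n, ∑ m, F p j m n := Finset.sum_comm
    _ = 0 := by simp [h]

lemma zero4_4 (F : ι → ι → ι → ι → ℝ) (h : ∀ p j m, ∑ n, F p j m n = 0) :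
    ∑ p, ∑ j, ∑ m, ∑ n, F p j m n = 0 := by
  simp [h]

lemma zero3_1 (F : ι → ι → ι → ℝ) (h : ∀ m n, ∑ p, F p m n = 0) :
    ∑ p, ∑ m, ∑ n, F p m n = 0 := by
  calc ∑ p, ∑ m, ∑ n, F p m n = ∑ m, ∑ p, ∑ n, F p m n := Finset.sum_comm
    _ = ∑ m, ∑ n, ∑ p, F p m n := Finset.sum_congr rfl fun j _ => Finset.sum_comm
    _ = 0 := by simp [h]

lemma zero3_2 (F : ι → ι → ι → ℝ) (h : ∀ p n, ∑ m, F p m n = 0) :
    ∑ p, ∑ m, ∑ n, F p m n = 0 := by
  refine Finset.sum_eq_zero fun p _ => ?_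
  calc ∑ m, ∑ n, F p m n = ∑ n, ∑ m, F p m n := Finset.sum_comm
    _ = 0 := by simp [h]

lemma zero3_3 (F : ι → ι → ι → ℝ) (h : ∀ p m, ∑ n, F p m n = 0) :
    ∑ p, ∑ m, ∑ n, F p m n = 0 := by
  simp [h]

lemma sep4_1 (u : ι → ℝ) (v : ι → ι → ι → ℝ) :
    ∑ p, ∑ j, ∑ m, ∑ n, u p * v j m n = (∑ p, u p) * ∑ j, ∑ m, ∑ n, v j m n := by
  rw [Finset.sum_mul]
  refine Finset.sum_congr rfl fun p _ => ?_
  simp only [Finset.mul_sum]

lemma sep4_2 (u : ι → ℝ) (v : ι → ι → ι → ℝ) :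
    ∑ p, ∑ j, ∑ m, ∑ n, u j * v p m n = (∑ p, u p) * ∑ j, ∑ m, ∑ n, v j m n := by
  rw [Finset.sum_comm]
  exact sep4_1 u v

lemma sep4_3 (u : ι → ℝ) (v : ι → ι → ι → ℝ) :
    ∑ p, ∑ j, ∑ m, ∑ n, u m * v p j n = (∑ p, u p) * ∑ j, ∑ m, ∑ n, v j m n :=
  (sum_front3 (fun p j m => ∑ n, u m * v p j n)).trans (sep4_1 u v)

lemma sep4_4 (u : ι → ℝ) (v : ι → ι → ι → ℝ) :
    ∑ p, ∑ j, ∑ m, ∑ n, u n * v p j m = (∑ p, u p) * ∑ j, ∑ m, ∑ n, v j m n :=
  (sum_front4 (fun p j m n => u n * v p j m)).trans (sep4_1 u v)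

end sums

variable {b c : ι → Matrix ι ι ℝ} {g : ι → ℝ}

/-- `Q` at the point -/
def qM (a c : ι → Matrix ι ι ℝ) (l i k j : ι) : ℝ := (a l * c k + c l * a k) i j

/-- Radial hypotheses -/
structure RadH (b c : ι → Matrix ι ι ℝ) (g : ι → ℝ) : Prop where
  symb : SymArr b
  symc : SymArr c
  radb : ∀ j n, ∑ q, g q * b q j n = 0
  radc : ∀ j n, ∑ q, g q * c q j n = 0
  qs12 : ∀ a' b' c' e, qM b c a' b' c' e = qM b c b' a' c' e
  qs34 : ∀ a' b' c' e, qM b c a' b' c' e = qM b c a' b' e c'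
  qs13 : ∀ a' b' c' e, qM b c a' b' c' e = qM b c c' b' a' e

variable (hr : RadH b c g)
include hr

lemma RadH.radb2 (j n : ι) : ∑ q, g q * b j q n = 0 := by
  rw [← hr.radb j n]
  refine Finset.sum_congr rfl fun q _ => ?_
  rw [hr.symb.s01 j q n]

lemma RadH.radb3 (j n : ι) : ∑ q, g q * b j n q = 0 := by
  rw [← hr.radb j n]
  refine Finset.sum_congr rfl fun q _ => ?_
  rw [hr.symb.t' j n q, hr.symb.s01 j q n]

lemma RadH.radq1 (j m n : ι) : ∑ p, g p * qM b c p j m n = 0 := by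
  simp only [qM, Matrix.add_apply, Matrix.mul_apply, mul_add, Finset.sum_add_distrib, Finset.mul_sum]
  have h1 : ∑ p, ∑ r, g p * (b p j r * c m r n) = 0 := by
    rw [Finset.sum_comm]
    refine Finset.sum_eq_zero fun r _ => ?_
    have : ∑ p, g p * (b p j r * c m r n) = (∑ p, g p * b p j r) * c m r n := by
      rw [Finset.sum_mul]
      refine Finset.sum_congr rfl fun p _ => ?_
      ring
    rw [this, hr.radb, zero_mul]
  have h2 : ∑ p, ∑ r, g p * (c p j r * b m r n) = 0 := by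
    rw [Finset.sum_comm]
    refine Finset.sum_eq_zero fun r _ => ?_
    have : ∑ p, g p * (c p j r * b m r n) = (∑ p, g p * c p j r) * b m r n := by
      rw [Finset.sum_mul]
      refine Finset.sum_congr rfl fun p _ => ?_
      ring
    rw [this, hr.radc, zero_mul]
  rw [h1, h2, add_zero]

lemma RadH.radq2 (p m n : ι) : ∑ j, g j * qM b c p j m n = 0 := by
  rw [← hr.radq1 p m n]
  refine Finset.sum_congr rfl fun j _ => ?_
  rw [hr.qs12 p j m n]

lemma RadH.radq3 (p j n : ι) : ∑ m, g m * qM b c p j m n = 0 := by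
  rw [← hr.radq1 j p n]
  refine Finset.sum_congr rfl fun m _ => ?_
  rw [hr.qs13 p j m n]

lemma RadH.radq4 (p j m : ι) : ∑ n, g n * qM b c p j m n = 0 := by
  rw [← hr.radq3 p j m]
  refine Finset.sum_congr rfl fun n _ => ?_
  rw [hr.qs34 p j m n]

/-- the norm -/
def sM (b : ι → Matrix ι ι ℝ) : ℝ := ∑ j, ∑ m, ∑ n, (b j m n) ^ 2

/-- first derivative contraction -/
lemma RadH.first {ψ₀ : ℝ} {e : ι → ι → ι → ι → ℝ}
    (hFE : ∀ p j m n, ψ₀ * e p j m n = - (g p * b m j n + g m * b p j n + g j * b p m n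
        + g n * b p m j) - ψ₀ * qM b c p j m n) (q : ι) :
    ψ₀ * ∑ j, ∑ m, ∑ n, e q j m n * b j m n
      = - g q * sM b - ψ₀ * ∑ j, ∑ m, ∑ n, qM b c q j m n * b j m n := by
  have e1 : ∀ j m n, ψ₀ * (e q j m n * b j m n)
      = - (g q * (b j m n) ^ 2) - (g m * (b q j n * b j m n)) - (g j * (b q m n * b j m n))
        - (g n * (b q m j * b j m n)) - ψ₀ * (qM b c q j m n * b j m n) := by
    intro j m n
    have := hFE q j m n
    have e2 : b m j n = b j m n := hr.symb.s01 m j n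
    rw [e2] at this
    rw [← mul_assoc, this]
    ring
  simp only [Finset.mul_sum, e1, Finset.sum_sub_distrib, Finset.sum_neg_distrib]
  have z2 : ∑ j, ∑ m, ∑ n, g m * (b q j n * b j m n) = 0 := by
    apply zero3_2
    intro j n
    have : ∑ m, g m * (b q j n * b j m n) = b q j n * ∑ m, g m * b j m n := by
      rw [Finset.mul_sum]
      refine Finset.sum_congr rfl fun m _ => ?_
      ring
    rw [this, hr.radb2, mul_zero]
  have z3 : ∑ j, ∑ m, ∑ n, g j * (b q m n * b j m n) = 0 := by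
    apply zero3_1
    intro m n
    have : ∑ j, g j * (b q m n * b j m n) = b q m n * ∑ j, g j * b j m n := by
      rw [Finset.mul_sum]
      refine Finset.sum_congr rfl fun m _ => ?_
      ring
    rw [this, hr.radb, mul_zero]
  have z4 : ∑ j, ∑ m, ∑ n, g n * (b q m j * b j m n) = 0 := by
    apply zero3_3
    intro j m
    have : ∑ n, g n * (b q m j * b j m n) = b q m j * ∑ n, g n * b j m n := by
      rw [Finset.mul_sum]
      refine Finset.sum_congr rfl fun m _ => ?_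
      ring
    rw [this, hr.radb3, mul_zero]
  rw [z2, z3, z4]
  simp only [sM, Finset.mul_sum, neg_mul, Finset.sum_neg_distrib]
  ring

/-- second contraction -/
lemma RadH.norm_e {ψ₀ : ℝ} {e : ι → ι → ι → ι → ℝ}
    (hFE : ∀ p j m n, ψ₀ * e p j m n = - (g p * b m j n + g m * b p j n + g j * b p m n
        + g n * b p m j) - ψ₀ * qM b c p j m n) :
    ψ₀ * ψ₀ * ∑ p, ∑ j, ∑ m, ∑ n, (e p j m n) ^ 2
      = 4 * (∑ p, g p ^ 2) * sM b + ψ₀ * ψ₀ * ∑ p, ∑ j, ∑ m, ∑ n, (qM b c p j m n) ^ 2 := by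
  have e1 : ∀ p j m n, ψ₀ * ψ₀ * (e p j m n) ^ 2
      = (g p) ^ 2 * (b m j n) ^ 2 + (g m) ^ 2 * (b p j n) ^ 2 + (g j) ^ 2 * (b p m n) ^ 2
        + (g n) ^ 2 * (b p m j) ^ 2
        + 2 * (g p * (b m j n * g m * b p j n)) + 2 * (g p * (b m j n * g j * b p m n))
        + 2 * (g p * (b m j n * g n * b p m j)) + 2 * (g m * (b p j n * g j * b p m n))
        + 2 * (g m * (b p j n * g n * b p m j)) + 2 * (g j * (b p m n * g n * b p m j))
        + 2 * ψ₀ * (g p * (b m j n * qM b c p j m n)) + 2 * ψ₀ * (g m * (b p j n * qM b c p j m n))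
        + 2 * ψ₀ * (g j * (b p m n * qM b c p j m n)) + 2 * ψ₀ * (g n * (b p m j * qM b c p j m n))
        + ψ₀ * ψ₀ * (qM b c p j m n) ^ 2 := by
    intro p j m n
    have h := hFE p j m n
    have : ψ₀ * ψ₀ * (e p j m n) ^ 2 = (ψ₀ * e p j m n) ^ 2 := by ring
    rw [this, h]
    ring
  have hL : ψ₀ * ψ₀ * ∑ p, ∑ j, ∑ m, ∑ n, (e p j m n) ^ 2
      = ∑ p, ∑ j, ∑ m, ∑ n, ψ₀ * ψ₀ * (e p j m n) ^ 2 := by
    simp only [Finset.mul_sum]
  have hR : ψ₀ * ψ₀ * ∑ p, ∑ j, ∑ m, ∑ n, (qM b c p j m n) ^ 2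
      = ∑ p, ∑ j, ∑ m, ∑ n, ψ₀ * ψ₀ * (qM b c p j m n) ^ 2 := by
    simp only [Finset.mul_sum]
  rw [hL, hR]
  simp only [e1, Finset.sum_add_distrib]
  have z12 : ∑ p, ∑ j, ∑ m, ∑ n, 2 * (g p * (b m j n * g m * b p j n)) = 0 := by
    apply zero4_1
    intro j m n
    have : ∑ p, 2 * (g p * (b m j n * g m * b p j n)) = 2 * (b m j n * g m) * ∑ p, g p * b p j n := by
      rw [Finset.mul_sum]
      refine Finset.sum_congr rfl fun m _ => ?_
      ring
    rw [this, hr.radb, mul_zero]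
  have z13 : ∑ p, ∑ j, ∑ m, ∑ n, 2 * (g p * (b m j n * g j * b p m n)) = 0 := by
    apply zero4_1
    intro j m n
    have : ∑ p, 2 * (g p * (b m j n * g j * b p m n)) = 2 * (b m j n * g j) * ∑ p, g p * b p m n := by
      rw [Finset.mul_sum]
      refine Finset.sum_congr rfl fun m _ => ?_
      ring
    rw [this, hr.radb, mul_zero]
  have z14 : ∑ p, ∑ j, ∑ m, ∑ n, 2 * (g p * (b m j n * g n * b p m j)) = 0 := by
    apply zero4_1
    intro j m n
    have : ∑ p, 2 * (g p * (b m j n * g n * b p m j)) = 2 * (b m j n * g n) * ∑ p, g p * b p m j := by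
      rw [Finset.mul_sum]
      refine Finset.sum_congr rfl fun m _ => ?_
      ring
    rw [this, hr.radb, mul_zero]
  have z23 : ∑ p, ∑ j, ∑ m, ∑ n, 2 * (g m * (b p j n * g j * b p m n)) = 0 := by
    apply zero4_3
    intro p j n
    have : ∑ m, 2 * (g m * (b p j n * g j * b p m n)) = 2 * (b p j n * g j) * ∑ m, g m * b p m n := by
      rw [Finset.mul_sum]
      refine Finset.sum_congr rfl fun m _ => ?_
      ring
    rw [this, hr.radb2, mul_zero]
  have z24 : ∑ p, ∑ j, ∑ m, ∑ n, 2 * (g m * (b p j n * g n * b p m j)) = 0 := by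
    apply zero4_3
    intro p j n
    have : ∑ m, 2 * (g m * (b p j n * g n * b p m j)) = 2 * (b p j n * g n) * ∑ m, g m * b p m j := by
      rw [Finset.mul_sum]
      refine Finset.sum_congr rfl fun m _ => ?_
      ring
    rw [this, hr.radb2, mul_zero]
  have z34 : ∑ p, ∑ j, ∑ m, ∑ n, 2 * (g j * (b p m n * g n * b p m j)) = 0 := by
    apply zero4_2
    intro p m n
    have : ∑ j, 2 * (g j * (b p m n * g n * b p m j)) = 2 * (b p m n * g n) * ∑ j, g j * b p m j := by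
      rw [Finset.mul_sum]
      refine Finset.sum_congr rfl fun m _ => ?_
      ring
    rw [this, hr.radb3, mul_zero]
  have y1 : ∑ p, ∑ j, ∑ m, ∑ n, 2 * ψ₀ * (g p * (b m j n * qM b c p j m n)) = 0 := by
    apply zero4_1
    intro j m n
    have : ∑ p, 2 * ψ₀ * (g p * (b m j n * qM b c p j m n))
        = 2 * ψ₀ * b m j n * ∑ p, g p * qM b c p j m n := by
      rw [Finset.mul_sum]
      refine Finset.sum_congr rfl fun m _ => ?_
      ring
    rw [this, hr.radq1, mul_zero]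
  have y2 : ∑ p, ∑ j, ∑ m, ∑ n, 2 * ψ₀ * (g m * (b p j n * qM b c p j m n)) = 0 := by
    apply zero4_3
    intro p j n
    have : ∑ m, 2 * ψ₀ * (g m * (b p j n * qM b c p j m n))
        = 2 * ψ₀ * b p j n * ∑ m, g m * qM b c p j m n := by
      rw [Finset.mul_sum]
      refine Finset.sum_congr rfl fun m _ => ?_
      ring
    rw [this, hr.radq3, mul_zero]
  have y3 : ∑ p, ∑ j, ∑ m, ∑ n, 2 * ψ₀ * (g j * (b p m n * qM b c p j m n)) = 0 := by
    apply zero4_2
    intro p m n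
    have : ∑ j, 2 * ψ₀ * (g j * (b p m n * qM b c p j m n))
        = 2 * ψ₀ * b p m n * ∑ j, g j * qM b c p j m n := by
      rw [Finset.mul_sum]
      refine Finset.sum_congr rfl fun m _ => ?_
      ring
    rw [this, hr.radq2, mul_zero]
  have y4 : ∑ p, ∑ j, ∑ m, ∑ n, 2 * ψ₀ * (g n * (b p m j * qM b c p j m n)) = 0 := by
    apply zero4_4
    intro p j m
    have : ∑ n, 2 * ψ₀ * (g n * (b p m j * qM b c p j m n))
        = 2 * ψ₀ * b p m j * ∑ n, g n * qM b c p j m n := by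
      rw [Finset.mul_sum]
      refine Finset.sum_congr rfl fun m _ => ?_
      ring
    rw [this, hr.radq4, mul_zero]
  rw [z12, z13, z14, z23, z24, z34, y1, y2, y3, y4]
  have n1 : ∑ p, ∑ j, ∑ m, ∑ n, (g p) ^ 2 * (b m j n) ^ 2 = (∑ p, g p ^ 2) * sM b := by
    rw [sep4_1 (fun p => (g p) ^ 2) (fun j m n => (b m j n) ^ 2)]
    congr 1
    exact Finset.sum_comm
  have n2 : ∑ p, ∑ j, ∑ m, ∑ n, (g m) ^ 2 * (b p j n) ^ 2 = (∑ p, g p ^ 2) * sM b :=
    sep4_3 (fun p => (g p) ^ 2) (fun p j n => (b p j n) ^ 2)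
  have n3 : ∑ p, ∑ j, ∑ m, ∑ n, (g j) ^ 2 * (b p m n) ^ 2 = (∑ p, g p ^ 2) * sM b :=
    sep4_2 (fun p => (g p) ^ 2) (fun p m n => (b p m n) ^ 2)
  have n4 : ∑ p, ∑ j, ∑ m, ∑ n, (g n) ^ 2 * (b p m j) ^ 2 = (∑ p, g p ^ 2) * sM b := by
    rw [sep4_4 (fun p => (g p) ^ 2) (fun p j m => (b p m j) ^ 2)]
    congr 1
    refine Finset.sum_congr rfl fun p _ => ?_
    exact Finset.sum_comm
  rw [n1, n2, n3, n4]
  ring

omit hr in
/-- The contraction of the Gauss vector vanishes. -/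
lemma T_gamma {a c : ι → Matrix ι ι ℝ} (ha : SymArr a) (hc : SymArr c)
    (hA : ∀ i k, ∑ m, a i m k * trace (c m) = 0)
    (hC1 : ∀ q, ∑ j, ∑ m, ∑ n, qM a c q j m n * a j m n = 0) :
    ∑ j, ∑ m, (∑ r, c j m r * trace (c r)) * trace (a m * a j) = 0 := by
  have hq : ∀ q, ∑ j, ∑ m, ∑ n, qM a c q j m n * a j m n
      = ∑ j, ∑ m, ∑ n, ∑ r, a q j r * c m r n * a j m n
        + ∑ j, ∑ r, c q j r * trace (a r * a j) := by
    intro q
    have e1 : ∀ j m n, qM a c q j m n * a j m n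
        = ∑ r, a q j r * c m r n * a j m n + ∑ r, c q j r * (a r m n * a j m n) := by
      intro j m n
      simp only [qM, Matrix.add_apply, Matrix.mul_apply, add_mul, Finset.sum_add_distrib,
        Finset.sum_mul]
      congr 1
      refine Finset.sum_congr rfl fun r _ => ?_
      rw [ha.s01 m r n]
      ring
    simp only [e1, Finset.sum_add_distrib]
    congr 1
    refine Finset.sum_congr rfl fun j _ => ?_
    have e2 : ∑ m, ∑ n, ∑ r, c q j r * (a r m n * a j m n)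
        = ∑ r, ∑ m, ∑ n, c q j r * (a r m n * a j m n) :=
      sum_front3 (fun m n r => c q j r * (a r m n * a j m n))
    rw [e2]
    refine Finset.sum_congr rfl fun r _ => ?_
    rw [trace_mul_symm _ _ (ha.t j)]
    simp only [Finset.mul_sum]
  have hU : ∑ q, trace (c q) * ∑ j, ∑ m, ∑ n, ∑ r, a q j r * c m r n * a j m n = 0 := by
    simp only [Finset.mul_sum]
    have e : ∑ q, ∑ j, ∑ m, ∑ n, ∑ r, trace (c q) * (a q j r * c m r n * a j m n)
        = ∑ j, ∑ m, ∑ n, ∑ r, ∑ q, trace (c q) * (a q j r * c m r n * a j m n) := by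
      calc ∑ q, ∑ j, ∑ m, ∑ n, ∑ r, trace (c q) * (a q j r * c m r n * a j m n)
          = ∑ j, ∑ q, ∑ m, ∑ n, ∑ r, trace (c q) * (a q j r * c m r n * a j m n) := Finset.sum_comm
        _ = ∑ j, ∑ m, ∑ q, ∑ n, ∑ r, trace (c q) * (a q j r * c m r n * a j m n) :=
            Finset.sum_congr rfl fun j _ => Finset.sum_comm
        _ = ∑ j, ∑ m, ∑ n, ∑ q, ∑ r, trace (c q) * (a q j r * c m r n * a j m n) :=
            Finset.sum_congr rfl fun j _ => Finset.sum_congr rfl fun m _ => Finset.sum_comm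
        _ = _ :=
            Finset.sum_congr rfl fun j _ => Finset.sum_congr rfl fun m _ =>
              Finset.sum_congr rfl fun n _ => Finset.sum_comm
    rw [e]
    refine Finset.sum_eq_zero fun j _ => Finset.sum_eq_zero fun m _ =>
      Finset.sum_eq_zero fun n _ => Finset.sum_eq_zero fun r _ => ?_
    have : ∑ q, trace (c q) * (a q j r * c m r n * a j m n)
        = (∑ q, a j q r * trace (c q)) * (c m r n * a j m n) := by
      rw [Finset.sum_mul]
      refine Finset.sum_congr rfl fun q _ => ?_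
      rw [ha.s01 q j r]
      ring
    rw [this, hA, zero_mul]
  have hV : ∑ q, trace (c q) * ∑ j, ∑ r, c q j r * trace (a r * a j) = 0 := by
    have : ∀ q, trace (c q) * ∑ j, ∑ r, c q j r * trace (a r * a j)
        = trace (c q) * (∑ j, ∑ m, ∑ n, qM a c q j m n * a j m n)
          - trace (c q) * ∑ j, ∑ m, ∑ n, ∑ r, a q j r * c m r n * a j m n := by
      intro q
      rw [hq q]; ring
    simp only [this, hC1, mul_zero, zero_sub, Finset.sum_neg_distrib, hU, neg_zero, Finset.sum_const_zero]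
  rw [← hV]
  simp only [Finset.sum_mul, Finset.mul_sum]
  have e3 : ∑ j, ∑ m, ∑ r, c j m r * trace (c r) * trace (a m * a j)
      = ∑ r, ∑ j, ∑ m, c j m r * trace (c r) * trace (a m * a j) :=
    sum_front3 (fun j m r => c j m r * trace (c r) * trace (a m * a j))
  rw [e3]
  refine Finset.sum_congr rfl fun q _ => ?_
  refine Finset.sum_congr rfl fun j _ => ?_
  refine Finset.sum_congr rfl fun m _ => ?_
  have e4 : c j m q = c q j m := by rw [hc.s j m q, hc.t' q m j]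
  rw [e4]
  ring

end Vale.Agent.P084
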