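import Vale.Agent.P084.Alg4
import Vale.Agent.P084.Arr2

/-!
Evaluation at a point where the metric is the identity matrix.
-/

set_option linter.unusedSectionVars false
set_option linter.unusedVariables false

namespace Vale.Agent.P084

open Matrix

variable {ι R : Type*} [Fintype ι] [DecidableEq ι] [CommRing R] [Algebra ℝ R]

section evM

variable (ev : R →+* ℝ)

/-- evaluate a matrix -/
def evM (X : Matrix ι ι R) : Matrix ι ι ℝ := X.map ev

@[simp] lemma evM_apply (X : Matrix ι ι R) (i j : ι) : evM ev X i j = ev (X i j) := rfl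

lemma evM_mul (X Y : Matrix ι ι R) : evM ev (X * Y) = evM ev X * evM ev Y := by
  ext i j
  simp [Matrix.mul_apply, map_sum]

lemma evM_add (X Y : Matrix ι ι R) : evM ev (X + Y) = evM ev X + evM ev Y := by
  ext i j; simp

lemma evM_sub (X Y : Matrix ι ι R) : evM ev (X - Y) = evM ev X - evM ev Y := by
  ext i j; simp

lemma evM_neg (X : Matrix ι ι R) : evM ev (-X) = - evM ev X := by
  ext i j; simp

lemma evM_zero : evM ev (0 : Matrix ι ι R) = 0 := by
  ext i j; simp

lemma evM_one : evM ev (1 : Matrix ι ι R) = 1 := by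
  ext i j
  simp [Matrix.one_apply]

lemma evM_smul (r : R) (X : Matrix ι ι R) : evM ev (r • X) = ev r • evM ev X := by
  ext i j; simp

lemma evM_sum {κ : Type*} (s : Finset κ) (X : κ → Matrix ι ι R) :
    evM ev (∑ k ∈ s, X k) = ∑ k ∈ s, evM ev (X k) := by
  ext i j; simp [Matrix.sum_apply, map_sum]

lemma evM_transpose (X : Matrix ι ι R) : evM ev Xᵀ = (evM ev X)ᵀ := by
  ext i j; simp

lemma ev_trace (X : Matrix ι ι R) : ev (trace X) = trace (evM ev X) := by
  simp [Matrix.trace, map_sum]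

end evM

namespace Data

variable (d : Data ι R) (ev : R →+* ℝ)

/-- Hypotheses at the point. -/
structure AtPt : Prop where
  hG : evM ev d.G = 1
  hψ : 0 < ev d.ψ
  hβ : ∀ k, d.β k = 0
  hdw : ∀ q, ev (d.D q d.w) = 0

variable {d ev}
variable (hp : d.AtPt ev)
include hp

lemma AtPt.hGi : evM ev d.Gi = 1 := by
  have h := congrArg (evM ev) d.Gi_G
  rw [evM_mul, evM_one, hp.hG, Matrix.mul_one] at h
  exact h

lemma AtPt.hGi' (i j : ι) : ev (d.Gi i j) = if i = j then 1 else 0 := by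
  have := congrFun (congrFun hp.hGi i) j
  simpa [Matrix.one_apply] using this

lemma AtPt.hG' (i j : ι) : ev (d.G i j) = if i = j then 1 else 0 := by
  have := congrFun (congrFun hp.hG i) j
  simpa [Matrix.one_apply] using this

lemma AtPt.evG_mul (X : Matrix ι ι R) : evM ev (d.G * X) = evM ev X := by
  rw [evM_mul, hp.hG, Matrix.one_mul]

/-- the real model of `A`. -/
def aE (d : Data ι R) (ev : R →+* ℝ) (i : ι) : Matrix ι ι ℝ := evM ev (d.A i)

/-- the real model of `C`. -/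
def cE (d : Data ι R) (ev : R →+* ℝ) (i : ι) : Matrix ι ι ℝ := evM ev (d.C i)

/-- the real model of `E`. -/
def eE (d : Data ι R) (ev : R →+* ℝ) (q j : ι) : Matrix ι ι ℝ := evM ev (d.E q j)

/-- the real gradient. -/
def gE (d : Data ι R) (ev : R →+* ℝ) (i : ι) : ℝ := ev (d.D i d.ψ)

lemma AtPt.symA : SymArr (aE d ev) := by
  refine ⟨fun i => ?_, fun i m j => ?_⟩
  · have h := congrArg (evM ev) (d.A_transpose_G i)
    rw [evM_mul, evM_mul, evM_transpose, hp.hG, Matrix.mul_one, Matrix.one_mul] at h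
    exact h
  · simp only [aE, evM_apply, d.A_symm i m j]

lemma AtPt.symC : SymArr (cE d ev) := by
  refine ⟨fun i => ?_, fun i m j => ?_⟩
  · have h := congrArg (evM ev) (d.C_transpose_G i)
    rw [evM_mul, evM_mul, evM_transpose, hp.hG, Matrix.mul_one, Matrix.one_mul] at h
    exact h
  · simp only [cE, evM_apply, d.C_symm i m j]

lemma AtPt.GE : ∀ i j, (cE d ev i * aE d ev j - aE d ev j * cE d ev i)
    + (aE d ev i * cE d ev j - cE d ev j * aE d ev i) = 0 := by
  intro i j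
  have h := congrArg (evM ev) (d.GE i j)
  simp only [evM_add, evM_sub, evM_mul, evM_zero] at h
  exact h

lemma AtPt.traceA (k : ι) : trace (aE d ev k) = 0 := by
  have : ev (d.β k) = 0 := by rw [hp.hβ k, map_zero]
  rwa [Data.β, ev_trace] at this

lemma AtPt.x_eq_g (j : ι) : ev (d.x j) = gE d ev j := by
  have h := congrArg ev (d.x_G j)
  simp only [map_sum, map_mul, hp.hG', mul_ite, mul_one, mul_zero, Finset.sum_ite_eq',
    Finset.mem_univ, if_true] at h
  exact h

lemma AtPt.sum_g_sq : ∑ i, (gE d ev i) ^ 2 = 2 * ev d.ψ := by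
  have h := congrArg ev d.euler_ψ
  simp only [map_sum, map_mul, hp.x_eq_g, map_ofNat] at h
  rw [← h]
  refine Finset.sum_congr rfl fun i _ => ?_
  rw [sq]; rfl

lemma AtPt.rad_a (i m : ι) : ∑ q, gE d ev q * aE d ev i m q = 0 := by
  have h := congrArg ev (d.x_A m i)
  simp only [map_sum, map_mul, hp.x_eq_g, map_zero] at h
  exact h

lemma AtPt.rad_c (i m : ι) : ∑ q, gE d ev q * cE d ev i m q = 0 := by
  have h := congrArg ev (d.x_C m i)
  simp only [map_sum, map_mul, hp.x_eq_g, map_zero] at h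
  exact h

/-- rad in first index -/
lemma AtPt.rad_a1 (j n : ι) : ∑ q, gE d ev q * aE d ev q j n = 0 := by
  have h := hp.rad_a j n
  rw [← h]
  refine Finset.sum_congr rfl fun q _ => ?_
  rw [hp.symA.s01 q j n, hp.symA.t' j q n]

lemma AtPt.rad_a2 (j n : ι) : ∑ q, gE d ev q * aE d ev j q n = 0 := by
  have h := hp.rad_a j n
  rw [← h]
  refine Finset.sum_congr rfl fun q _ => ?_
  rw [hp.symA.t' j q n]

lemma AtPt.rad_c1 (j n : ι) : ∑ q, gE d ev q * cE d ev q j n = 0 := by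
  have h := hp.rad_c j n
  rw [← h]
  refine Finset.sum_congr rfl fun q _ => ?_
  rw [hp.symC.s01 q j n, hp.symC.t' j q n]

/-- evaluation of `Q`. -/
lemma AtPt.evQ (l i k j : ι) : ev (d.Q l i k j) = qM (aE d ev) (cE d ev) l i k j := by
  have : ev (d.Q l i k j) = evM ev (d.G * (d.A l * d.C k + d.C l * d.A k)) i j := rfl
  rw [this, hp.evG_mul, evM_add, evM_mul, evM_mul]
  rfl

lemma AtPt.evB (i k j : ι) : ev (d.B i k j) = aE d ev i k j := by
  have : ev (d.B i k j) = evM ev (d.G * d.A i) k j := rfl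
  rw [this, hp.evG_mul]
  rfl

lemma AtPt.evEf (l i k j : ι) : ev (d.Ef l i k j) = eE d ev l i k j := by
  have : ev (d.Ef l i k j) = evM ev (d.G * d.E l i) k j := rfl
  rw [this, hp.evG_mul]
  rfl

lemma AtPt.q_swap12 (a b c' e : ι) : qM (aE d ev) (cE d ev) a b c' e = qM (aE d ev) (cE d ev) b a c' e := by
  rw [← hp.evQ, ← hp.evQ, d.Q_swap12]

lemma AtPt.q_swap34 (a b c' e : ι) : qM (aE d ev) (cE d ev) a b c' e = qM (aE d ev) (cE d ev) a b e c' := by
  rw [← hp.evQ, ← hp.evQ, d.Q_swap34]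

lemma AtPt.q_swap13 (a b c' e : ι) : qM (aE d ev) (cE d ev) a b c' e = qM (aE d ev) (cE d ev) c' b a e := by
  rw [← hp.evQ, ← hp.evQ, d.Q_swap13]

lemma AtPt.e_symm (q j m n : ι) : eE d ev q j m n = eE d ev q j n m := by
  rw [← hp.evEf, ← hp.evEf]
  congr 1
  exact d.Ef_swap34 q j m n

/-- The evaluated fundamental equation. -/
lemma AtPt.FE (p j m n : ι) : ev d.ψ * eE d ev p j m n
    = - (gE d ev p * aE d ev m j n + gE d ev m * aE d ev p j n + gE d ev j * aE d ev p m n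
        + gE d ev n * aE d ev p m j) - ev d.ψ * qM (aE d ev) (cE d ev) p j m n := by
  have h := congrArg ev (d.FE p j m n)
  simp only [map_sub, map_neg, map_add, map_mul, hp.evB, hp.evEf, hp.evQ] at h
  exact h

/-- evaluation of the pairing -/
lemma AtPt.ev_pair (U V : ι → Matrix ι ι R) :
    ev (d.pair U V) = ∑ j, trace (evM ev (U j) * evM ev (V j)) := by
  simp only [pair, map_sum, map_mul, hp.hGi', ev_trace, evM_mul, ite_mul, one_mul, zero_mul,
    Finset.sum_ite_eq, Finset.mem_univ, if_true]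

lemma AtPt.ev_S0 : ev d.S0 = ∑ j, trace (aE d ev j * aE d ev j) := hp.ev_pair _ _

/-- the value of `S0` at the point -/
lemma AtPt.ev_S0' : ev d.S0 = ∑ j, ∑ m, ∑ n, (aE d ev j m n) ^ 2 := by
  rw [hp.ev_S0]
  refine Finset.sum_congr rfl fun j _ => ?_
  have := trace_mul_transpose_eq (aE d ev j)
  rwa [hp.symA.t j] at this

lemma AtPt.ev_DS0 (q : ι) : ev (d.D q d.S0) = ∑ j, ∑ m, ∑ n, eE d ev q j m n * aE d ev j m n := by
  rw [d.D_S0, hp.ev_pair]
  refine Finset.sum_congr rfl fun j _ => ?_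
  exact trace_mul_symm _ _ (hp.symA.t j)

lemma AtPt.radH : RadH (aE d ev) (cE d ev) (gE d ev) :=
  { symb := hp.symA
    symc := hp.symC
    radb := hp.rad_a1
    radc := hp.rad_c1
    qs12 := hp.q_swap12
    qs34 := hp.q_swap34
    qs13 := hp.q_swap13 }

lemma AtPt.ev_S0M : ev d.S0 = sM (aE d ev) := hp.ev_S0'

/-- critical point equation for the value of the first derivative -/
lemma AtPt.crit (q : ι) : ev d.ψ * ev (d.D q d.S0) = - gE d ev q * ev d.S0 := by
  have h := hp.hdw q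
  rw [d.D_w] at h
  simp only [map_add, map_mul] at h
  have : gE d ev q = ev (d.D q d.ψ) := rfl
  rw [this]
  linear_combination h

lemma AtPt.C1 (q : ι) :
    ∑ j, ∑ m, ∑ n, qM (aE d ev) (cE d ev) q j m n * aE d ev j m n = 0 := by
  have h1 := hp.radH.first hp.FE q
  rw [← hp.ev_DS0, hp.crit, ← hp.ev_S0M] at h1
  have h2 : ev d.ψ * ∑ j, ∑ m, ∑ n, qM (aE d ev) (cE d ev) q j m n * aE d ev j m n = 0 := by
    linarith
  rcases mul_eq_zero.mp h2 with h | h
  · exact absurd h hp.hψ.ne'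
  · exact h

end Data

namespace Data

variable (d : Data ι R)

/-- Vanishing of the `γ`-contraction of `A` when `β = 0`. -/
lemma A_γ (hβ : ∀ k, d.β k = 0) (i k : ι) : ∑ m, d.A i m k * d.γ m = 0 := by
  apply d.ψ_cancel
  have h := d.TF i k
  simp only [hβ, map_zero, mul_zero, zero_mul, zero_sub, sub_zero] at h
  rw [mul_zero]
  have e : ∑ m, d.A i m k * (- d.γ m) = - ∑ m, d.A i m k * d.γ m := by
    rw [← Finset.sum_neg_distrib]
    refine Finset.sum_congr rfl fun m _ => ?_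
    ring
  rw [e] at h
  linear_combination h

variable {d} {ev : R →+* ℝ}
variable (hp : d.AtPt ev)
include hp

lemma AtPt.ev_γ (m : ι) : ev (d.γ m) = trace (cE d ev m) := by
  rw [Data.γ, ev_trace]; rfl

lemma AtPt.Aγ (i k : ι) : ∑ m, aE d ev i m k * trace (cE d ev m) = 0 := by
  have h := congrArg ev (d.A_γ hp.hβ i k)
  simp only [map_sum, map_mul, hp.ev_γ, map_zero] at h
  exact h

lemma AtPt.Tγ : ∑ j, ∑ m, (∑ r, cE d ev j m r * trace (cE d ev r))
    * trace (aE d ev m * aE d ev j) = 0 :=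
  T_gamma hp.symA hp.symC hp.Aγ hp.C1

/-- `RR` evaluated. -/
lemma AtPt.ev_RR (p j : ι) : evM ev (d.RR p j) = rrM (aE d ev) (cE d ev) p j := by
  have e : ∀ k, evM ev (d.Θ k) = aE d ev k + cE d ev k := by
    intro k
    rw [d.Θ_eq_add, evM_add]; rfl
  simp only [RR, rrM, evM_neg, evM_sub, evM_mul, e]

lemma AtPt.ev_RmA (p j q : ι) : evM ev (d.RmA p j q)
    = (rrM (aE d ev) (cE d ev) p j * aE d ev q - aE d ev q * rrM (aE d ev) (cE d ev) p j)
      - ∑ m, (rrM (aE d ev) (cE d ev) p j m q) • aE d ev m := by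
  simp only [RmA, Tw, evM_sub, evM_mul, evM_sum, evM_smul, hp.ev_RR]
  simp only [← hp.ev_RR, evM_apply]
  rfl

lemma AtPt.ev_RA (j : ι) : evM ev (d.RA j) = ∑ p, evM ev (d.RmA p j p) := by
  simp only [RA, evM_sum, evM_smul, hp.hGi', ite_smul, one_smul, zero_smul,
    Finset.sum_ite_eq, Finset.mem_univ, if_true]

lemma AtPt.ev_pair_RA : ev (d.pair d.RA d.A) = ∑ j, ∑ p, rmTerm (aE d ev) (cE d ev) j p := by
  rw [hp.ev_pair]
  refine Finset.sum_congr rfl fun j _ => ?_
  rw [hp.ev_RA, Finset.sum_mul, Matrix.trace_sum]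
  refine Finset.sum_congr rfl fun p _ => ?_
  rw [hp.ev_RmA]
  rfl

lemma AtPt.ev_τ (m : ι) : ev (d.τ m) = ∑ p, (aE d ev p m p + cE d ev p m p) := by
  simp only [τ, map_sum, map_mul, hp.hGi', ite_mul, one_mul, zero_mul,
    Finset.sum_ite_eq, Finset.mem_univ, if_true]
  refine Finset.sum_congr rfl fun p _ => ?_
  rw [d.Θ_eq_add, Matrix.add_apply, map_add]
  rfl

lemma AtPt.τ_g : ∑ m, ev (d.τ m) * gE d ev m = 0 := by
  simp only [hp.ev_τ, Finset.sum_mul]
  rw [Finset.sum_comm]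
  refine Finset.sum_eq_zero fun p _ => ?_
  have : ∀ m, (aE d ev p m p + cE d ev p m p) * gE d ev m
      = gE d ev m * aE d ev p p m + gE d ev m * cE d ev p p m := by
    intro m
    rw [hp.symA.t' p m p, hp.symC.t' p m p]
    ring
  simp only [this, Finset.sum_add_distrib, hp.rad_a, hp.rad_c, add_zero]

lemma AtPt.τ_term : ∑ m, ev (d.τ m) * ev (d.D m d.S0) = 0 := by
  have h : ev d.ψ * ∑ m, ev (d.τ m) * ev (d.D m d.S0) = 0 := by
    rw [Finset.mul_sum]
    have e : ∀ m, ev d.ψ * (ev (d.τ m) * ev (d.D m d.S0))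
        = - ev d.S0 * (ev (d.τ m) * gE d ev m) := by
      intro m
      have := hp.crit m
      linear_combination ev (d.τ m) * this
    simp only [e]
    rw [← Finset.mul_sum, hp.τ_g, mul_zero]
  rcases mul_eq_zero.mp h with h | h
  · exact absurd h hp.hψ.ne'
  · exact h

lemma AtPt.ev_EE (p : ι) : ev (d.pair (d.E p) (d.E p)) = ∑ j, ∑ m, ∑ n, (eE d ev p j m n) ^ 2 := by
  rw [hp.ev_pair]
  refine Finset.sum_congr rfl fun j _ => ?_
  have ht : (eE d ev p j)ᵀ = eE d ev p j := by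
    ext m n
    exact hp.e_symm p j n m
  have := trace_mul_transpose_eq (eE d ev p j)
  rw [ht] at this
  exact this

/-- the second derivative bound at the point -/
theorem AtPt.lap_w : (Fintype.card ι : ℝ) * ev d.S0 ≤ ∑ p, ev (d.D p (d.D p d.w)) := by
  set ψ₀ := ev d.ψ with hψ₀
  have hψpos : 0 < ψ₀ := hp.hψ
  set s := ev d.S0 with hs
  -- M1 evaluated
  have hM := congrArg ev (d.M1 hp.hβ)
  have hL : ev ((2 : R) * ∑ p, ∑ q, d.Gi p q * d.D p (d.D q d.S0))
      = 2 * ∑ p, ev (d.D p (d.D p d.S0)) := by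
    simp only [map_mul, map_sum, hp.hGi', ite_mul, one_mul, zero_mul, Finset.sum_ite_eq,
      Finset.mem_univ, if_true, map_ofNat]
  have hR : ev (d.pair d.RA d.A + ∑ m, d.τ m * d.D m d.S0
        + ∑ p, ∑ q, d.Gi p q * d.pair (d.E q) (d.E p))
      = ∑ j, ∑ p, rmTerm (aE d ev) (cE d ev) j p
        + ∑ p, ∑ j, ∑ m, ∑ n, (eE d ev p j m n) ^ 2 := by
    simp only [map_add, map_sum, map_mul, hp.ev_pair_RA, hp.τ_term, hp.hGi', ite_mul, one_mul,
      zero_mul, Finset.sum_ite_eq, Finset.mem_univ, if_true, hp.ev_EE, add_zero]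
  rw [hL, hR] at hM
  -- the norm of `E`
  have hN := hp.radH.norm_e hp.FE
  rw [hp.sum_g_sq, ← hp.ev_S0M] at hN
  -- inequality
  have hI := final_ineq hp.symA hp.symC hp.GE hp.traceA hp.Tγ
  -- reindex the sum of squares of q
  have hQ : ∑ l, ∑ k, ∑ i, ∑ j, ((aE d ev l * cE d ev k + cE d ev l * aE d ev k) i j) ^ 2
      = ∑ p, ∑ j, ∑ m, ∑ n, (qM (aE d ev) (cE d ev) p j m n) ^ 2 := by
    refine Finset.sum_congr rfl fun l _ => ?_
    exact Finset.sum_comm
  rw [hQ] at hI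
  -- the Laplacian
  have hLap : ∑ p, ev (d.D p (d.D p d.w))
      = (Fintype.card ι : ℝ) * s + 2 * ∑ p, gE d ev p * ev (d.D p d.S0)
        + ψ₀ * ∑ p, ev (d.D p (d.D p d.S0)) := by
    have e : ∀ p, ev (d.D p (d.D p d.w))
        = s + 2 * (gE d ev p * ev (d.D p d.S0)) + ψ₀ * ev (d.D p (d.D p d.S0)) := by
      intro p
      rw [d.DD_w]
      simp only [map_add, map_mul, hp.hG', if_true]
      simp only [gE, hs, hψ₀]
      ring
    simp only [e, Finset.sum_add_distrib, Finset.sum_const, Finset.card_univ, nsmul_eq_mul,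
      ← Finset.mul_sum]
  have hg : ψ₀ * (2 * ∑ p, gE d ev p * ev (d.D p d.S0)) = - 4 * ψ₀ * s := by
    have e : ∀ p, ψ₀ * (gE d ev p * ev (d.D p d.S0)) = - (gE d ev p) ^ 2 * s := by
      intro p
      have := hp.crit p
      linear_combination gE d ev p * this
    have : ψ₀ * ∑ p, gE d ev p * ev (d.D p d.S0) = - ((∑ p, (gE d ev p) ^ 2) * s) := by
      rw [Finset.mul_sum, Finset.sum_mul, ← Finset.sum_neg_distrib]
      refine Finset.sum_congr rfl fun p _ => ?_
      rw [e p]; ring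
    rw [hp.sum_g_sq] at this
    linear_combination 2 * this
  have hfinal : ψ₀ * (2 * (∑ p, gE d ev p * ev (d.D p d.S0)) + ψ₀ * ∑ p, ev (d.D p (d.D p d.S0)))
      = ψ₀ * ψ₀ / 2 * (∑ j, ∑ p, rmTerm (aE d ev) (cE d ev) j p
          + ∑ p, ∑ j, ∑ m, ∑ n, (qM (aE d ev) (cE d ev) p j m n) ^ 2) := by
    linear_combination (ψ₀ * ψ₀ / 2) * hM + (1 / 2) * hN + hg
  have hpos : 0 ≤ 2 * (∑ p, gE d ev p * ev (d.D p d.S0)) + ψ₀ * ∑ p, ev (d.D p (d.D p d.S0)) := by
    have : 0 ≤ ψ₀ * (2 * (∑ p, gE d ev p * ev (d.D p d.S0)) + ψ₀ * ∑ p, ev (d.D p (d.D p d.S0))) := by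
      rw [hfinal]
      exact mul_nonneg (by positivity) hI
    exact (mul_nonneg_iff_of_pos_left hψpos).mp this
  rw [hLap]
  linarith

end Data

end Vale.Agent.P084
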