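import Vale.Agent.P084.Polar
import Vale.Agent.P084.Eval

/-!
The abstract differential data attached to a linear frame.
-/

set_option linter.unusedSectionVars false
set_option linter.unusedVariables false

open scoped ContDiff
open Matrix

namespace Vale.Agent.P084

variable {ι : Type*} [Fintype ι] [DecidableEq ι]

/-- reciprocal in the smooth ring -/
noncomputable def inv0 (g : RR ι) (hg : ∀ x : UU ι, evx x g ≠ 0) : RR ι :=
  Sm.mk (fun y => 1 / ext0 (g : UU ι → ℝ) y) (by
    refine contDiffOn_const.div (Sm.smooth g) ?_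
    intro y hy
    rw [ext0_of_mem _ hy]
    exact hg ⟨y, hy⟩)

lemma inv0_mul (g : RR ι) (hg : ∀ x : UU ι, evx x g ≠ 0) : g * inv0 g hg = 1 := by
  apply Sm.ext'
  intro y
  show (g : UU ι → ℝ) y * (1 / ext0 (g : UU ι → ℝ) y) = 1
  rw [ext0_coe]
  have : (g : UU ι → ℝ) y ≠ 0 := hg y
  field_simp

lemma evx_alg (x : UU ι) (c : ℝ) : evx x (algebraMap ℝ (RR ι) c) = c := rfl

/-- the frame vectors, the columns of a matrix. -/
def vv (L : Matrix ι ι ℝ) (i : ι) : ι → ℝ := fun β => L β i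

lemma frame_sum (L Li : Matrix ι ι ℝ) (hL : Li * L = 1) (y : ι → ℝ) :
    ∑ i, (∑ β, Li i β * y β) • vv L i = y := by
  have h1 : L * Li = 1 := mul_eq_one_comm.mp hL
  ext γ
  simp only [Finset.sum_apply, Pi.smul_apply, smul_eq_mul, vv]
  have e : ∀ i, (∑ β, Li i β * y β) * L γ i = ∑ β, L γ i * Li i β * y β := by
    intro i
    rw [Finset.sum_mul]
    refine Finset.sum_congr rfl fun β _ => ?_
    ring
  simp only [e]
  rw [Finset.sum_comm]
  have e2 : ∀ β, ∑ i, L γ i * Li i β * y β = (L * Li) γ β * y β := by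
    intro β
    rw [Matrix.mul_apply, Finset.sum_mul]
  simp only [e2, h1, Matrix.one_apply]
  simp

/-- the coordinates relative to a frame -/
noncomputable def xx (Li : Matrix ι ι ℝ) (i : ι) : RR ι := ∑ β, Li i β • fXc β

lemma evx_xx (Li : Matrix ι ι ℝ) (i : ι) (y : UU ι) :
    evx y (xx Li i) = ∑ β, Li i β * (y : ι → ℝ) β := by
  simp only [xx, map_sum]
  rfl

lemma D_xx (L Li : Matrix ι ι ℝ) (hL : Li * L = 1) (j i : ι) :
    Dv (vv L j) (xx Li i) = if i = j then 1 else 0 := by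
  simp only [xx, map_sum, Derivation.map_smul, Dv_fXc]
  have h : ∑ β, Li i β • algebraMap ℝ (RR ι) (vv L j β) = algebraMap ℝ (RR ι) ((Li * L) i j) := by
    rw [Matrix.mul_apply, map_sum]
    refine Finset.sum_congr rfl fun β _ => ?_
    rw [map_mul, Algebra.smul_def]
    rfl
  rw [h, hL, Matrix.one_apply]
  split_ifs <;> simp

lemma frame_euler (L Li : Matrix ι ι ℝ) (hL : Li * L = 1) (g : RR ι) (k : ℤ) (hg : IsHom g k) :
    ∑ i, xx Li i * Dv (vv L i) g = (k : ℝ) • g := by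
  apply Sm.eq_of_ev
  intro y
  have h1 := rad_Dv hg y
  have h2 : Dv (y : ι → ℝ) g = ∑ i, (∑ β, Li i β * (y : ι → ℝ) β) • Dv (vv L i) g := by
    conv_lhs => rw [← frame_sum L Li hL (y : ι → ℝ)]
    rw [Dv_sum]
  rw [h2, map_sum] at h1
  rw [map_sum, show evx y ((k : ℝ) • g) = (k : ℝ) * evx y g from rfl, ← h1]
  refine Finset.sum_congr rfl fun i _ => ?_
  rw [map_mul, evx_xx]
  rfl

namespace Sys

variable (s : Sys ι) (hpd : ∀ (x : UU ι) (v : ι → ℝ), v ≠ 0 → 0 < evx x (Dv v (Dv v s.psiX)))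
  (L Li : Matrix ι ι ℝ) (hL : Li * L = 1)

/-- the Hessian in a frame -/
noncomputable def Gm : Matrix ι ι (RR ι) := Matrix.of fun i j => Dv (vv L i) (Dv (vv L j) s.psiX)

lemma vv_sum_ne (hL : Li * L = 1) (z : ι → ℝ) (hz : z ≠ 0) : ∑ i, z i • vv L i ≠ 0 := by
  intro h
  apply hz
  ext i
  have h1 : ∀ γ, ∑ j, L γ j * z j = 0 := by
    intro γ
    have := congrFun h γ
    simp only [Finset.sum_apply, Pi.smul_apply, smul_eq_mul, vv, Pi.zero_apply] at this
    rw [← this]
    refine Finset.sum_congr rfl fun j _ => ?_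
    ring
  have h2 : ∑ γ, Li i γ * ∑ j, L γ j * z j = z i := by
    simp only [Finset.mul_sum]
    rw [Finset.sum_comm]
    have e : ∀ j, ∑ γ, Li i γ * (L γ j * z j) = (Li * L) i j * z j := by
      intro j
      rw [Matrix.mul_apply, Finset.sum_mul]
      refine Finset.sum_congr rfl fun γ _ => ?_
      ring
    simp only [e, hL, Matrix.one_apply]
    simp
  rw [← h2]
  simp [h1]

lemma quad_frame (x : UU ι) (z : ι → ℝ) (g : RR ι) :
    evx x (Dv (∑ i, z i • vv L i) (Dv (∑ i, z i • vv L i) g))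
      = ∑ i, ∑ j, z i * z j * evx x (Dv (vv L i) (Dv (vv L j) g)) := by
  rw [Dv_sum, Dv_sum]
  simp only [map_sum, Derivation.map_smul, evx_smul, Finset.mul_sum]
  refine Finset.sum_congr rfl fun i _ => Finset.sum_congr rfl fun j _ => ?_
  ring

include hpd hL in
lemma Gm_quad_pos (x : UU ι) (z : ι → ℝ) (hz : z ≠ 0) :
    0 < ∑ i, ∑ j, z i * z j * evx x (Dv (vv L i) (Dv (vv L j) s.psiX)) := by
  rw [← quad_frame]
  exact hpd x _ (vv_sum_ne L Li hL z hz)

include hpd hL in
lemma Gm_det_ne (x : UU ι) : evx x (s.Gm L).det ≠ 0 := by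
  intro h
  have h1 : ((s.Gm L).map (evx x)).det = 0 := by
    have := RingHom.map_det (evx x) (s.Gm L)
    rw [← h, this]
    rfl
  obtain ⟨z, hz, hz2⟩ := Matrix.exists_mulVec_eq_zero_iff.mpr h1
  have h2 := s.Gm_quad_pos hpd L Li hL x z hz
  have h3 : ∑ i, ∑ j, z i * z j * evx x (Dv (vv L i) (Dv (vv L j) s.psiX)) = z ⬝ᵥ (((s.Gm L).map (evx x)) *ᵥ z) := by
    simp only [dotProduct, mulVec, Finset.mul_sum]
    refine Finset.sum_congr rfl fun i _ => Finset.sum_congr rfl fun j _ => ?_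
    simp only [Matrix.map_apply, Gm, Matrix.of_apply]
    ring
  rw [h3, hz2] at h2
  simp at h2

/-- the inverse Hessian in a frame -/
noncomputable def Gim : Matrix ι ι (RR ι) :=
  inv0 (s.Gm L).det (s.Gm_det_ne hpd L Li hL) • (s.Gm L).adjugate

lemma Gim_mul : s.Gim hpd L Li hL * s.Gm L = 1 := by
  rw [Gim, Matrix.smul_mul, Matrix.adjugate_mul, smul_smul, mul_comm, inv0_mul, one_smul]

lemma psiX_ne (x : UU ι) : evx x s.psiX ≠ 0 := by
  rw [evx_psiX]
  have := (s.NX_pos x x.2).ne'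
  positivity

/-- The data attached to a frame. -/
noncomputable def dat : Data ι (RR ι) where
  D := fun i => Dv (vv L i)
  D_comm := fun i j r => Dv_comm _ _ r
  ψ := s.psiX
  ψi := inv0 s.psiX s.psiX_ne
  ψ_mul := inv0_mul _ _
  f := s.fY
  dY := s.dY
  S := Matrix.of s.SS
  Gi := s.Gim hpd L Li hL
  x := xx Li
  D_x := fun j i => D_xx L Li hL j i
  chain1 := fun i => s.chain1 _
  chain2 := fun i α => s.chain2 _ α
  Gi_mul := s.Gim_mul hpd L Li hL
  Z0 := fun i j => s.Zf_eq_zero _ _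
  euler_ψ := by
    have := frame_euler L Li hL s.psiX 2 s.psiX_isHom
    rw [this]
    simp only [Int.cast_ofNat]
    rw [Algebra.smul_def]
    congr 1
  euler_f := fun α => by
    have := frame_euler L Li hL (s.fY α) 1 (s.fY_isHom α)
    rw [this]
    simp
  K := fun i j k l => by
    have h := s.Kf_eq_zero (vv L i) (vv L j) (vv L k) (vv L l)
    exact eq_neg_of_add_eq_zero_left h

end Sys

end Vale.Agent.P084
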