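import Vale.Agent.P084.Sys

/-!
Expansion along the even curve `h ↦ r(x+hw) f(x+hw) + r(x-hw) f(x-hw)`.
-/

set_option linter.unusedSectionVars false
set_option linter.unusedVariables false

open scoped ContDiff

namespace Vale.Agent.P084

variable {ι : Type*} [Fintype ι] [DecidableEq ι]

lemma Dw2_mul (D : Derivation ℝ (RR ι) (RR ι)) (r f : RR ι) :
    D (D (r * f)) = D (D r) * f + 2 * (D r * D f) + r * D (D f) := by
  simp only [Derivation.leibniz, smul_eq_mul, map_add]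
  ring

lemma Dw4_mul (D : Derivation ℝ (RR ι) (RR ι)) (r f : RR ι) :
    D (D (D (D (r * f)))) = D (D (D (D r))) * f + 4 * (D (D (D r)) * D f)
      + 6 * (D (D r) * D (D f)) + 4 * (D r * D (D (D f))) + r * D (D (D (D f))) := by
  simp only [Derivation.leibniz, smul_eq_mul, map_add]
  ring

/-- The data of a curve -/
structure CurveData (ι : Type*) [Fintype ι] [DecidableEq ι] where
  x : UU ι
  w : ι → ℝ
  I : Set ℝ
  hI : IsOpen I
  h0 : (0 : ℝ) ∈ I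
  hp : Set.MapsTo (fun h : ℝ => (x : ι → ℝ) + h • w) I (UU ι)
  hm : Set.MapsTo (fun h : ℝ => (x : ι → ℝ) - h • w) I (UU ι)

namespace CurveData

variable (C : CurveData ι) (r : RR ι) (f : ι → RR ι)

/-- plus line -/
noncomputable def A : RR ι →+* Sm C.I := linePlus (C.x : ι → ℝ) C.w C.hp

/-- minus line -/
noncomputable def B : RR ι →+* Sm C.I := lineMinus (C.x : ι → ℝ) C.w C.hm

/-- derivation of the curve algebra -/
noncomputable def d : Derivation ℝ (Sm C.I) (Sm C.I) := Sm.D C.hI (1 : ℝ)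

/-- evaluation at the origin of the curve parameter -/
noncomputable def ev0 : Sm C.I →+* ℝ := Sm.ev ⟨0, C.h0⟩

lemma d_A (g : RR ι) : C.d (C.A g) = C.A (Dv C.w g) := d_linePlus UU_open C.hI _ _ _ _

lemma d_B (g : RR ι) : C.d (C.B g) = - C.B (Dv C.w g) := d_lineMinus UU_open C.hI _ _ _ _

lemma ev0_A (g : RR ι) : C.ev0 (C.A g) = evx C.x g := by
  show ((linePlus (C.x : ι → ℝ) C.w C.hp g : Sm C.I) : C.I → ℝ) ⟨0, C.h0⟩ = _
  rw [linePlus_apply]
  simp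

lemma ev0_B (g : RR ι) : C.ev0 (C.B g) = evx C.x g := by
  show ((lineMinus (C.x : ι → ℝ) C.w C.hm g : Sm C.I) : C.I → ℝ) ⟨0, C.h0⟩ = _
  rw [lineMinus_apply]
  simp

/-- The components of the curve. -/
noncomputable def cc (α : ι) : Sm C.I := C.A (r * f α) + C.B (r * f α)

/-- The curve. -/
noncomputable def cF (h : ℝ) : ι → ℝ := fun α => ext0 ((C.cc r f α : Sm C.I) : C.I → ℝ) h

lemma cF_smooth : ContDiffOn ℝ ∞ (C.cF r f) C.I :=
  contDiffOn_pi.mpr fun α => Sm.smooth (C.cc r f α)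

lemma coord_cF (α : ι) : Sm.coord (C.cF r f) (C.cF_smooth r f) α = C.cc r f α := by
  apply Sm.ext'
  intro h
  show ext0 _ (h : ℝ) = _
  rw [ext0_coe]

lemma cF_zero (α : ι) : C.cF r f 0 α = 2 * evx C.x r * evx C.x (f α) := by
  show ext0 ((C.cc r f α : Sm C.I) : C.I → ℝ) 0 = _
  rw [ext0_of_mem _ C.h0]
  show C.ev0 (C.cc r f α) = _
  simp only [cc, map_add, ev0_A, ev0_B, map_mul]
  ring

variable (hmF : Set.MapsTo (C.cF r f) C.I (UU ι))

/-- the pull back along the curve. -/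
noncomputable def P : RR ι →+* Sm C.I := Sm.pull (C.cF r f) (C.cF_smooth r f) hmF

lemma chain (g : RR ι) :
    C.d (C.P r f hmF g) = ∑ α, C.P r f hmF (Dv (ee α) g) * C.d (C.cc r f α) := by
  have h := Sm.D_pull UU_open C.hI (C.cF r f) (C.cF_smooth r f) hmF (1 : ℝ) g
  simp only [coord_cF] at h
  exact h

lemma d1_cc (α : ι) :
    C.d (C.cc r f α) = C.A (Dv C.w (r * f α)) - C.B (Dv C.w (r * f α)) := by
  simp only [cc, map_add, d_A, d_B]
  abel

lemma d2_cc (α : ι) :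
    C.d (C.d (C.cc r f α)) = C.A (Dv C.w (Dv C.w (r * f α))) + C.B (Dv C.w (Dv C.w (r * f α))) := by
  rw [d1_cc]
  simp only [map_sub, d_A, d_B]
  abel

lemma d3_cc (α : ι) :
    C.d (C.d (C.d (C.cc r f α)))
      = C.A (Dv C.w (Dv C.w (Dv C.w (r * f α)))) - C.B (Dv C.w (Dv C.w (Dv C.w (r * f α)))) := by
  rw [d2_cc]
  simp only [map_add, d_A, d_B]
  abel

lemma d4_cc (α : ι) :
    C.d (C.d (C.d (C.d (C.cc r f α))))
      = C.A (Dv C.w (Dv C.w (Dv C.w (Dv C.w (r * f α)))))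
        + C.B (Dv C.w (Dv C.w (Dv C.w (Dv C.w (r * f α))))) := by
  rw [d3_cc]
  simp only [map_sub, d_A, d_B]
  abel

lemma ev_d1 (α : ι) : C.ev0 (C.d (C.cc r f α)) = 0 := by
  rw [d1_cc, map_sub, ev0_A, ev0_B, sub_self]

lemma ev_d3 (α : ι) : C.ev0 (C.d (C.d (C.d (C.cc r f α)))) = 0 := by
  rw [d3_cc, map_sub, ev0_A, ev0_B, sub_self]

lemma ev_d2 (α : ι) : C.ev0 (C.d (C.d (C.cc r f α)))
    = 2 * evx C.x (Dv C.w (Dv C.w (r * f α))) := by
  rw [d2_cc, map_add, ev0_A, ev0_B]; ring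

lemma ev_d4 (α : ι) : C.ev0 (C.d (C.d (C.d (C.d (C.cc r f α)))))
    = 2 * evx C.x (Dv C.w (Dv C.w (Dv C.w (Dv C.w (r * f α))))) := by
  rw [d4_cc, map_add, ev0_A, ev0_B]; ring

/-- second order expansion -/
lemma exp2 (g : RR ι) : C.ev0 (C.d (C.d (C.P r f hmF g)))
    = ∑ α, C.ev0 (C.P r f hmF (Dv (ee α) g)) * (2 * evx C.x (Dv C.w (Dv C.w (r * f α)))) := by
  rw [even_chain2 C.d C.ev0 (C.P r f hmF) (fun α => Dv (ee α)) (C.cc r f)
    (C.chain r f hmF) (C.ev_d1 r f)]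
  simp only [ev_d2]

/-- fourth order expansion -/
lemma exp4 (g : RR ι) : C.ev0 (C.d (C.d (C.d (C.d (C.P r f hmF g)))))
    = 3 * ∑ α, ∑ β, C.ev0 (C.P r f hmF (Dv (ee β) (Dv (ee α) g)))
          * (2 * evx C.x (Dv C.w (Dv C.w (r * f α)))) * (2 * evx C.x (Dv C.w (Dv C.w (r * f β))))
      + ∑ α, C.ev0 (C.P r f hmF (Dv (ee α) g))
          * (2 * evx C.x (Dv C.w (Dv C.w (Dv C.w (Dv C.w (r * f α)))))) := by
  rw [even_chain4 C.d C.ev0 (C.P r f hmF) (fun α => Dv (ee α)) (C.cc r f)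
    (C.chain r f hmF) (C.ev_d1 r f) (C.ev_d3 r f)]
  simp only [ev_d2, ev_d4]

/-- evaluation of the pull-back at the origin -/
lemma ev0_P (g : RR ι) (lam : ℝ) (hlam : 0 < lam) (y : UU ι)
    (hy : ∀ α, C.cF r f 0 α = lam * (y : ι → ℝ) α) (c : ℝ) (hg : Mt lam hlam g = c • g) :
    C.ev0 (C.P r f hmF g) = c * evx y g := by
  have h1 : C.ev0 (C.P r f hmF g) = (g : UU ι → ℝ) ⟨C.cF r f 0, hmF C.h0⟩ :=
    Sm.pull_apply (C.cF r f) (C.cF_smooth r f) hmF g ⟨0, C.h0⟩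
  have h2 : C.cF r f 0 = lam • (y : ι → ℝ) := by
    ext α
    simp [hy α]
  have h3 : (⟨C.cF r f 0, hmF C.h0⟩ : UU ι) = ⟨lam • (y : ι → ℝ), smul_mem_UU lam hlam y.2⟩ :=
    Subtype.ext h2
  rw [h1, h3, ← Mt_apply lam hlam, hg]
  rfl

end CurveData

end Vale.Agent.P084
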