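import Vale.Agent.P084.Alg1

/-!
Abstract differential data attached to a pair (norm, homogeneous map).
-/

set_option linter.unusedSectionVars false
set_option linter.unusedVariables false

namespace Vale.Agent.P084

open Matrix

variable {ι R : Type*} [Fintype ι] [DecidableEq ι] [CommRing R] [Algebra ℝ R]

/-- The abstract differential data. -/
structure Data (ι R : Type*) [Fintype ι] [DecidableEq ι] [CommRing R] [Algebra ℝ R] where
  D : ι → Derivation ℝ R R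
  D_comm : ∀ i j r, D i (D j r) = D j (D i r)
  ψ : R
  ψi : R
  ψ_mul : ψ * ψi = 1
  f : ι → R
  dY : ι → R
  S : Matrix ι ι R
  Gi : Matrix ι ι R
  x : ι → R
  D_x : ∀ j i, D j (x i) = if i = j then 1 else 0
  chain1 : ∀ i, D i ψ = ∑ α, dY α * D i (f α)
  chain2 : ∀ i α, D i (dY α) = ∑ β, S β α * D i (f β)
  Gi_mul : Gi * (Matrix.of fun i j => D i (D j ψ)) = 1
  Z0 : ∀ i j, ∑ α, dY α * D i (D j (f α)) = 0
  euler_ψ : ∑ i, x i * D i ψ = 2 * ψ
  euler_f : ∀ α, ∑ i, x i * D i (f α) = f α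
  K : ∀ i j k l,
    ψ * (∑ α, dY α * D i (D j (D k (D l (f α))))
        + ∑ γ, ∑ δ, D i (D j (f γ)) * S γ δ * D k (D l (f δ))
        + ∑ γ, ∑ δ, D i (D k (f γ)) * S γ δ * D j (D l (f δ))
        + ∑ γ, ∑ δ, D i (D l (f γ)) * S γ δ * D j (D k (f δ)))
      = - (D i ψ * ∑ α, dY α * D j (D k (D l (f α)))
        + D j ψ * ∑ α, dY α * D i (D k (D l (f α)))
        + D k ψ * ∑ α, dY α * D i (D j (D l (f α)))
        + D l ψ * ∑ α, dY α * D i (D j (D k (f α))))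

namespace Data

variable (d : Data ι R)

/-- Hessian of the X-side potential -/
def G : Matrix ι ι R := Matrix.of fun i j => d.D i (d.D j d.ψ)

/-- Jacobian -/
def P : Matrix ι ι R := Matrix.of fun α i => d.D i (d.f α)

@[simp] lemma G_apply (i j : ι) : d.G i j = d.D i (d.D j d.ψ) := rfl
@[simp] lemma P_apply (i j : ι) : d.P i j = d.D j (d.f i) := rfl

lemma G_symm (i j : ι) : d.G i j = d.G j i := d.D_comm _ _ _

lemma G_transpose : d.Gᵀ = d.G := by
  ext i j; exact d.G_symm j i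

lemma Gi_G : d.Gi * d.G = 1 := d.Gi_mul
lemma G_Gi : d.G * d.Gi = 1 := mul_eq_one_comm.mp d.Gi_G

lemma Gi_transpose : d.Giᵀ = d.Gi := by
  have h1 : d.Giᵀ * d.G = 1 := by
    have := congrArg Matrix.transpose d.G_Gi
    rwa [Matrix.transpose_mul, d.G_transpose, Matrix.transpose_one] at this
  calc d.Giᵀ = d.Giᵀ * (d.G * d.Gi) := by rw [d.G_Gi, Matrix.mul_one]
    _ = d.Gi := by rw [← Matrix.mul_assoc, h1, Matrix.one_mul]

lemma Gi_symm (i j : ι) : d.Gi i j = d.Gi j i := by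
  have := congrFun (congrFun d.Gi_transpose i) j
  simpa using this.symm

lemma dmG_symm (l i j : ι) : dM (d.D l) d.G i j = dM (d.D l) d.G j i := by
  simp only [dM_apply, G_apply]
  rw [d.D_comm i j]

lemma dmG_symm' (l i j : ι) : dM (d.D l) d.G i j = dM (d.D i) d.G l j := by
  simp only [dM_apply, G_apply]
  rw [d.D_comm l i]

lemma dmG_transpose (l : ι) : (dM (d.D l) d.G)ᵀ = dM (d.D l) d.G := by
  ext i j; exact d.dmG_symm l j i

lemma dm_comm (i j : ι) (A : Matrix ι ι R) : dM (d.D i) (dM (d.D j) A) = dM (d.D j) (dM (d.D i) A) := by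
  ext a b; exact d.D_comm _ _ _

/-- `G = Pᵀ S P` -/
lemma G_eq : d.G = d.Pᵀ * d.S * d.P := by
  ext i j
  simp only [G_apply, Matrix.mul_apply, Matrix.transpose_apply, P_apply]
  rw [d.chain1 j, map_sum]
  simp only [Derivation.leibniz, smul_eq_mul]
  rw [Finset.sum_add_distrib]
  have h0 : ∑ x, d.D j (d.f x) * d.D i (d.dY x)
      = ∑ β, (∑ α, d.D i (d.f α) * d.S α β) * d.D j (d.f β) := by
    refine Finset.sum_congr rfl fun β _ => ?_
    rw [d.chain2 i β, Finset.sum_mul, Finset.mul_sum]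
    refine Finset.sum_congr rfl fun α _ => ?_
    ring
  have h1 : ∑ x, d.dY x * d.D i (d.D j (d.f x)) = 0 := d.Z0 i j
  rw [h1, zero_add, h0]

/-- left inverse of `P` -/
def Pi : Matrix ι ι R := d.Gi * d.Pᵀ * d.S

lemma Pi_P : d.Pi * d.P = 1 := by
  have : d.Pi * d.P = d.Gi * d.G := by
    rw [d.G_eq]; simp only [Pi, Matrix.mul_assoc]
  rw [this, d.Gi_G]

lemma P_Pi : d.P * d.Pi = 1 := mul_eq_one_comm.mp d.Pi_P

/-- inverse of `S` -/
def Si : Matrix ι ι R := d.P * d.Gi * d.Pᵀ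

lemma Si_S : d.Si * d.S = 1 := by
  have : d.Si * d.S = d.P * d.Pi := by
    simp only [Si, Pi, Matrix.mul_assoc]
  rw [this, d.P_Pi]

/-- The matrices `A i = P⁻¹ ∂ᵢ P`. -/
def A (i : ι) : Matrix ι ι R := d.Pi * dM (d.D i) d.P

/-- The matrices `Θ i = G⁻¹ ∂ᵢ G`. -/
def Θ (i : ι) : Matrix ι ι R := d.Gi * dM (d.D i) d.G

/-- The matrices `C i = Θ i - A i`. -/
def C (i : ι) : Matrix ι ι R := d.Θ i - d.A i

lemma P_A (i : ι) : d.P * d.A i = dM (d.D i) d.P := by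
  simp only [A, ← Matrix.mul_assoc, d.P_Pi, Matrix.one_mul]

lemma G_Θ (i : ι) : d.G * d.Θ i = dM (d.D i) d.G := by
  simp only [Θ, ← Matrix.mul_assoc, d.G_Gi, Matrix.one_mul]

lemma Θ_eq_add (i : ι) : d.Θ i = d.A i + d.C i := by simp [C]

lemma A_symm (i m j : ι) : d.A i m j = d.A j m i := by
  simp only [A, Matrix.mul_apply, dM_apply, P_apply]
  refine Finset.sum_congr rfl fun α _ => ?_
  rw [d.D_comm i j]

lemma Θ_symm (i m j : ι) : d.Θ i m j = d.Θ j m i := by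
  simp only [Θ, Matrix.mul_apply]
  refine Finset.sum_congr rfl fun α _ => ?_
  congr 1
  simp only [dM_apply, G_apply]
  rw [d.D_comm α j, d.D_comm i j, d.D_comm α i]

lemma C_symm (i m j : ι) : d.C i m j = d.C j m i := by
  simp only [C, Matrix.sub_apply, d.A_symm i m j, d.Θ_symm i m j]

/-- third derivative contraction -/
def X3 (i j k : ι) : R := ∑ α, d.dY α * d.D i (d.D j (d.D k (d.f α)))

/-- fourth derivative contraction -/
def X4 (i j k l : ι) : R := ∑ α, d.dY α * d.D i (d.D j (d.D k (d.D l (d.f α))))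

lemma X3_swap12 (i j k : ι) : d.X3 i j k = d.X3 j i k := by
  simp only [X3]
  refine Finset.sum_congr rfl fun α _ => ?_
  rw [d.D_comm i j]

lemma X3_swap23 (i j k : ι) : d.X3 i j k = d.X3 i k j := by
  simp only [X3]
  refine Finset.sum_congr rfl fun α _ => ?_
  rw [d.D_comm j k]

/-- `B i = G A i` -/
def B (i : ι) : Matrix ι ι R := d.G * d.A i

/-- `G A = Pᵀ S ∂P` -/
lemma B_eq (i : ι) : d.B i = d.Pᵀ * d.S * dM (d.D i) d.P := by
  simp only [B, d.G_eq, Matrix.mul_assoc]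
  rw [d.P_A]

/-- First differentiation of Z0. -/
lemma Z1 (i j k : ι) : d.B i k j = - d.X3 k i j := by
  have h := congrArg (d.D k) (d.Z0 i j)
  rw [map_sum, map_zero] at h
  simp only [Derivation.leibniz, smul_eq_mul] at h
  rw [Finset.sum_add_distrib] at h
  have h2 : ∑ x, d.D i (d.D j (d.f x)) * d.D k (d.dY x) = d.B i k j := by
    rw [d.B_eq]
    simp only [Matrix.mul_apply, Matrix.transpose_apply, P_apply, dM_apply]
    refine Finset.sum_congr rfl fun β _ => ?_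
    rw [d.chain2 k β, Finset.mul_sum, Finset.sum_mul]
    refine Finset.sum_congr rfl fun α _ => ?_
    ring
  rw [h2] at h
  have h3 : ∑ x, d.dY x * d.D k (d.D i (d.D j (d.f x))) = d.X3 k i j := rfl
  rw [h3] at h
  linear_combination h

lemma B_symm12 (i k j : ι) : d.B i k j = d.B i j k := by
  rw [d.Z1 i j k, d.Z1 i k j, d.X3_swap12 k i j, d.X3_swap12 j i k, d.X3_swap23 i k j]

lemma B_symm13 (i k j : ι) : d.B i k j = d.B j k i := by
  rw [d.Z1 i j k, d.Z1 j i k, d.X3_swap23 k i j]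

lemma B_symm01 (i k j : ι) : d.B i k j = d.B k i j := by
  rw [d.Z1 i j k, d.Z1 k j i, d.X3_swap12 k i j]

lemma B_transpose (i : ι) : (d.B i)ᵀ = d.B i := by
  ext a b; exact d.B_symm12 i b a

/-- `Aᵀ G = G A` -/
lemma A_transpose_G (i : ι) : (d.A i)ᵀ * d.G = d.G * d.A i := by
  have := d.B_transpose i
  simp only [B, Matrix.transpose_mul, d.G_transpose] at this
  exact this

lemma Θ_transpose_G (i : ι) : (d.Θ i)ᵀ * d.G = d.G * d.Θ i := by
  have h := d.dmG_transpose i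
  rw [← d.G_Θ, Matrix.transpose_mul, d.G_transpose] at h
  exact h

lemma C_transpose_G (i : ι) : (d.C i)ᵀ * d.G = d.G * d.C i := by
  simp only [C, Matrix.transpose_sub, Matrix.sub_mul, Matrix.mul_sub, d.A_transpose_G,
    d.Θ_transpose_G]

/-- `∂G = 2 G A + Pᵀ (∂S) P` -/
lemma dmG_eq (i : ι) : dM (d.D i) d.G = (2 : R) • d.B i + d.Pᵀ * dM (d.D i) d.S * d.P := by
  have h1 : dM (d.D i) d.G = (dM (d.D i) d.P)ᵀ * d.S * d.P + d.Pᵀ * dM (d.D i) d.S * d.P
      + d.Pᵀ * d.S * dM (d.D i) d.P := by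
    conv_lhs => rw [d.G_eq]
    rw [dM_mul, dM_mul, dM_transpose, Matrix.add_mul]
  rw [h1, ← d.B_eq]
  have h2 : (dM (d.D i) d.P)ᵀ * d.S * d.P = d.B i := by
    rw [← d.P_A, Matrix.transpose_mul]
    have : (d.A i)ᵀ * d.Pᵀ * d.S * d.P = (d.A i)ᵀ * d.G := by
      rw [d.G_eq]; simp only [Matrix.mul_assoc]
    rw [this, d.A_transpose_G]; rfl
  rw [h2, two_smul]
  abel

/-- The gauge transform of the Y-side logarithmic derivative. -/
lemma Θ_sub (i : ι) : d.Θ i - (2 : R) • d.A i = d.Pi * (d.Si * dM (d.D i) d.S) * d.P := by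
  have h1 : d.Θ i = (2 : R) • (d.Gi * d.B i) + d.Gi * (d.Pᵀ * dM (d.D i) d.S * d.P) := by
    simp only [Θ]
    rw [d.dmG_eq, Matrix.mul_add, Matrix.mul_smul]
  have h2 : d.Gi * d.B i = d.A i := by
    simp only [B, ← Matrix.mul_assoc, d.Gi_G, Matrix.one_mul]
  have h3 : d.Pi * d.Si = d.Gi * d.Pᵀ := by
    have : d.Pi * d.Si = d.Gi * (d.Pᵀ * d.S * d.P) * d.Gi * d.Pᵀ := by
      simp only [Pi, Si, Matrix.mul_assoc]
    rw [this, ← d.G_eq, d.Gi_G, Matrix.one_mul]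
  rw [h1, h2]
  have h4 : d.Pi * (d.Si * dM (d.D i) d.S) * d.P = (d.Pi * d.Si) * dM (d.D i) d.S * d.P := by
    simp only [Matrix.mul_assoc]
  rw [h4, h3]
  simp only [Matrix.mul_assoc]
  abel

/-- Maurer-Cartan for `A`. -/
lemma MC_A (i j : ι) :
    dM (d.D i) (d.A j) - dM (d.D j) (d.A i) = - (d.A i * d.A j - d.A j * d.A i) :=
  maurerCartan (d.D i) (d.D j) (d.D_comm i j) d.Pi_P

/-- Maurer-Cartan for `Θ`. -/
lemma MC_Θ (i j : ι) :
    dM (d.D i) (d.Θ j) - dM (d.D j) (d.Θ i) = - (d.Θ i * d.Θ j - d.Θ j * d.Θ i) :=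
  maurerCartan (d.D i) (d.D j) (d.D_comm i j) d.Gi_G

/-- The curvature (Gauss) equation. -/
lemma GE (i j : ι) :
    (d.C i * d.A j - d.A j * d.C i) + (d.A i * d.C j - d.C j * d.A i) = 0 := by
  -- ω̃ i = Θ i - 2 A i = Pi ω i P
  set ω : ι → Matrix ι ι R := fun i => d.Si * dM (d.D i) d.S with hω
  have hMCω : dM (d.D i) (ω j) - dM (d.D j) (ω i) = - (ω i * ω j - ω j * ω i) :=
    maurerCartan (d.D i) (d.D j) (d.D_comm i j) d.Si_S
  have hPi : ∀ k, dM (d.D k) d.Pi = - (d.A k * d.Pi) := by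
    intro k
    rw [dM_inv (d.D k) d.Pi_P]
    simp only [A, Matrix.mul_assoc]
  have hP : ∀ k, dM (d.D k) d.P = d.P * d.A k := fun k => (d.P_A k).symm
  have hgauge : ∀ a b, dM (d.D a) (d.Pi * ω b * d.P)
      = - (d.A a * (d.Pi * ω b * d.P)) + d.Pi * dM (d.D a) (ω b) * d.P + (d.Pi * ω b * d.P) * d.A a := by
    intro a b
    rw [dM_mul, dM_mul, hPi, hP, Matrix.add_mul]
    simp only [Matrix.mul_assoc, Matrix.neg_mul]
  have hprod : (d.Pi * ω i * d.P) * (d.Pi * ω j * d.P) = d.Pi * (ω i * ω j) * d.P := by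
    calc (d.Pi * ω i * d.P) * (d.Pi * ω j * d.P)
        = d.Pi * ω i * (d.P * d.Pi) * ω j * d.P := by simp only [Matrix.mul_assoc]
      _ = d.Pi * (ω i * ω j) * d.P := by rw [d.P_Pi]; simp only [Matrix.mul_one, Matrix.mul_assoc]
  have hprod' : (d.Pi * ω j * d.P) * (d.Pi * ω i * d.P) = d.Pi * (ω j * ω i) * d.P := by
    calc (d.Pi * ω j * d.P) * (d.Pi * ω i * d.P)
        = d.Pi * ω j * (d.P * d.Pi) * ω i * d.P := by simp only [Matrix.mul_assoc]
      _ = d.Pi * (ω j * ω i) * d.P := by rw [d.P_Pi]; simp only [Matrix.mul_one, Matrix.mul_assoc]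
  have hω' : ∀ k, d.Pi * ω k * d.P = d.Θ k - (2 : R) • d.A k := fun k => (d.Θ_sub k).symm
  -- main computation
  have main : dM (d.D i) (d.Pi * ω j * d.P) - dM (d.D j) (d.Pi * ω i * d.P)
      = - (d.A i * (d.Pi * ω j * d.P)) + (d.Pi * ω j * d.P) * d.A i
        + (d.A j * (d.Pi * ω i * d.P)) - (d.Pi * ω i * d.P) * d.A j
        - ((d.Pi * ω i * d.P) * (d.Pi * ω j * d.P) - (d.Pi * ω j * d.P) * (d.Pi * ω i * d.P)) := by
    rw [hgauge, hgauge, hprod, hprod']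
    have : d.Pi * dM (d.D i) (ω j) * d.P - d.Pi * dM (d.D j) (ω i) * d.P
        = - (d.Pi * (ω i * ω j) * d.P - d.Pi * (ω j * ω i) * d.P) := by
      rw [← Matrix.sub_mul, ← Matrix.mul_sub, hMCω, Matrix.mul_neg, Matrix.neg_mul,
        Matrix.mul_sub, Matrix.sub_mul]
    rw [eq_comm]
    have e : - (d.A i * (d.Pi * ω j * d.P)) + d.Pi * dM (d.D i) (ω j) * d.P + (d.Pi * ω j * d.P) * d.A i
          - (- (d.A j * (d.Pi * ω i * d.P)) + d.Pi * dM (d.D j) (ω i) * d.P + (d.Pi * ω i * d.P) * d.A j)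
        = - (d.A i * (d.Pi * ω j * d.P)) + (d.Pi * ω j * d.P) * d.A i
          + (d.A j * (d.Pi * ω i * d.P)) - (d.Pi * ω i * d.P) * d.A j
          + (d.Pi * dM (d.D i) (ω j) * d.P - d.Pi * dM (d.D j) (ω i) * d.P) := by abel
    rw [e, this]
    abel
  simp only [hω'] at main
  have hL : dM (d.D i) (d.Θ j - (2 : R) • d.A j) - dM (d.D j) (d.Θ i - (2 : R) • d.A i)
      = - (d.Θ i * d.Θ j - d.Θ j * d.Θ i) + (2 : R) • (d.A i * d.A j - d.A j * d.A i) := by
    rw [dM_sub, dM_sub, dM_nsmul_two, dM_nsmul_two]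
    have h1 := d.MC_Θ i j
    have h2 := d.MC_A i j
    have : dM (d.D i) (d.Θ j) - (2 : R) • dM (d.D i) (d.A j) - (dM (d.D j) (d.Θ i) - (2 : R) • dM (d.D j) (d.A i))
        = (dM (d.D i) (d.Θ j) - dM (d.D j) (d.Θ i)) - (2 : R) • (dM (d.D i) (d.A j) - dM (d.D j) (d.A i)) := by
      rw [smul_sub]; abel
    rw [this, h1, h2, smul_neg]
    abel
  rw [hL] at main
  simp only [C]
  have two : ((2 : R) • (1 : Matrix ι ι R)) = 2 := by
    ext a b
    simp [Matrix.smul_apply, Matrix.one_apply, Matrix.ofNat_apply]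
  have smul2 : ∀ M : Matrix ι ι R, (2 : R) • M = M + M := fun M => two_smul R M
  simp only [smul2] at main
  have main' : (d.Θ i - d.A i) * d.A j - d.A j * (d.Θ i - d.A i)
      + (d.A i * (d.Θ j - d.A j) - (d.Θ j - d.A j) * d.A i) = 0 := by
    have := sub_eq_zero.mpr main
    have e : (d.Θ i - d.A i) * d.A j - d.A j * (d.Θ i - d.A i)
      + (d.A i * (d.Θ j - d.A j) - (d.Θ j - d.A j) * d.A i)
      = -((-(d.Θ i * d.Θ j - d.Θ j * d.Θ i) + (d.A i * d.A j - d.A j * d.A i + (d.A i * d.A j - d.A j * d.A i))) -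
        (-(d.A i * (d.Θ j - (d.A j + d.A j))) + (d.Θ j - (d.A j + d.A j)) * d.A i + d.A j * (d.Θ i - (d.A i + d.A i)) -
            (d.Θ i - (d.A i + d.A i)) * d.A j -
          ((d.Θ i - (d.A i + d.A i)) * (d.Θ j - (d.A j + d.A j)) - (d.Θ j - (d.A j + d.A j)) * (d.Θ i - (d.A i + d.A i))))) := by
      noncomm_ring
    rw [e, this, neg_zero]
  exact main'

end Data

end Vale.Agent.P084
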