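import Vale.Agent.P084.Ring

/-!
Abstract chain rule for even curves, and lines in the algebra of smooth functions.
-/

set_option linter.unusedSectionVars false
set_option linter.unusedVariables false

open scoped ContDiff

namespace Vale.Agent.P084

section abstract

variable {ι R R₁ : Type*} [Fintype ι] [CommRing R] [Algebra ℝ R] [CommRing R₁] [Algebra ℝ R₁]

lemma d3_mul (d : Derivation ℝ R₁ R₁) (u v : R₁) :
    d (d (d (u * v))) = d (d (d u)) * v + 3 * (d (d u) * d v) + 3 * (d u * d (d v))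
      + u * d (d (d v)) := by
  simp only [Derivation.leibniz, smul_eq_mul, map_add]
  ring

/-- chain rule along an even curve, second order -/
lemma even_chain2 (d : Derivation ℝ R₁ R₁) (ev₀ : R₁ →+* ℝ) (P : R →+* R₁)
    (Dα : ι → Derivation ℝ R R) (c : ι → R₁)
    (hchain : ∀ g, d (P g) = ∑ α, P (Dα α g) * d (c α))
    (h1 : ∀ α, ev₀ (d (c α)) = 0) (g : R) :
    ev₀ (d (d (P g))) = ∑ α, ev₀ (P (Dα α g)) * ev₀ (d (d (c α))) := by
  rw [hchain g, map_sum, map_sum]
  refine Finset.sum_congr rfl fun α _ => ?_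
  rw [Derivation.leibniz]
  simp only [smul_eq_mul, map_add, map_mul, h1]
  ring

/-- chain rule along an even curve, fourth order -/
lemma even_chain4 (d : Derivation ℝ R₁ R₁) (ev₀ : R₁ →+* ℝ) (P : R →+* R₁)
    (Dα : ι → Derivation ℝ R R) (c : ι → R₁)
    (hchain : ∀ g, d (P g) = ∑ α, P (Dα α g) * d (c α))
    (h1 : ∀ α, ev₀ (d (c α)) = 0) (h3 : ∀ α, ev₀ (d (d (d (c α)))) = 0) (g : R) :
    ev₀ (d (d (d (d (P g)))))
      = 3 * ∑ α, ∑ β, ev₀ (P (Dα β (Dα α g))) * ev₀ (d (d (c α))) * ev₀ (d (d (c β)))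
        + ∑ α, ev₀ (P (Dα α g)) * ev₀ (d (d (d (d (c α))))) := by
  rw [hchain g, map_sum, map_sum, map_sum, map_sum, Finset.mul_sum, ← Finset.sum_add_distrib]
  refine Finset.sum_congr rfl fun α _ => ?_
  rw [d3_mul]
  simp only [map_add, map_mul, h1, h3, map_ofNat]
  rw [even_chain2 d ev₀ P Dα c hchain h1, Finset.sum_mul]
  simp only [mul_zero, zero_add, add_zero, Finset.mul_sum]
  congr 1
  refine Finset.sum_congr rfl fun β _ => ?_
  ring

end abstract

section lines

variable {E : Type*} [NormedAddCommGroup E] [NormedSpace ℝ E] {U : Set E} {I : Set ℝ}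

lemma contDiff_line (x w : E) : ContDiff ℝ ∞ (fun h : ℝ => x + h • w) :=
  contDiff_const.add (contDiff_id.smul contDiff_const)

lemma contDiff_line' (x w : E) : ContDiff ℝ ∞ (fun h : ℝ => x - h • w) :=
  contDiff_const.sub (contDiff_id.smul contDiff_const)

/-- Pull-back along the line `h ↦ x + h w`. -/
noncomputable def linePlus (x w : E) (hm : Set.MapsTo (fun h : ℝ => x + h • w) I U) :
    Sm U →+* Sm I :=
  Sm.pull (fun h : ℝ => x + h • w) (contDiff_line x w).contDiffOn hm

/-- Pull-back along the line `h ↦ x - h w`. -/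
noncomputable def lineMinus (x w : E) (hm : Set.MapsTo (fun h : ℝ => x - h • w) I U) :
    Sm U →+* Sm I :=
  Sm.pull (fun h : ℝ => x - h • w) (contDiff_line' x w).contDiffOn hm

lemma linePlus_apply (x w : E) (hm : Set.MapsTo (fun h : ℝ => x + h • w) I U) (g : Sm U) (h : I) :
    ((linePlus x w hm g : Sm I) : I → ℝ) h = (g : U → ℝ) ⟨x + (h : ℝ) • w, hm h.2⟩ :=
  Sm.pull_apply _ _ _ _ _

lemma lineMinus_apply (x w : E) (hm : Set.MapsTo (fun h : ℝ => x - h • w) I U) (g : Sm U) (h : I) :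
    ((lineMinus x w hm g : Sm I) : I → ℝ) h = (g : U → ℝ) ⟨x - (h : ℝ) • w, hm h.2⟩ :=
  Sm.pull_apply _ _ _ _ _

variable (hU : IsOpen U) (hI : IsOpen I)
include hU hI

/-- derivative along the line -/
lemma d_linePlus (x w : E) (hm : Set.MapsTo (fun h : ℝ => x + h • w) I U) (g : Sm U) :
    Sm.D hI (1 : ℝ) (linePlus x w hm g) = linePlus x w hm (Sm.D hU w g) := by
  apply Sm.ext'
  intro h
  rw [linePlus, Sm.D_pull_apply hU hI, Sm.pull_apply]
  have : fderiv ℝ (fun h : ℝ => x + h • w) h (1 : ℝ) = w := by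
    have h1 : HasFDerivAt (fun h : ℝ => x + h • w)
        ((ContinuousLinearMap.id ℝ ℝ).smulRight w) (h : ℝ) := by
      have := ((hasFDerivAt_id (𝕜 := ℝ) (h : ℝ)).smul_const w).const_add x
      simpa using this
    rw [h1.fderiv]
    simp
  rw [this, Sm.D_apply]

/-- derivative along the line -/
lemma d_lineMinus (x w : E) (hm : Set.MapsTo (fun h : ℝ => x - h • w) I U) (g : Sm U) :
    Sm.D hI (1 : ℝ) (lineMinus x w hm g) = - lineMinus x w hm (Sm.D hU w g) := by
  apply Sm.ext'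
  intro h
  rw [lineMinus, Sm.D_pull_apply hU hI]
  have : fderiv ℝ (fun h : ℝ => x - h • w) h (1 : ℝ) = - w := by
    have h1 : HasFDerivAt (fun h : ℝ => x - h • w)
        (- (ContinuousLinearMap.id ℝ ℝ).smulRight w) (h : ℝ) := by
      have := ((hasFDerivAt_id (𝕜 := ℝ) (h : ℝ)).smul_const w).const_sub x
      simpa using this
    rw [h1.fderiv]
    simp
  rw [this, map_neg]
  show _ = - ((Sm.pull _ _ _ (Sm.D hU w g) : Sm I) : I → ℝ) h
  rw [Sm.pull_apply, Sm.D_apply]

end lines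

end Vale.Agent.P084
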