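import Vale.Agent.P084.Curve

/-!
The second and fourth order relations for tangent directions.
-/

set_option linter.unusedSectionVars false
set_option linter.unusedVariables false

open scoped ContDiff

namespace Vale.Agent.P084

variable {ι : Type*} [Fintype ι] [DecidableEq ι]

/-- The analytic system in coordinates. -/
structure Sys (ι : Type*) [Fintype ι] [DecidableEq ι] where
  NX : (ι → ℝ) → ℝ
  NY : (ι → ℝ) → ℝ
  F : (ι → ℝ) → (ι → ℝ)
  NX_smooth : ContDiffOn ℝ ∞ NX (UU ι)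
  NY_smooth : ContDiffOn ℝ ∞ NY (UU ι)
  NX_pos : ∀ x, x ≠ 0 → 0 < NX x
  NY_pos : ∀ x, x ≠ 0 → 0 < NY x
  NX_hom : ∀ t : ℝ, 0 < t → ∀ x, NX (t • x) = t * NX x
  NY_hom : ∀ t : ℝ, 0 < t → ∀ x, NY (t • x) = t * NY x
  F_smooth : ContDiffOn ℝ ∞ F (UU ι)
  F_ne : ∀ x, x ≠ 0 → F x ≠ 0
  F_norm : ∀ x, x ≠ 0 → NY (F x) = NX x
  F_hom : ∀ t : ℝ, 0 < t → ∀ x, x ≠ 0 → F (t • x) = t • F x
  F_id : ∀ p q, p ≠ 0 → q ≠ 0 → NX p = 1 → NX q = 1 → p + q ≠ 0 → NY (F p + F q) = NX (p + q)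

/-- half the square of a function. -/
noncomputable def psiOf (N : (ι → ℝ) → ℝ) (hN : ContDiffOn ℝ ∞ N (UU ι)) : RR ι :=
  Sm.mk (fun x => (N x) ^ 2 / 2) ((hN.pow 2).div_const 2)

/-- inverse of a function. -/
noncomputable def invOf (N : (ι → ℝ) → ℝ) (hN : ContDiffOn ℝ ∞ N (UU ι))
    (hpos : ∀ x, x ≠ 0 → 0 < N x) : RR ι :=
  Sm.mk (fun x => 1 / N x) (by
    refine contDiffOn_const.div hN ?_
    intro x hx
    exact (hpos x hx).ne')

lemma psiOf_hom (N : (ι → ℝ) → ℝ) (hN : ContDiffOn ℝ ∞ N (UU ι))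
    (hhom : ∀ t : ℝ, 0 < t → ∀ x, N (t • x) = t * N x) (t : ℝ) (ht : 0 < t) :
    Mt t ht (psiOf N hN) = (t ^ 2 : ℝ) • psiOf N hN := by
  apply Sm.ext'
  intro y
  rw [Mt_apply]
  show (N (t • (y : ι → ℝ))) ^ 2 / 2 = t ^ 2 * ((N y) ^ 2 / 2)
  rw [hhom t ht]
  ring

lemma grad_hom (g : RR ι) (hg : ∀ t : ℝ, ∀ ht : 0 < t, Mt t ht g = (t ^ 2 : ℝ) • g) (v : ι → ℝ)
    (t : ℝ) (ht : 0 < t) : Mt t ht (Dv v g) = (t ^ 1 : ℝ) • Dv v g := by
  rw [Mt_Dv_of_hom t ht _ g (hg t ht) v]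
  congr 1
  field_simp

lemma hess_hom (g : RR ι) (hg : ∀ t : ℝ, ∀ ht : 0 < t, Mt t ht g = (t ^ 2 : ℝ) • g) (u v : ι → ℝ)
    (t : ℝ) (ht : 0 < t) : Mt t ht (Dv u (Dv v g)) = (1 : ℝ) • Dv u (Dv v g) := by
  rw [Mt_Dv_of_hom t ht _ _ (grad_hom g hg v t ht) u]
  congr 1
  field_simp

/-- Euler relation for gradient -/
lemma euler1 (g : RR ι) (hg : ∀ t : ℝ, ∀ ht : 0 < t, Mt t ht g = (t ^ 2 : ℝ) • g) (x : UU ι) :
    ∑ α, (x : ι → ℝ) α * evx x (Dv (ee α) g) = 2 * evx x g := by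
  have := euler_coord g x 2 hg
  simpa using this

/-- Euler relation for Hessian -/
lemma euler2 (g : RR ι) (hg : ∀ t : ℝ, ∀ ht : 0 < t, Mt t ht g = (t ^ 2 : ℝ) • g) (x : UU ι)
    (v : ι → ℝ) :
    ∑ α, (x : ι → ℝ) α * evx x (Dv (ee α) (Dv v g)) = evx x (Dv v g) := by
  have := euler_coord (Dv v g) x 1 (fun t ht => grad_hom g hg v t ht)
  simpa using this

/-- A pure real computation: second and fourth order comparison. -/
lemma compare2 (g y a2 gX xx : ι → ℝ) (lam r0 r2 ψ0 : ℝ)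
    (hlam : lam ≠ 0) (hr0 : r0 ≠ 0)
    (h1 : ∑ α, g α * y α = 2 * ψ0) (h2 : ∑ α, gX α * xx α = 2 * ψ0)
    (h : ∑ α, (lam * g α) * (2 * (r2 * y α + r0 * a2 α))
       = ∑ α, (lam * gX α) * (2 * (r2 * xx α))) :
    ∑ α, g α * a2 α = 0 := by
  have e1 : ∑ α, (lam * g α) * (2 * (r2 * y α + r0 * a2 α))
      = 2 * lam * r2 * ∑ α, g α * y α + 2 * lam * r0 * ∑ α, g α * a2 α := by
    simp only [Finset.mul_sum, ← Finset.sum_add_distrib]
    refine Finset.sum_congr rfl fun α _ => ?_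
    ring
  have e2 : ∑ α, (lam * gX α) * (2 * (r2 * xx α)) = 2 * lam * r2 * ∑ α, gX α * xx α := by
    simp only [Finset.mul_sum]
    refine Finset.sum_congr rfl fun α _ => ?_
    ring
  rw [e1, e2, h1, h2] at h
  have h3 : 2 * lam * r0 * ∑ α, g α * a2 α = 0 := by linarith
  have h4 : 2 * lam * r0 ≠ 0 := by positivity
  exact (mul_eq_zero.mp h3).resolve_left h4

lemma quad_exp (H : ι → ι → ℝ) (hsym : ∀ a b, H a b = H b a) (g u v : ι → ℝ) (p q : ℝ)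
    (heul : ∀ β, ∑ α, u α * H α β = g β) :
    ∑ α, ∑ β, H β α * (2 * (p * u α + q * v α)) * (2 * (p * u β + q * v β))
      = 4 * (p ^ 2 * ∑ β, g β * u β + 2 * p * q * ∑ β, g β * v β
          + q ^ 2 * ∑ α, ∑ β, H β α * v α * v β) := by
  have e1 : ∀ α β, H β α * (2 * (p * u α + q * v α)) * (2 * (p * u β + q * v β))
      = 4 * (p ^ 2 * (u α * H α β * u β) + p * q * (u α * H α β * v β)
          + p * q * (u β * H β α * v α) + q ^ 2 * (H β α * v α * v β)) := by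
    intro α β
    rw [hsym α β]
    ring
  simp only [e1, ← Finset.mul_sum, Finset.sum_add_distrib]
  have e2 : ∑ α, ∑ β, u α * H α β * u β = ∑ β, g β * u β := by
    rw [Finset.sum_comm]
    refine Finset.sum_congr rfl fun β _ => ?_
    rw [← heul β, Finset.sum_mul]
  have e3 : ∑ α, ∑ β, u α * H α β * v β = ∑ β, g β * v β := by
    rw [Finset.sum_comm]
    refine Finset.sum_congr rfl fun β _ => ?_
    rw [← heul β, Finset.sum_mul]
  have e4 : ∑ α, ∑ β, u β * H β α * v α = ∑ β, g β * v β := by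
    refine Finset.sum_congr rfl fun β _ => ?_
    rw [← heul β, Finset.sum_mul]
  rw [e2, e3, e4]
  ring

lemma compare4 (H HX : ι → ι → ℝ) (g y a1 a2 a4 gX xx w : ι → ℝ) (lam r0 r2 r3 r4 ψ0 : ℝ)
    (hlam : lam = 2 * r0) (hr0 : r0 ≠ 0)
    (hsym : ∀ a b, H a b = H b a) (hsymX : ∀ a b, HX a b = HX b a)
    (h1 : ∑ α, g α * y α = 2 * ψ0) (h2 : ∑ α, gX α * xx α = 2 * ψ0)
    (he : ∀ β, ∑ α, y α * H α β = g β) (heX : ∀ β, ∑ α, xx α * HX α β = gX β)
    (hz : ∑ α, g α * a2 α = 0)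
    (ht1 : ∑ α, g α * a1 α = 0) (ht2 : ∑ α, gX α * w α = 0)
    (h : 3 * ∑ α, ∑ β, H β α * (2 * (r2 * y α + r0 * a2 α)) * (2 * (r2 * y β + r0 * a2 β))
          + ∑ α, (lam * g α) * (2 * (r4 * y α + 4 * (r3 * a1 α) + 6 * (r2 * a2 α) + r0 * a4 α))
        = 3 * ∑ α, ∑ β, HX β α * (2 * (r2 * xx α + r0 * 0)) * (2 * (r2 * xx β + r0 * 0))
          + ∑ α, (lam * gX α) * (2 * (r4 * xx α + 4 * (r3 * w α)))) :
    ∑ α, g α * a4 α + 3 * ∑ α, ∑ β, H β α * a2 α * a2 β = 0 := by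
  rw [quad_exp H hsym g y a2 r2 r0 he] at h
  rw [quad_exp HX hsymX gX xx (fun _ => 0) r2 r0 heX] at h
  have e1 : ∑ α, (lam * g α) * (2 * (r4 * y α + 4 * (r3 * a1 α) + 6 * (r2 * a2 α) + r0 * a4 α))
      = 2 * lam * (r4 * ∑ α, g α * y α + 4 * r3 * ∑ α, g α * a1 α + 6 * r2 * ∑ α, g α * a2 α
          + r0 * ∑ α, g α * a4 α) := by
    simp only [Finset.mul_sum, ← Finset.sum_add_distrib]
    refine Finset.sum_congr rfl fun α _ => ?_
    ring
  have e2 : ∑ α, (lam * gX α) * (2 * (r4 * xx α + 4 * (r3 * w α)))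
      = 2 * lam * (r4 * ∑ α, gX α * xx α + 4 * r3 * ∑ α, gX α * w α) := by
    simp only [Finset.mul_sum, ← Finset.sum_add_distrib]
    refine Finset.sum_congr rfl fun α _ => ?_
    ring
  rw [e1, e2, h1, h2, hz, ht1, ht2] at h
  simp only [mul_zero, Finset.sum_const_zero, zero_mul, add_zero] at h
  rw [hlam] at h
  have h3 : 4 * r0 ^ 2 * (∑ α, g α * a4 α + 3 * ∑ α, ∑ β, H β α * a2 α * a2 β) = 0 := by
    linear_combination h
  have h4 : 4 * r0 ^ 2 ≠ 0 := by positivity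
  exact (mul_eq_zero.mp h3).resolve_left h4

/-- coordinate functions -/
noncomputable def fXc (α : ι) : RR ι :=
  Sm.mk (fun x => x α) (contDiffOn_pi.mp contDiffOn_id α)

lemma Dv_fXc (v : ι → ℝ) (α : ι) : Dv v (fXc α) = algebraMap ℝ (RR ι) (v α) := by
  apply Sm.ext'
  intro x
  rw [fXc, Dv_mk]
  have h : HasFDerivAt (fun y : ι → ℝ => y α) (ContinuousLinearMap.proj α) (x : ι → ℝ) :=
    (ContinuousLinearMap.proj (R := ℝ) (φ := fun _ : ι => ℝ) α).hasFDerivAt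
  rw [h.fderiv]
  rfl

lemma Dv_Dv_fXc (u v : ι → ℝ) (α : ι) : Dv u (Dv v (fXc α)) = 0 := by
  rw [Dv_fXc]
  exact Derivation.map_algebraMap _ _

lemma evx_fXc (x : UU ι) (α : ι) : evx x (fXc α) = (x : ι → ℝ) α := rfl

/-- directional derivative in coordinates. -/
lemma Dv_coord (w : ι → ℝ) (g : RR ι) : Dv w g = ∑ α, w α • Dv (ee α) g := by
  have hdec : w = ∑ α, w α • ee α := by
    ext β
    simp [Finset.sum_apply, Pi.single_apply]
  conv_lhs => rw [hdec]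
  exact Dv_sum _ _ _ _

namespace Sys

variable (s : Sys ι)

/-- X potential -/
noncomputable def psiX : RR ι := psiOf s.NX s.NX_smooth
/-- Y potential -/
noncomputable def psiY : RR ι := psiOf s.NY s.NY_smooth
/-- inverse of the X norm -/
noncomputable def r : RR ι := invOf s.NX s.NX_smooth s.NX_pos
/-- components of the map -/
noncomputable def fY (α : ι) : RR ι := Sm.coord s.F s.F_smooth α
lemma F_maps : Set.MapsTo s.F (UU ι) (UU ι) := fun x hx => s.F_ne x hx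

/-- pull-back along the map -/
noncomputable def pF : RR ι →+* RR ι := Sm.pull s.F s.F_smooth s.F_maps

/-- Y gradient pulled back -/
noncomputable def dY (α : ι) : RR ι := s.pF (Dv (ee α) s.psiY)

/-- Y Hessian pulled back -/
noncomputable def SS (β α : ι) : RR ι := s.pF (Dv (ee β) (Dv (ee α) s.psiY))

lemma pF_psiY : s.pF s.psiY = s.psiX := by
  apply Sm.ext'
  intro x
  show ext0 ((s.psiY : RR ι) : UU ι → ℝ) (s.F x) = (s.NX x) ^ 2 / 2
  rw [ext0_of_mem _ (s.F_maps x.2)]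
  show (s.NY (s.F x)) ^ 2 / 2 = _
  rw [s.F_norm x x.2]

lemma chainF (v : ι → ℝ) (g : RR ι) :
    Dv v (s.pF g) = ∑ α, s.pF (Dv (ee α) g) * Dv v (s.fY α) :=
  Sm.D_pull UU_open UU_open s.F s.F_smooth s.F_maps v g

lemma chain1 (v : ι → ℝ) : Dv v s.psiX = ∑ α, s.dY α * Dv v (s.fY α) := by
  rw [← s.pF_psiY, s.chainF]
  rfl

lemma chain2 (v : ι → ℝ) (α : ι) : Dv v (s.dY α) = ∑ β, s.SS β α * Dv v (s.fY β) :=
  s.chainF v _

lemma psiX_hom (t : ℝ) (ht : 0 < t) : Mt t ht s.psiX = (t ^ 2 : ℝ) • s.psiX :=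
  psiOf_hom _ _ s.NX_hom t ht

lemma psiY_hom (t : ℝ) (ht : 0 < t) : Mt t ht s.psiY = (t ^ 2 : ℝ) • s.psiY :=
  psiOf_hom _ _ s.NY_hom t ht

lemma evx_psiX (x : UU ι) : evx x s.psiX = (s.NX x) ^ 2 / 2 := rfl

lemma evx_r (x : UU ι) : evx x s.r = 1 / s.NX x := rfl

lemma r_pos (x : UU ι) : 0 < evx x s.r := by
  rw [evx_r]
  exact one_div_pos.mpr (s.NX_pos x x.2)

lemma r_relation : s.r * s.r * (2 * s.psiX) = 1 := by
  apply Sm.ext'
  intro x
  have h := (s.NX_pos x x.2).ne'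
  show (1 / s.NX x) * (1 / s.NX x) * (2 * ((s.NX x) ^ 2 / 2)) = 1
  field_simp

/-- The first derivative of `r` vanishes on tangent vectors -/
lemma r1_zero (x : UU ι) (w : ι → ℝ) (hw : evx x (Dv w s.psiX) = 0) : evx x (Dv w s.r) = 0 := by
  have h := congrArg (fun g => evx x (Dv w g)) s.r_relation
  simp only [Derivation.leibniz, smul_eq_mul, map_add, map_mul, hw, Derivation.map_one_eq_zero,
    map_zero] at h
  have h2 : Dv w (2 : RR ι) = 0 := by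
    have := (Dv w).map_natCast 2
    rwa [Nat.cast_ofNat] at this
  rw [h2] at h
  simp only [map_zero, mul_zero, add_zero] at h
  have hr := (s.r_pos x).ne'
  have hψ : evx x s.psiX ≠ 0 := by
    rw [evx_psiX]
    have := (s.NX_pos x x.2).ne'
    positivity
  have h3 : evx x s.r * evx x s.psiX * (4 * evx x (Dv w s.r)) = 0 := by
    have e : evx x (2 : RR ι) = 2 := map_ofNat _ 2
    rw [e] at h
    linear_combination h
  have h4 : evx x s.r * evx x s.psiX ≠ 0 := mul_ne_zero hr hψ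
  have h5 := (mul_eq_zero.mp h3).resolve_left h4
  linarith

lemma evx_fY (x : UU ι) (α : ι) : evx x (s.fY α) = s.F x α := rfl

end Sys

end Vale.Agent.P084
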