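import Vale.Agent.P084.Polar

/-!
The strong maximum principle on the punctured space, by Hopf's barrier.
-/

set_option linter.unusedSectionVars false
set_option linter.unusedVariables false

open scoped ContDiff Topology
open Filter

namespace Vale.Agent.P084

variable {ι : Type*} [Fintype ι] [DecidableEq ι]

/-- value on the ambient space -/
noncomputable abbrev val (g : RR ι) : (ι → ℝ) → ℝ := ext0 (g : UU ι → ℝ)

lemma val_mem (g : RR ι) {z : ι → ℝ} (hz : z ∈ UU ι) : val g z = evx ⟨z, hz⟩ g := ext0_of_mem _ hz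

lemma val_cont (g : RR ι) : ContinuousOn (val g) (UU ι) := (Sm.smooth g).continuousOn

lemma line_mem {z c : ι → ℝ} (hz : z ∈ UU ι) :
    ∀ᶠ t : ℝ in 𝓝 0, z + t • c ∈ UU ι := by
  have h : Continuous fun t : ℝ => z + t • c := continuous_const.add (continuous_id.smul continuous_const)
  have h2 : (fun t : ℝ => z + t • c) 0 ∈ UU ι := by simpa using hz
  exact h.continuousAt.eventually_mem (UU_open.mem_nhds h2)

lemma line_hasDeriv (ψ : RR ι) (z c : ι → ℝ) (t : ℝ) (ht : z + t • c ∈ UU ι) :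
    HasDerivAt (fun t : ℝ => val ψ (z + t • c)) (val (Dv c ψ) (z + t • c)) t := by
  have h1 : HasDerivAt (fun t : ℝ => z + t • c) c t := by
    simpa using ((hasDerivAt_id t).smul_const c).const_add z
  have h2 : HasFDerivAt (val ψ) (fderiv ℝ (val ψ) (z + t • c)) (z + t • c) :=
    (Sm.diffAt UU_open ψ ⟨z + t • c, ht⟩).hasFDerivAt
  have h3 := h2.comp_hasDerivAt t h1
  rw [val_mem _ ht]
  exact h3

lemma local_max_D1 (φ : RR ι) (z : UU ι) (hz : IsLocalMax (val φ) z) (c : ι → ℝ) :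
    evx z (Dv c φ) = 0 := by
  have h := hz.fderiv_eq_zero
  show fderiv ℝ (val φ) z c = 0
  rw [h]
  rfl

lemma local_max_D2 (φ : RR ι) (z : UU ι) (hz : IsLocalMax (val φ) z) (c : ι → ℝ) :
    evx z (Dv c (Dv c φ)) ≤ 0 := by
  by_contra hpos
  rw [not_le] at hpos
  set g : ℝ → ℝ := fun t => val φ ((z : ι → ℝ) + t • c) with hg
  set g1 : ℝ → ℝ := fun t => val (Dv c φ) ((z : ι → ℝ) + t • c) with hg1
  have h0 : (z : ι → ℝ) + (0 : ℝ) • c ∈ UU ι := by simp
  have hz0 : (⟨(z : ι → ℝ) + (0 : ℝ) • c, h0⟩ : UU ι) = z := Subtype.ext (by simp)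
  have hd : ∀ᶠ t : ℝ in 𝓝 0, HasDerivAt g (g1 t) t := by
    filter_upwards [line_mem (c := c) z.2] with t ht
    exact line_hasDeriv φ z c t ht
  have hdg : deriv g =ᶠ[𝓝 0] g1 := by
    filter_upwards [hd] with t ht
    exact ht.deriv
  have hd1 : HasDerivAt g1 (val (Dv c (Dv c φ)) ((z : ι → ℝ) + (0 : ℝ) • c)) 0 :=
    line_hasDeriv (Dv c φ) z c 0 h0
  have hval2 : val (Dv c (Dv c φ)) ((z : ι → ℝ) + (0 : ℝ) • c) = evx z (Dv c (Dv c φ)) := by
    rw [val_mem _ h0, hz0]
  have hval1 : g1 0 = evx z (Dv c φ) := by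
    show val (Dv c φ) ((z : ι → ℝ) + (0 : ℝ) • c) = _
    rw [val_mem _ h0, hz0]
  have h2 : deriv (deriv g) 0 = evx z (Dv c (Dv c φ)) := by
    rw [hdg.deriv_eq, hd1.deriv, hval2]
  have h1 : deriv g 0 = 0 := by
    rw [hdg.self_of_nhds, hval1, local_max_D1 φ z hz c]
  have hcont : ContinuousAt g 0 := hd.self_of_nhds.continuousAt
  have hmin : IsLocalMin g 0 := by
    refine isLocalMin_of_deriv_deriv_pos ?_ h1 hcont
    rw [h2]
    exact hpos
  have hmax : IsLocalMax g 0 := by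
    have hl : ContinuousAt (fun t : ℝ => (z : ι → ℝ) + t • c) 0 :=
      (continuous_const.add (continuous_id.smul continuous_const)).continuousAt
    have ht : Tendsto (fun t : ℝ => (z : ι → ℝ) + t • c) (𝓝 0) (𝓝 z) := by
      have := hl.tendsto
      simpa using this
    have h5 := ht.eventually hz
    have e : g 0 = val φ z := by simp [hg]
    show ∀ᶠ t in 𝓝 0, g t ≤ g 0
    rw [e]
    exact h5
  have hconst : g =ᶠ[𝓝 0] fun _ => g 0 := by
    filter_upwards [hmin, hmax] with t h1 h2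
    exact le_antisymm h2 h1
  have h3 : deriv g =ᶠ[𝓝 0] deriv (fun _ => g 0) := hconst.deriv
  have h4 := h3.deriv_eq
  rw [h2] at h4
  simp at h4
  exact hpos.ne' h4

lemma quad_ee (x : UU ι) (c : ι → ℝ) (g : RR ι) :
    evx x (Dv c (Dv c g)) = ∑ i, ∑ k, c i * c k * evx x (Dv (ee i) (Dv (ee k) g)) := by
  rw [Dv_coord c (Dv c g), Dv_coord c g]
  simp only [map_sum, Derivation.map_smul, Sys.evx_smul, Finset.mul_sum]
  refine Finset.sum_congr rfl fun i _ => Finset.sum_congr rfl fun j _ => ?_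
  ring

/-- trace of a product of a positive matrix and a nonpositive form -/
lemma trace_nonpos (A : ι → ι → ℝ) (H : ι → ι → ℝ) (hsym : ∀ i k, A i k = A k i)
    (hA : ∀ c : ι → ℝ, 0 ≤ ∑ i, ∑ k, A i k * (c i * c k))
    (hH : ∀ c : ι → ℝ, ∑ i, ∑ k, c i * c k * H i k ≤ 0) :
    ∑ i, ∑ k, A i k * H i k ≤ 0 := by
  have hPS : (Matrix.of A).PosSemidef := by
    refine Matrix.PosSemidef.of_dotProduct_mulVec_nonneg ?_ ?_
    · ext i k
      simp [hsym k i]
    · intro c
      have e : star c ⬝ᵥ (Matrix.of A).mulVec c = ∑ i, ∑ k, A i k * (c i * c k) := by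
        simp only [dotProduct, Matrix.mulVec, Finset.mul_sum, Pi.star_apply, star_trivial,
          Matrix.of_apply]
        refine Finset.sum_congr rfl fun i _ => Finset.sum_congr rfl fun k _ => ?_
        ring
      rw [e]
      exact hA c
  obtain ⟨m, v, hv⟩ := Matrix.posSemidef_iff_eq_sum_vecMulVec.mp hPS
  have hA2 : ∀ i k, A i k = ∑ l, v l i * v l k := by
    intro i k
    have := congrFun (congrFun hv i) k
    simp only [Matrix.of_apply, Matrix.sum_apply, Matrix.vecMulVec_apply, Pi.star_apply,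
      star_trivial] at this
    exact this
  have e : ∑ i, ∑ k, A i k * H i k = ∑ l, ∑ i, ∑ k, v l i * v l k * H i k := by
    calc ∑ i, ∑ k, A i k * H i k = ∑ i, ∑ k, ∑ l, v l i * v l k * H i k := by
          simp only [hA2, Finset.sum_mul]
      _ = ∑ i, ∑ l, ∑ k, v l i * v l k * H i k :=
          Finset.sum_congr rfl fun i _ => Finset.sum_comm
      _ = _ := Finset.sum_comm
  rw [e]
  exact Finset.sum_nonpos fun l _ => hH (v l)

/-- squared euclidean distance -/
def dd (z y : ι → ℝ) : ℝ := ∑ k, (z k - y k) ^ 2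

lemma dd_nonneg (z y : ι → ℝ) : 0 ≤ dd z y := Finset.sum_nonneg fun _ _ => sq_nonneg _

lemma dd_self (z : ι → ℝ) : dd z z = 0 := by simp [dd]

lemma dd_comm (z y : ι → ℝ) : dd z y = dd y z := by
  simp only [dd]
  refine Finset.sum_congr rfl fun k _ => ?_
  ring

lemma dd_eq_zero {z y : ι → ℝ} (h : dd z y = 0) : z = y := by
  ext k
  have := (Finset.sum_eq_zero_iff_of_nonneg (fun _ _ => sq_nonneg _)).mp h k (Finset.mem_univ k)
  have h2 := pow_eq_zero_iff (two_ne_zero) |>.mp this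
  linarith

lemma dd_pos {z y : ι → ℝ} (h : z ≠ y) : 0 < dd z y :=
  lt_of_le_of_ne (dd_nonneg z y) fun e => h (dd_eq_zero e.symm)

lemma dd_tri (a b c : ι → ℝ) : dd a c ≤ 2 * dd a b + 2 * dd b c := by
  simp only [dd, Finset.mul_sum, ← Finset.sum_add_distrib]
  refine Finset.sum_le_sum fun k _ => ?_
  nlinarith [sq_nonneg ((a k - b k) - (b k - c k))]

lemma dd_continuous (y : ι → ℝ) : Continuous fun z : ι → ℝ => dd z y := by
  unfold dd
  fun_prop

lemma isCompact_ball (y : ι → ℝ) (ρ : ℝ) : IsCompact {z : ι → ℝ | dd z y ≤ ρ} := by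
  have hc : IsClosed {z : ι → ℝ | dd z y ≤ ρ} := isClosed_le (dd_continuous y) continuous_const
  have hb : IsCompact (Set.pi Set.univ fun k => Set.Icc (y k - (|ρ| + 1)) (y k + (|ρ| + 1))) :=
    isCompact_univ_pi fun k => isCompact_Icc
  refine hb.of_isClosed_subset hc ?_
  intro z hz k _
  have h1 : (z k - y k) ^ 2 ≤ dd z y :=
    Finset.single_le_sum (f := fun k => (z k - y k) ^ 2) (fun _ _ => sq_nonneg _) (Finset.mem_univ k)
  have h2 : dd z y ≤ ρ := hz
  have h3 : ρ ≤ |ρ| := le_abs_self ρ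
  constructor <;> nlinarith [sq_nonneg (z k - y k - 1), sq_nonneg (z k - y k + 1)]

/-- The midpoint identity -/
lemma dd_mid (z a b : ι → ℝ) :
    dd z a + dd z b = 2 * dd z (fun k => (a k + b k) / 2) + dd a b / 2 := by
  simp only [dd, Finset.mul_sum, ← Finset.sum_add_distrib, Finset.sum_div]
  refine Finset.sum_congr rfl fun k _ => ?_
  ring

lemma dd_mid_end (a b : ι → ℝ) : dd b (fun k => (a k + b k) / 2) = dd a b / 4 := by
  simp only [dd, Finset.sum_div]
  refine Finset.sum_congr rfl fun k _ => ?_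
  ring

/-- The elliptic operator. -/
noncomputable def Lop (a : ι → ι → RR ι) (b : ι → RR ι) (u : RR ι) : RR ι :=
  ∑ i, ∑ k, a i k * Dv (ee i) (Dv (ee k) u) + ∑ k, b k * Dv (ee k) u

lemma Lop_add_smul (a : ι → ι → RR ι) (b : ι → RR ι) (u v : RR ι) (ε : ℝ) :
    Lop a b (u + ε • v) = Lop a b u + ε • Lop a b v := by
  simp only [Lop, map_add, Derivation.map_smul, mul_add, mul_smul_comm, Finset.sum_add_distrib,
    Finset.smul_sum, smul_add]
  abel

section op

variable (a : ι → ι → RR ι) (b : ι → RR ι) (ha_sym : ∀ i k, a i k = a k i)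
  (ha_pos : ∀ (x : UU ι) (c : ι → ℝ), c ≠ 0 → 0 < ∑ i, ∑ k, evx x (a i k) * (c i * c k))

include ha_sym ha_pos in
lemma Lop_max (φ : RR ι) (z : UU ι) (hz : IsLocalMax (val φ) z) : evx z (Lop a b φ) ≤ 0 := by
  have hb : evx z (∑ k, b k * Dv (ee k) φ) = 0 := by
    rw [map_sum]
    refine Finset.sum_eq_zero fun k _ => ?_
    rw [map_mul, local_max_D1 φ z hz, mul_zero]
  simp only [Lop, map_add, hb, add_zero, map_sum, map_mul]
  refine trace_nonpos (fun i k => evx z (a i k)) (fun i k => evx z (Dv (ee i) (Dv (ee k) φ)))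
    ?_ ?_ ?_
  · intro i k
    simp only [ha_sym i k]
  · intro c
    by_cases hc : c = 0
    · simp [hc]
    · exact (ha_pos z c hc).le
  · intro c
    rw [← quad_ee]
    exact local_max_D2 φ z hz c

/-- The smooth function exponential of another -/
noncomputable def expS (g : RR ι) : RR ι :=
  Sm.mk (fun z => Real.exp (val g z)) (Real.contDiff_exp.comp_contDiffOn (Sm.smooth g))

lemma evx_expS (g : RR ι) (z : UU ι) : evx z (expS g) = Real.exp (evx z g) := by
  show Real.exp (val g z) = _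
  rw [val_mem _ z.2]

lemma Dv_expS (c : ι → ℝ) (g : RR ι) : Dv c (expS g) = Dv c g * expS g := by
  apply Sm.eq_of_ev
  intro z
  have h1 : evx z (Dv c (expS g)) = fderiv ℝ (fun z => Real.exp (val g z)) z c := Dv_mk c _ z
  have h2 : HasFDerivAt (val g) (fderiv ℝ (val g) z) (z : ι → ℝ) :=
    (Sm.diffAt UU_open g z).hasFDerivAt
  have h3 := h2.exp
  rw [h1, h3.fderiv, map_mul, evx_expS]
  have h4 : evx z (Dv c g) = fderiv ℝ (val g) z c := rfl
  rw [h4, val_mem _ z.2]
  simp only [smul_apply, smul_eq_mul]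
  ring

lemma evx_alg_ (x : UU ι) (c : ℝ) : evx x (algebraMap ℝ (RR ι) c) = c := rfl

/-- The squared distance as a smooth function. -/
noncomputable def ddf (y : ι → ℝ) : RR ι := ∑ k, (fXc k - algebraMap ℝ (RR ι) (y k)) ^ 2

lemma evx_ddf (y : ι → ℝ) (z : UU ι) : evx z (ddf y) = dd (z : ι → ℝ) y := by
  simp only [ddf, map_sum, map_pow, map_sub]
  rfl

lemma Dv_ddf (c y : ι → ℝ) : Dv c (ddf y)
    = ∑ k, 2 * (algebraMap ℝ (RR ι) (c k) * (fXc k - algebraMap ℝ (RR ι) (y k))) := by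
  simp only [ddf, map_sum]
  refine Finset.sum_congr rfl fun k _ => ?_
  rw [Derivation.leibniz_pow, map_sub, Dv_fXc, Derivation.map_algebraMap, sub_zero]
  simp [smul_eq_mul]
  ring

/-- barrier constant coefficient calculation -/
lemma Dv_Dv_expS (c e : ι → ℝ) (g : RR ι) :
    Dv c (Dv e (expS g)) = (Dv c (Dv e g) + Dv e g * Dv c g) * expS g := by
  rw [Dv_expS, Derivation.leibniz, Dv_expS]
  simp only [smul_eq_mul]
  ring

/-- barrier calculation -/
lemma Lop_exp (g : RR ι) :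
    Lop a b (expS g) = expS g * (∑ i, ∑ k, a i k * (Dv (ee i) g * Dv (ee k) g) + Lop a b g) := by
  simp only [Lop]
  simp only [Dv_Dv_expS]
  simp only [Dv_expS, mul_add, Finset.mul_sum, add_mul, Finset.sum_add_distrib]
  have e1 : ∀ i k, a i k * (Dv (ee i) (Dv (ee k) g) * expS g)
      = expS g * (a i k * Dv (ee i) (Dv (ee k) g)) := by
    intro i k; ring
  have e2 : ∀ i k, a i k * (Dv (ee k) g * Dv (ee i) g * expS g)
      = expS g * (a i k * (Dv (ee i) g * Dv (ee k) g)) := by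
    intro i k; ring
  have e3 : ∀ k, b k * (Dv (ee k) g * expS g) = expS g * (b k * Dv (ee k) g) := by
    intro k; ring
  simp only [e1, e2, e3]
  abel

/-- the barrier as a smooth function -/
noncomputable def barrier (y : ι → ℝ) (α c0 : ℝ) : RR ι :=
  expS ((-α) • ddf y) - algebraMap ℝ (RR ι) c0

lemma Lop_const_sub (g : RR ι) (c0 : ℝ) :
    Lop a b (g - algebraMap ℝ (RR ι) c0) = Lop a b g := by
  simp only [Lop, map_sub, Derivation.map_algebraMap, sub_zero]

lemma Lop_smul (g : RR ι) (α : ℝ) : Lop a b (α • g) = α • Lop a b g := by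
  simp only [Lop, Derivation.map_smul, mul_smul_comm, Finset.smul_sum, smul_add]

/-- main quadratic form of the barrier -/
noncomputable def barA (y : ι → ℝ) : RR ι :=
  ∑ i, ∑ k, a i k * (Dv (ee i) (ddf y) * Dv (ee k) (ddf y))

lemma Lop_barrier (y : ι → ℝ) (α c0 : ℝ) :
    Lop a b (barrier y α c0)
      = expS ((-α) • ddf y) * (α • (α • barA a y) - α • Lop a b (ddf y)) := by
  rw [barrier, Lop_const_sub, Lop_exp, Lop_smul]
  congr 1
  have e1 : ∀ i k, a i k * (Dv (ee i) ((-α) • ddf y) * Dv (ee k) ((-α) • ddf y))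
      = α • α • (a i k * (Dv (ee i) (ddf y) * Dv (ee k) (ddf y))) := by
    intro i k
    rw [Derivation.map_smul, Derivation.map_smul, smul_mul_smul_comm, mul_smul_comm, neg_mul_neg,
      mul_smul]
  simp only [e1, barA, Finset.smul_sum]
  rw [neg_smul, sub_eq_add_neg]

lemma Dv_ee_ddf (y : ι → ℝ) (k : ι) (z : UU ι) :
    evx z (Dv (ee k) (ddf y)) = 2 * ((z : ι → ℝ) k - y k) := by
  rw [Dv_ddf, map_sum]
  have e : ∀ j, evx z (2 * (algebraMap ℝ (RR ι) (ee k j) * (fXc j - algebraMap ℝ (RR ι) (y j))))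
      = if j = k then 2 * ((z : ι → ℝ) k - y k) else 0 := by
    intro j
    rw [map_mul, map_mul, map_sub, evx_alg_, evx_alg_, evx_fXc, map_ofNat]
    by_cases h : j = k
    · subst h
      simp
    · simp [h, Pi.single_apply]
  simp only [e]
  simp

include ha_pos in
lemma barA_pos (y : ι → ℝ) (z : UU ι) (hz : (z : ι → ℝ) ≠ y) : 0 < evx z (barA a y) := by
  have h : evx z (barA a y)
      = ∑ i, ∑ k, evx z (a i k) * ((2 * ((z : ι → ℝ) i - y i)) * (2 * ((z : ι → ℝ) k - y k))) := by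
    simp only [barA, map_sum, map_mul, Dv_ee_ddf]
  rw [h]
  refine ha_pos z _ ?_
  intro h0
  apply hz
  ext k
  have := congrFun h0 k
  simp only [Pi.zero_apply] at this
  linarith


include ha_pos in
/-- Compact sets avoiding the center: a barrier strength. -/
lemma exists_alpha (C : Set (ι → ℝ)) (hC : IsCompact C) (hCU : C ⊆ UU ι) (y : ι → ℝ)
    (hy : y ∉ C) : ∃ α : ℝ, 0 < α ∧ ∀ z ∈ C, val (Lop a b (ddf y)) z < α * val (barA a y) z := by
  have hApos : ∀ z ∈ C, 0 < val (barA a y) z := by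
    intro z hz
    rw [val_mem _ (hCU hz)]
    refine barA_pos a ha_pos y ⟨z, hCU hz⟩ ?_
    intro e
    exact hy (by simpa [← e] using hz)
  have hcont : ContinuousOn (fun z => val (Lop a b (ddf y)) z / val (barA a y) z) C :=
    ((val_cont _).mono hCU).div ((val_cont _).mono hCU) fun z hz => (hApos z hz).ne'
  obtain ⟨B, hB⟩ := (hC.image_of_continuousOn hcont).bddAbove
  refine ⟨max B 0 + 1, by positivity, ?_⟩
  intro z hz
  have h1 : val (Lop a b (ddf y)) z / val (barA a y) z ≤ B := hB ⟨z, hz, rfl⟩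
  have h2 := hApos z hz
  rw [div_le_iff₀ h2] at h1
  have h3 : B ≤ max B 0 := le_max_left _ _
  nlinarith

end op

/-- `f + ε < M` on compact set when `f < M` pointwise. -/
lemma exists_eps (A : Set (ι → ℝ)) (hA : IsCompact A) (f : (ι → ℝ) → ℝ) (hf : ContinuousOn f A)
    (M : ℝ) (h : ∀ z ∈ A, f z < M) : ∃ ε : ℝ, 0 < ε ∧ ∀ z ∈ A, f z + ε < M := by
  by_cases hne : A.Nonempty
  · obtain ⟨z0, hz0, hmax⟩ := hA.exists_isMaxOn hne hf
    refine ⟨(M - f z0) / 2, ?_, ?_⟩
    · have := h z0 hz0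
      linarith
    · intro z hz
      have h1 : f z ≤ f z0 := hmax hz
      have := h z0 hz0
      linarith
  · refine ⟨1, one_pos, ?_⟩
    intro z hz
    exact absurd ⟨z, hz⟩ hne

section main

variable (a : ι → ι → RR ι) (b : ι → RR ι) (ha_sym : ∀ i k, a i k = a k i)
  (ha_pos : ∀ (x : UU ι) (c : ι → ℝ), c ≠ 0 → 0 < ∑ i, ∑ k, evx x (a i k) * (c i * c k))

include ha_sym ha_pos in
/-- The barrier argument: the maximum set cannot touch a ball from outside. -/
lemma hopf_core (u : RR ι) (hLu : ∀ x : UU ι, 0 ≤ evx x (Lop a b u)) (M : ℝ)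
    (hM : ∀ x : UU ι, evx x u ≤ M) (x₁ y₀ : UU ι) (hx₁ : evx x₁ u = M) (hy₀ : evx y₀ u < M)
    (hd : dd (y₀ : ι → ℝ) x₁ * 16 < dd (x₁ : ι → ℝ) 0) : False := by
  set R₀ := dd (y₀ : ι → ℝ) x₁ with hR₀
  set D := dd (x₁ : ι → ℝ) 0 with hD
  have hDpos : 0 < D := dd_pos x₁.2
  have hR₀nn : 0 ≤ R₀ := dd_nonneg _ _
  -- the big ball
  set Bc : Set (ι → ℝ) := {z | dd z (y₀ : ι → ℝ) ≤ R₀} with hBc
  have hBcU : Bc ⊆ UU ι := by
    intro z hz h0
    simp only [Set.mem_singleton_iff] at h0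
    subst h0
    have h1 := dd_tri (x₁ : ι → ℝ) y₀ 0
    have h2 : dd (x₁ : ι → ℝ) y₀ = R₀ := dd_comm _ _
    have h3 : dd (y₀ : ι → ℝ) 0 ≤ R₀ := by rw [dd_comm]; exact hz
    linarith
  have hBcC : IsCompact Bc := isCompact_ball _ _
  -- the touching set
  set T : Set (ι → ℝ) := Bc ∩ val u ⁻¹' {M} with hT
  have hTc : IsCompact T := by
    refine hBcC.of_isClosed_subset ?_ Set.inter_subset_left
    exact ((val_cont u).mono hBcU).preimage_isClosed_of_isClosed hBcC.isClosed isClosed_singleton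
  have hx₁T : (x₁ : ι → ℝ) ∈ T := by
    refine ⟨?_, ?_⟩
    · show dd (x₁ : ι → ℝ) y₀ ≤ R₀
      rw [dd_comm]
    · show val u x₁ = M
      rw [val_mem _ x₁.2]
      exact hx₁
  obtain ⟨x₂, hx₂T, hmin⟩ := hTc.exists_isMinOn ⟨_, hx₁T⟩ (dd_continuous (y₀ : ι → ℝ)).continuousOn
  have hx₂U : x₂ ∈ UU ι := hBcU hx₂T.1
  have hx₂M : val u x₂ = M := hx₂T.2
  set R := dd x₂ (y₀ : ι → ℝ) with hR
  have hRle : R ≤ R₀ := hx₂T.1
  have hRpos : 0 < R := by
    refine dd_pos ?_
    intro e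
    have : val u x₂ = evx y₀ u := by
      rw [e, val_mem _ y₀.2]
    rw [hx₂M] at this
    linarith
  -- the small ball
  set y' : ι → ℝ := fun k => ((y₀ : ι → ℝ) k + x₂ k) / 2 with hy'
  have hmid : ∀ z, dd z y₀ + dd z x₂ = 2 * dd z y' + R / 2 := by
    intro z
    have := dd_mid z (y₀ : ι → ℝ) x₂
    rw [dd_comm (y₀ : ι → ℝ) x₂] at this
    exact this
  have hx₂y' : dd x₂ y' = R / 4 := by
    have := dd_mid_end (y₀ : ι → ℝ) x₂
    rw [dd_comm (y₀ : ι → ℝ) x₂] at this
    exact this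
  have hinside : ∀ z, dd z y' ≤ R / 4 → z ≠ x₂ → z ∈ UU ι ∧ val u z < M := by
    intro z hz hne
    have h1 := hmid z
    have h2 : 0 < dd z x₂ := dd_pos hne
    have h3 : dd z y₀ < R := by linarith
    have hzB : z ∈ Bc := by
      show dd z y₀ ≤ R₀
      linarith
    have hzU := hBcU hzB
    refine ⟨hzU, ?_⟩
    refine lt_of_le_of_ne ?_ ?_
    · rw [val_mem _ hzU]
      exact hM _
    · intro e
      have h4 : R ≤ dd z y₀ := hmin ⟨hzB, e⟩
      linarith
  -- the neighbourhood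
  set δ := R / 16 with hδ
  have hδpos : 0 < δ := by positivity
  set C : Set (ι → ℝ) := {z | dd z x₂ ≤ δ} with hC
  have hCc : IsCompact C := isCompact_ball _ _
  have hCU : C ⊆ UU ι := by
    intro z hz h0
    simp only [Set.mem_singleton_iff] at h0
    subst h0
    have hz' : dd (0 : ι → ℝ) x₂ ≤ δ := hz
    have h1 := dd_tri (x₁ : ι → ℝ) x₂ 0
    have h2 := dd_tri (x₁ : ι → ℝ) y₀ x₂
    have h3 : dd (x₁ : ι → ℝ) y₀ = R₀ := dd_comm _ _
    have h4 : dd (y₀ : ι → ℝ) x₂ = R := dd_comm _ _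
    have h5 : dd x₂ (0 : ι → ℝ) ≤ δ := by rw [dd_comm]; exact hz'
    have h6 : R / 16 ≤ R₀ := by linarith
    linarith
  have hy'C : y' ∉ C := by
    intro hz
    have hz' : dd y' x₂ ≤ δ := hz
    have h1 : dd y' x₂ = R / 4 := by rw [dd_comm]; exact hx₂y'
    linarith
  obtain ⟨α, hαpos, hα⟩ := exists_alpha a b ha_pos C hCc hCU y' hy'C
  -- the barrier
  set c0 := Real.exp (-α * (R / 4)) with hc0
  have hc0pos : 0 < c0 := Real.exp_pos _
  set v := barrier y' α c0 with hv
  have hval_v : ∀ z (hz : z ∈ UU ι), val v z = Real.exp (-α * dd z y') - c0 := by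
    intro z hz
    rw [val_mem _ hz, hv, barrier, map_sub, evx_expS]
    have e1 : evx (⟨z, hz⟩ : UU ι) ((-α) • ddf y') = (-α) * dd z y' := by
      rw [Sys.evx_smul, evx_ddf]
    rw [e1]
    rfl
  have hv_le : ∀ z (hz : z ∈ UU ι), val v z ≤ 1 := by
    intro z hz
    rw [hval_v z hz]
    have h1 : Real.exp (-α * dd z y') ≤ 1 := by
      rw [Real.exp_le_one_iff]
      have := dd_nonneg z y'
      nlinarith
    linarith
  have hv_neg : ∀ z (hz : z ∈ UU ι), R / 4 < dd z y' → val v z < 0 := by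
    intro z hz h
    rw [hval_v z hz, sub_neg, hc0, Real.exp_lt_exp]
    nlinarith
  have hv_x₂ : val v x₂ = 0 := by
    rw [hval_v x₂ hx₂U, hx₂y', hc0]
    ring_nf
  -- the sphere part
  set A₁ : Set (ι → ℝ) := {z | dd z x₂ = δ} ∩ {z | dd z y' ≤ R / 4} with hA₁
  have hA₁c : IsCompact A₁ := by
    refine (isCompact_ball y' (R / 4)).of_isClosed_subset ?_ Set.inter_subset_right
    exact (isClosed_eq (dd_continuous x₂) continuous_const).inter
      (isClosed_le (dd_continuous y') continuous_const)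
  have hA₁U : A₁ ⊆ UU ι := fun z hz => hCU (le_of_eq hz.1)
  have hA₁lt : ∀ z ∈ A₁, val u z < M := by
    intro z hz
    refine (hinside z hz.2 ?_).2
    intro e
    have h1 : dd z x₂ = δ := hz.1
    rw [e, dd_self] at h1
    linarith
  obtain ⟨ε, hεpos, hε⟩ := exists_eps A₁ hA₁c (val u) ((val_cont u).mono hA₁U) M hA₁lt
  -- the perturbed function
  set φ := u + ε • v with hφ
  have hval_φ : ∀ z (hz : z ∈ UU ι), val φ z = val u z + ε * val v z := by
    intro z hz
    rw [val_mem _ hz, val_mem _ hz, val_mem _ hz, hφ, map_add]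
    rfl
  have hφ_x₂ : val φ x₂ = M := by
    rw [hval_φ x₂ hx₂U, hv_x₂, hx₂M]
    ring
  have hφ_bd : ∀ z, dd z x₂ = δ → val φ z < M := by
    intro z hz
    have hzC : z ∈ C := le_of_eq hz
    have hzU := hCU hzC
    rw [hval_φ z hzU]
    by_cases hin : dd z y' ≤ R / 4
    · have h1 := hε z ⟨hz, hin⟩
      have h2 := hv_le z hzU
      nlinarith
    · have h1 := hv_neg z hzU (not_le.mp hin)
      have h2 : val u z ≤ M := by
        rw [val_mem _ hzU]
        exact hM _
      nlinarith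
  -- the maximum
  have hφc : ContinuousOn (val φ) C := (val_cont φ).mono hCU
  have hx₂C : x₂ ∈ C := by
    show dd x₂ x₂ ≤ δ
    rw [dd_self]
    exact hδpos.le
  obtain ⟨z, hzC, hzmax⟩ := hCc.exists_isMaxOn ⟨x₂, hx₂C⟩ hφc
  have hz1 : M ≤ val φ z := by
    have : val φ x₂ ≤ val φ z := hzmax hx₂C
    rwa [hφ_x₂] at this
  have hz2 : dd z x₂ < δ := by
    refine lt_of_le_of_ne hzC ?_
    intro e
    have := hφ_bd z e
    linarith
  have hzU := hCU hzC
  have hloc : IsLocalMax (val φ) z := by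
    have hopen : IsOpen {w : ι → ℝ | dd w x₂ < δ} := isOpen_lt (dd_continuous x₂) continuous_const
    filter_upwards [hopen.mem_nhds hz2] with w hw
    exact hzmax (le_of_lt hw)
  have h1 := Lop_max a b ha_sym ha_pos φ ⟨z, hzU⟩ hloc
  rw [hφ, Lop_add_smul, map_add, Sys.evx_smul] at h1
  have h2 := hLu ⟨z, hzU⟩
  have h3 : 0 < evx (⟨z, hzU⟩ : UU ι) (Lop a b v) := by
    rw [hv, Lop_barrier, map_mul, evx_expS]
    refine mul_pos (Real.exp_pos _) ?_
    rw [map_sub, Sys.evx_smul, Sys.evx_smul, Sys.evx_smul, ← mul_sub]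
    refine mul_pos hαpos ?_
    have := hα z hzC
    rw [val_mem _ hzU, val_mem _ hzU] at this
    linarith
  nlinarith

lemma precon_UU (hι : 1 < Fintype.card ι) : PreconnectedSpace (UU ι) := by
  have h : 1 < Module.rank ℝ (ι → ℝ) := by
    rw [rank_fun']
    exact_mod_cast hι
  exact Subtype.preconnectedSpace (isConnected_compl_singleton_of_one_lt_rank h 0).isPreconnected

include ha_sym ha_pos in
/-- The strong maximum principle on the punctured space. -/
theorem strong_max (hι : 1 < Fintype.card ι) (u : RR ι) (hLu : ∀ x : UU ι, 0 ≤ evx x (Lop a b u))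
    (x₀ : UU ι) (hmax : ∀ x : UU ι, evx x u ≤ evx x₀ u) (x : UU ι) : evx x u = evx x₀ u := by
  by_contra hne
  have hx : evx x u < evx x₀ u := lt_of_le_of_ne (hmax x) hne
  set M := evx x₀ u with hM
  have := precon_UU (ι := ι) hι
  set K : Set (UU ι) := {y | evx y u = M} with hK
  have hcont : Continuous fun y : UU ι => evx y u := by
    have h1 := (val_cont u).domRestrict
    refine h1.congr fun y => ?_
    exact val_mem u y.2
  have hKc : IsClosed K := isClosed_eq hcont continuous_const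
  have hKo : ¬ IsOpen K := by
    intro ho
    have h1 : K = Set.univ := IsClopen.eq_univ ⟨hKc, ho⟩ ⟨x₀, rfl⟩
    have h2 : x ∈ K := by rw [h1]; trivial
    exact hne h2
  rw [isOpen_iff_mem_nhds] at hKo
  push Not at hKo
  obtain ⟨x₁, hx₁, hnot⟩ := hKo
  have hW : {y : UU ι | dd (y : ι → ℝ) x₁ * 16 < dd (x₁ : ι → ℝ) 0} ∈ 𝓝 x₁ := by
    have hopen : IsOpen {y : UU ι | dd (y : ι → ℝ) x₁ * 16 < dd (x₁ : ι → ℝ) 0} :=
      isOpen_lt (((dd_continuous (x₁ : ι → ℝ)).comp continuous_subtype_val).mul continuous_const)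
        continuous_const
    refine hopen.mem_nhds ?_
    show dd (x₁ : ι → ℝ) x₁ * 16 < dd (x₁ : ι → ℝ) 0
    rw [dd_self, zero_mul]
    exact dd_pos x₁.2
  have hnsub : ¬ {y : UU ι | dd (y : ι → ℝ) x₁ * 16 < dd (x₁ : ι → ℝ) 0} ⊆ K :=
    fun hs => hnot (Filter.mem_of_superset hW hs)
  rw [Set.not_subset] at hnsub
  obtain ⟨y₀, hy₀W, hy₀K⟩ := hnsub
  have hy₀ : evx y₀ u < M := lt_of_le_of_ne (hmax y₀) hy₀K
  exact hopf_core a b ha_sym ha_pos u hLu M hmax x₁ y₀ hx₁ hy₀ hy₀W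

end main

end Vale.Agent.P084
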