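import Mathlib

/-!
Regularity of the homogeneous extension of a surjective isometry between unit spheres of
smooth strongly convex norms.
-/

set_option linter.unusedSectionVars false
set_option linter.unusedVariables false

open scoped ContDiff Topology
open Filter

namespace Vale.Agent.P084

/-- smooth strongly convex norm -/
structure SC (E : Type*) [NormedAddCommGroup E] [NormedSpace ℝ E] : Prop where
  smooth : ContDiffOn ℝ ∞ (fun x : E => ‖x‖) {0}ᶜ
  pos : ∀ x : E, x ≠ 0 → ∀ v : E, v ≠ 0 → 0 < fderiv ℝ (fderiv ℝ (fun z : E => ‖z‖ ^ 2)) x v v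

section SCbasic

variable {E : Type*} [NormedAddCommGroup E] [NormedSpace ℝ E]

lemma SC.contDiffAt_norm (h : SC E) {z : E} (hz : z ≠ 0) : ContDiffAt ℝ ∞ (fun x : E => ‖x‖) z :=
  h.smooth.contDiffAt (isOpen_compl_singleton.mem_nhds hz)

lemma SC.contDiffAt_sq (h : SC E) {z : E} (hz : z ≠ 0) : ContDiffAt ℝ ∞ (fun x : E => ‖x‖ ^ 2) z :=
  (h.contDiffAt_norm hz).pow 2

lemma SC.diffAt_norm (h : SC E) {z : E} (hz : z ≠ 0) : DifferentiableAt ℝ (fun x : E => ‖x‖) z :=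
  (h.contDiffAt_norm hz).differentiableAt (by simp)

lemma SC.hasFDerivAt_norm (h : SC E) {z : E} (hz : z ≠ 0) :
    HasFDerivAt (fun x : E => ‖x‖) (fderiv ℝ (fun x : E => ‖x‖) z) z :=
  (h.diffAt_norm hz).hasFDerivAt

lemma SC.fderiv_sq (h : SC E) {z : E} (hz : z ≠ 0) (v : E) :
    fderiv ℝ (fun x : E => ‖x‖ ^ 2) z v = 2 * ‖z‖ * fderiv ℝ (fun x : E => ‖x‖) z v := by
  have h1 := (h.hasFDerivAt_norm hz).pow 2
  rw [h1.fderiv]
  simp

lemma SC.differentiableAt_fderiv_sq (h : SC E) {z : E} (hz : z ≠ 0) :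
    DifferentiableAt ℝ (fderiv ℝ (fun x : E => ‖x‖ ^ 2)) z := by
  have h1 : ContDiffAt ℝ ∞ (fderiv ℝ (fun x : E => ‖x‖ ^ 2)) z :=
    (h.contDiffAt_sq hz).fderiv_right (m := ∞) (by simp)
  exact h1.differentiableAt (by simp)

/-- The tangent annihilator is trivial. -/
lemma SC.annih_zero (h : SC E) (y₀ : E) (hy₀ : ‖y₀‖ = 1) (v : E)
    (h0 : fderiv ℝ (fun x : E => ‖x‖) y₀ v = 0)
    (h1 : ∀ y : E, ‖y‖ = 1 → y ≠ y₀ → fderiv ℝ (fun x : E => ‖x‖) (y₀ - y) v = 0) : v = 0 := by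
  by_contra hv
  have hy₀0 : y₀ ≠ 0 := by
    intro e
    rw [e, norm_zero] at hy₀
    exact zero_ne_one hy₀
  -- the curve
  set q : ℝ → E := fun t => y₀ - t • v with hq
  set r : ℝ → ℝ := fun t => (‖q t‖)⁻¹ with hr
  set z : ℝ → E := fun t => y₀ + r t • q t with hz
  have hq0 : q 0 = y₀ := by simp [hq]
  have hq_d : HasDerivAt q (-v) 0 := by
    have h2 := ((hasDerivAt_id (0 : ℝ)).smul_const v).const_sub y₀
    simpa [hq] using h2
  have hN_d : HasDerivAt (fun t => ‖q t‖) 0 0 := by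
    have h2 : HasFDerivAt (fun x : E => ‖x‖) (fderiv ℝ (fun x : E => ‖x‖) y₀) (q 0) := by
      rw [hq0]
      exact h.hasFDerivAt_norm hy₀0
    have h3 := h2.comp_hasDerivAt (0 : ℝ) hq_d
    have h4 : (fderiv ℝ (fun x : E => ‖x‖) y₀) (-v) = 0 := by
      rw [map_neg, h0, neg_zero]
    rw [h4] at h3
    exact h3
  have hnq0 : ‖q 0‖ = 1 := by rw [hq0, hy₀]
  have hr_d : HasDerivAt r 0 0 := by
    have h2 := hN_d.fun_inv (by rw [hnq0]; exact one_ne_zero)
    have h3 : -0 / ‖q 0‖ ^ 2 = (0 : ℝ) := by simp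
    rw [h3] at h2
    exact h2
  have hr0 : r 0 = 1 := by simp [hr, hnq0]
  have hz_d : HasDerivAt z (-v) 0 := by
    have h2 := (hr_d.fun_smul hq_d).const_add y₀
    convert h2 using 1
    simp [hr0]
  have hz0 : z 0 = (2 : ℝ) • y₀ := by
    simp only [hz, hr0, hq0, one_smul]
    rw [two_smul]
  have hz0ne : z 0 ≠ 0 := by
    rw [hz0]
    exact smul_ne_zero two_ne_zero hy₀0
  -- the derivative of `h` along the curve
  have hD : HasFDerivAt (fderiv ℝ (fun x : E => ‖x‖ ^ 2))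
      (fderiv ℝ (fderiv ℝ (fun x : E => ‖x‖ ^ 2)) (z 0)) (z 0) :=
    (h.differentiableAt_fderiv_sq hz0ne).hasFDerivAt
  have hh := (hD.comp_hasDerivAt (0 : ℝ) hz_d)
  have hh2 : HasDerivAt (fun t => fderiv ℝ (fun x : E => ‖x‖ ^ 2) (z t) v)
      (fderiv ℝ (fderiv ℝ (fun x : E => ‖x‖ ^ 2)) (z 0) (-v) v) 0 := by
    have h5 := hh.clm_apply (hasDerivAt_const (0 : ℝ) v)
    simpa using h5
  -- it vanishes near zero
  have hcontq : ContinuousAt q 0 := hq_d.continuousAt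
  have hq_ne : ∀ᶠ t in 𝓝 (0 : ℝ), q t ≠ 0 :=
    hcontq.eventually_ne (by rw [hq0]; exact hy₀0)
  have hyt : ContinuousAt (fun t => - (r t • q t)) 0 := (hr_d.continuousAt.smul hcontq).neg
  have hyt0 : (fun t => - (r t • q t)) 0 = - y₀ := by simp [hr0, hq0]
  have hne : - y₀ ≠ y₀ := by
    intro e
    have h2 : (2 : ℝ) • y₀ = 0 := by
      rw [two_smul]
      nth_rw 1 [← e]
      simp
    exact (smul_ne_zero two_ne_zero hy₀0) h2
  have hy_ne : ∀ᶠ t in 𝓝 (0 : ℝ), - (r t • q t) ≠ y₀ :=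
    hyt.eventually_ne (by simp only [hr0, hq0, one_smul]; exact hne)
  have hvan : (fun t => fderiv ℝ (fun x : E => ‖x‖ ^ 2) (z t) v) =ᶠ[𝓝 0] fun _ => 0 := by
    filter_upwards [hq_ne, hy_ne] with t ht1 ht2
    have hnorm : ‖- (r t • q t)‖ = 1 := by
      rw [norm_neg, norm_smul, hr]
      simp only [norm_inv, norm_norm]
      exact inv_mul_cancel₀ (norm_ne_zero_iff.mpr ht1)
    have h2 := h1 _ hnorm ht2
    have h3 : y₀ - - (r t • q t) = z t := by
      simp [hz]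
    rw [h3] at h2
    have hzt : z t ≠ 0 := by
      rw [← h3]
      exact sub_ne_zero.mpr (Ne.symm ht2)
    rw [h.fderiv_sq hzt, h2, mul_zero]
  have hfinal := hh2.congr_of_eventuallyEq hvan.symm
  have h6 := hfinal.unique (hasDerivAt_const (0 : ℝ) (0 : ℝ))
  have h7 := h.pos (z 0) hz0ne v hv
  rw [map_neg] at h6
  simp only [neg_apply] at h6
  linarith

end SCbasic

section coords

variable {E : Type*} [NormedAddCommGroup E] [NormedSpace ℝ E] [FiniteDimensional ℝ E]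

/-- Existence of distance coordinates at a point of the sphere. -/
lemma SC.exists_coords (h : SC E) (y₀ : E) (hy₀ : ‖y₀‖ = 1) :
    ∃ (n : ℕ) (pts : Fin n → E) (A : E ≃L[ℝ] (Fin n → ℝ)),
      (∀ i, pts i = 0 ∨ (‖pts i‖ = 1 ∧ pts i ≠ y₀)) ∧
      ∀ i v, A v i = fderiv ℝ (fun x : E => ‖x‖) (y₀ - pts i) v := by
  set Pts : Set E := {p | p = 0 ∨ (‖p‖ = 1 ∧ p ≠ y₀)} with hPts
  set dN : E → Module.Dual ℝ E := fun p => (fderiv ℝ (fun x : E => ‖x‖) (y₀ - p)).toLinearMap with hdN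
  set Λ : Set (Module.Dual ℝ E) := dN '' Pts with hΛ
  have hspan : Submodule.span ℝ Λ = ⊤ := by
    by_contra hne
    obtain ⟨φ, hφ, hker⟩ := Submodule.exists_le_ker_of_lt_top _ (lt_top_iff_ne_top.mpr hne)
    set v : E := (Module.evalEquiv ℝ E).symm φ with hv
    have hval : ∀ l : Module.Dual ℝ E, l v = φ l := fun l =>
      Module.apply_evalEquiv_symm_apply ℝ E l φ
    have hzero : ∀ l ∈ Λ, l v = 0 := by
      intro l hl
      rw [hval]
      exact hker (Submodule.subset_span hl)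
    have hv0 : v = 0 := by
      refine h.annih_zero y₀ hy₀ v ?_ ?_
      · have := hzero (dN 0) ⟨0, Or.inl rfl, rfl⟩
        simpa [hdN] using this
      · intro y hy hne
        have := hzero (dN y) ⟨y, Or.inr ⟨hy, hne⟩, rfl⟩
        simpa [hdN] using this
    apply hφ
    have h2 : φ = (Module.evalEquiv ℝ E) v := by
      rw [hv, LinearEquiv.apply_symm_apply]
    rw [h2, hv0, map_zero]
  have key : ∀ (n : ℕ) (b : Fin n → Module.Dual ℝ E), (∀ i, b i ∈ Λ) →
      Submodule.span ℝ (Set.range b) = ⊤ → Module.finrank ℝ E = n →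
      ∃ (n : ℕ) (pts : Fin n → E) (A : E ≃L[ℝ] (Fin n → ℝ)),
        (∀ i, pts i = 0 ∨ (‖pts i‖ = 1 ∧ pts i ≠ y₀)) ∧
        ∀ i v, A v i = fderiv ℝ (fun x : E => ‖x‖) (y₀ - pts i) v := by
    intro n b hbmem hbspan' hn
    have hpts : ∀ i, ∃ p, p ∈ Pts ∧ dN p = b i := fun i => hbmem i
    choose pts hpts1 hpts2 using hpts
    set A0 : E →ₗ[ℝ] (Fin n → ℝ) := LinearMap.pi b with hA0
    have hinj : Function.Injective A0 := by
      rw [← LinearMap.ker_eq_bot, LinearMap.ker_eq_bot']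
      intro v hv
      have h1 : ∀ i, b i v = 0 := fun i => congrFun hv i
      have h2 : ∀ l : Module.Dual ℝ E, l v = 0 := by
        intro l
        have hl : l ∈ Submodule.span ℝ (Set.range b) := by
          rw [hbspan']
          trivial
        induction hl using Submodule.span_induction with
        | mem x hx =>
          obtain ⟨i, rfl⟩ := hx
          exact h1 i
        | zero => rfl
        | add x y _ _ hx hy =>
          rw [LinearMap.add_apply, hx, hy, add_zero]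
        | smul c x _ hx =>
          rw [LinearMap.smul_apply, hx, smul_zero]
      exact (Module.forall_dual_apply_eq_zero_iff ℝ v).mp h2
    have hdim : Module.finrank ℝ E = Module.finrank ℝ (Fin n → ℝ) := by
      rw [Module.finrank_fin_fun, hn]
    set A1 : E ≃ₗ[ℝ] (Fin n → ℝ) := LinearMap.linearEquivOfInjective A0 hinj hdim with hA1
    refine ⟨n, pts, A1.toContinuousLinearEquiv, fun i => hpts1 i, ?_⟩
    intro i v
    have h1 : A1 v i = b i v := rfl
    have h2 : A1.toContinuousLinearEquiv v i = A1 v i := rfl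
    rw [h2, h1, ← hpts2 i]
    rfl
  obtain ⟨b, hbmem, hbspan, hbli⟩ := Submodule.exists_fun_fin_finrank_span_eq ℝ Λ
  exact key _ b hbmem (hbspan.trans hspan) (by
    rw [hspan, finrank_top, Subspace.dual_finrank_eq])

end coords

section second

variable {E : Type*} [NormedAddCommGroup E] [NormedSpace ℝ E]

/-- The second derivative test in a normed space. -/
lemma second_deriv_nonpos (G : E → ℝ) (c w : E) (hU : ∀ᶠ z in 𝓝 c, DifferentiableAt ℝ G z)
    (hD : DifferentiableAt ℝ (fderiv ℝ G) c) (hmax : IsLocalMax (fun t : ℝ => G (c + t • w)) 0) :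
    fderiv ℝ (fderiv ℝ G) c w w ≤ 0 := by
  by_contra hpos
  rw [not_le] at hpos
  set g : ℝ → ℝ := fun t => G (c + t • w) with hg
  set g1 : ℝ → ℝ := fun t => fderiv ℝ G (c + t • w) w with hg1
  have hl : ∀ t : ℝ, HasDerivAt (fun t : ℝ => c + t • w) w t := by
    intro t
    simpa using ((hasDerivAt_id t).smul_const w).const_add c
  have hcl : Tendsto (fun t : ℝ => c + t • w) (𝓝 0) (𝓝 c) := by
    have := (hl 0).continuousAt.tendsto
    simpa using this
  have hd : ∀ᶠ t : ℝ in 𝓝 0, HasDerivAt g (g1 t) t := by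
    filter_upwards [hcl.eventually hU] with t ht
    exact ht.hasFDerivAt.comp_hasDerivAt t (hl t)
  have hdg : deriv g =ᶠ[𝓝 0] g1 := by
    filter_upwards [hd] with t ht
    exact ht.deriv
  have hD' : HasFDerivAt (fderiv ℝ G) (fderiv ℝ (fderiv ℝ G) c) (c + (0 : ℝ) • w) := by
    simpa using hD.hasFDerivAt
  have hd1 : HasDerivAt g1 (fderiv ℝ (fderiv ℝ G) c w w) 0 := by
    have h1 := hD'.comp_hasDerivAt (0 : ℝ) (hl 0)
    have h2 := h1.clm_apply (hasDerivAt_const (0 : ℝ) w)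
    simpa using h2
  have h2 : deriv (deriv g) 0 = fderiv ℝ (fderiv ℝ G) c w w := by
    rw [hdg.deriv_eq, hd1.deriv]
  have hder0 : HasDerivAt g (g1 0) 0 := hd.self_of_nhds
  have hcont : ContinuousAt g 0 := hder0.continuousAt
  have h1 : deriv g 0 = 0 := hmax.deriv_eq_zero
  have hmin : IsLocalMin g 0 := by
    refine isLocalMin_of_deriv_deriv_pos ?_ h1 hcont
    rw [h2]
    exact hpos
  have hconst : g =ᶠ[𝓝 0] fun _ => g 0 := by
    filter_upwards [hmin, hmax] with t h1 h2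
    exact le_antisymm h2 h1
  have h3 : deriv g =ᶠ[𝓝 0] deriv (fun _ => g 0) := hconst.deriv
  have h4 := h3.deriv_eq
  rw [h2] at h4
  simp at h4
  exact hpos.ne' h4

/-- Two unit vectors at distance two are opposite. -/
lemma SC.eq_neg_of_norm_sub (h : SC E) (u v : E) (hu : ‖u‖ = 1) (hv : ‖v‖ = 1)
    (huv : ‖u - v‖ = 2) : v = - u := by
  set c : E := (1 / 2 : ℝ) • (u - v) with hc
  set w : E := (1 / 2 : ℝ) • (u + v) with hw
  have hcn : ‖c‖ = 1 := by
    rw [hc, norm_smul, huv]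
    norm_num
  have hc0 : c ≠ 0 := by
    intro e
    rw [e, norm_zero] at hcn
    exact zero_ne_one hcn
  have hcw : c + w = u := by
    rw [hc, hw, ← smul_add]
    have : u - v + (u + v) = (2 : ℝ) • u := by
      rw [two_smul]
      abel
    rw [this, smul_smul]
    norm_num
  have hcw' : c - w = - v := by
    rw [hc, hw, ← smul_sub]
    have : u - v - (u + v) = (2 : ℝ) • (- v) := by
      rw [two_smul]
      abel
    rw [this, smul_smul]
    norm_num
  have hle : ∀ t : ℝ, |t| ≤ 1 → ‖c + t • w‖ ≤ 1 := by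
    intro t ht
    have ht' := abs_le.mp ht
    have e : c + t • w = ((1 + t) / 2) • u + ((1 - t) / 2) • (- v) := by
      rw [← hcw, ← hcw']
      simp only [smul_add, smul_sub]
      have e1 : ((1 + t) / 2) • w - ((1 - t) / 2) • w = t • w := by
        rw [← sub_smul]
        congr 1
        ring
      have e2 : ((1 + t) / 2) • c + ((1 - t) / 2) • c = c := by
        rw [← add_smul]
        have : (1 + t) / 2 + (1 - t) / 2 = 1 := by ring
        rw [this, one_smul]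
      rw [← e1]
      nth_rw 1 [← e2]
      abel
    rw [e]
    calc ‖((1 + t) / 2) • u + ((1 - t) / 2) • (- v)‖
        ≤ ‖((1 + t) / 2) • u‖ + ‖((1 - t) / 2) • (- v)‖ := norm_add_le _ _
      _ = (1 + t) / 2 + (1 - t) / 2 := by
        rw [norm_smul, norm_smul, norm_neg, hu, hv, Real.norm_of_nonneg (by linarith),
          Real.norm_of_nonneg (by linarith)]
        ring
      _ = 1 := by ring
  have hloc : IsLocalMax (fun t : ℝ => (fun z : E => ‖z‖ ^ 2) (c + t • w)) 0 := by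
    have hnb : ∀ᶠ t : ℝ in 𝓝 0, |t| ≤ 1 := by
      have h1 : Metric.closedBall (0 : ℝ) 1 ∈ 𝓝 (0 : ℝ) := Metric.closedBall_mem_nhds _ one_pos
      filter_upwards [h1] with t ht
      simpa using ht
    filter_upwards [hnb] with t ht
    have h2 := hle t ht
    have h3 : ‖c + (0 : ℝ) • w‖ = 1 := by simpa using hcn
    simp only [h3]
    have h4 := norm_nonneg (c + t • w)
    nlinarith
  have hU : ∀ᶠ z in 𝓝 c, DifferentiableAt ℝ (fun z : E => ‖z‖ ^ 2) z := by
    filter_upwards [isOpen_compl_singleton.mem_nhds hc0] with z hz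
    exact (h.contDiffAt_sq hz).differentiableAt (by simp)
  have h2 := second_deriv_nonpos _ c w hU (h.differentiableAt_fderiv_sq hc0) hloc
  have hw0 : w = 0 := by
    by_contra hne
    have := h.pos c hc0 w hne
    linarith
  have h3 : u + v = 0 := by
    have : (1 / 2 : ℝ) • (u + v) = 0 := hw0
    exact (smul_eq_zero.mp this).resolve_left (by norm_num)
  exact (neg_eq_of_add_eq_zero_right h3).symm

end second

section ext

variable {X Y : Type*} [NormedAddCommGroup X] [NormedSpace ℝ X] [FiniteDimensional ℝ X]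
  [NormedAddCommGroup Y] [NormedSpace ℝ Y] [FiniteDimensional ℝ Y]

/-- An isometry of the unit sphere onto the unit sphere, extended arbitrarily -/
structure SphereIso (f : X → Y) : Prop where
  norm : ∀ x, ‖x‖ = 1 → ‖f x‖ = 1
  dist : ∀ x x', ‖x‖ = 1 → ‖x'‖ = 1 → ‖f x - f x'‖ = ‖x - x'‖
  surj : ∀ y, ‖y‖ = 1 → ∃ x, ‖x‖ = 1 ∧ f x = y

/-- normalization -/
noncomputable def nz (x : X) : X := ‖x‖⁻¹ • x

/-- homogeneous extension -/
noncomputable def Fext (f : X → Y) (x : X) : Y := ‖x‖ • f (nz x)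

lemma norm_nz {x : X} (hx : x ≠ 0) : ‖nz x‖ = 1 := by
  rw [nz, norm_smul, norm_inv, norm_norm]
  exact inv_mul_cancel₀ (norm_ne_zero_iff.mpr hx)

lemma SC.contDiffAt_nz (hX : SC X) {x : X} (hx : x ≠ 0) : ContDiffAt ℝ ∞ (nz (X := X)) x :=
  ((hX.contDiffAt_norm hx).inv (norm_ne_zero_iff.mpr hx)).smul contDiffAt_id

/-- The regularity theorem. -/
theorem Fext_smooth (hX : SC X) (hY : SC Y) {f : X → Y} (hf : SphereIso f) :
    ContDiffOn ℝ ∞ (Fext f) {0}ᶜ := by
  intro x₀ hx₀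
  refine ContDiffAt.contDiffWithinAt ?_
  have hx₀' : x₀ ≠ 0 := hx₀
  set xh0 := nz x₀ with hxh0
  have hxh0n : ‖xh0‖ = 1 := norm_nz hx₀'
  set y₀ := f xh0 with hy₀
  have hy₀n : ‖y₀‖ = 1 := hf.norm _ hxh0n
  have hy₀0 : y₀ ≠ 0 := by
    intro e
    rw [e, norm_zero] at hy₀n
    exact zero_ne_one hy₀n
  obtain ⟨n, pts, A, hpts, hA⟩ := hY.exists_coords y₀ hy₀n
  have hsub : ∀ i, y₀ - pts i ≠ 0 := by
    intro i
    rcases hpts i with h | ⟨_, h⟩
    · rw [h, sub_zero]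
      exact hy₀0
    · exact sub_ne_zero.mpr (Ne.symm h)
  set Ψ : Y → (Fin n → ℝ) := fun z i => ‖z - pts i‖ with hΨ
  have hΨ_cd : ContDiffAt ℝ ∞ Ψ y₀ := by
    rw [contDiffAt_pi]
    intro i
    exact (hY.contDiffAt_norm (hsub i)).comp y₀ (contDiffAt_id.sub contDiffAt_const)
  have hΨ_d : HasFDerivAt Ψ ((A : Y ≃L[ℝ] (Fin n → ℝ)) : Y →L[ℝ] (Fin n → ℝ)) y₀ := by
    rw [hasFDerivAt_pi']
    intro i
    have h1 := (hY.hasFDerivAt_norm (hsub i)).comp y₀ ((hasFDerivAt_id y₀).sub_const (pts i))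
    have e : (ContinuousLinearMap.proj i).comp ((A : Y ≃L[ℝ] (Fin n → ℝ)) : Y →L[ℝ] (Fin n → ℝ))
        = (fderiv ℝ (fun x : Y => ‖x‖) (y₀ - pts i)).comp (ContinuousLinearMap.id ℝ Y) := by
      ext v
      simp [hA]
    rw [e]
    exact h1
  have hn : (∞ : WithTop ℕ∞) ≠ 0 := by simp
  set Φ := hΨ_cd.localInverse hΨ_d hn with hΦdef
  have hΦ : ContDiffAt ℝ ∞ Φ (Ψ y₀) := hΨ_cd.to_localInverse hΨ_d hn
  have hleft : ∀ᶠ z in 𝓝 y₀, Φ (Ψ z) = z :=
    (hΨ_cd.hasStrictFDerivAt' hΨ_d hn).eventually_left_inverse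
  -- preimages
  have hxs : ∀ i, ∃ p : X, (‖p‖ = 1 ∧ f p = pts i) ∨ (p = 0 ∧ pts i = 0) := by
    intro i
    rcases hpts i with h | ⟨h1, _⟩
    · exact ⟨0, Or.inr ⟨rfl, h⟩⟩
    · obtain ⟨p, hp1, hp2⟩ := hf.surj _ h1
      exact ⟨p, Or.inl ⟨hp1, hp2⟩⟩
  choose xs hxs using hxs
  set Ξ : X → (Fin n → ℝ) := fun z i => ‖z - xs i‖ with hΞ
  have hΨΞ : ∀ z, ‖z‖ = 1 → Ψ (f z) = Ξ z := by
    intro z hz
    ext i
    show ‖f z - pts i‖ = ‖z - xs i‖
    rcases hxs i with ⟨h1, h2⟩ | ⟨h1, h2⟩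
    · rw [← h2]
      exact hf.dist _ _ hz h1
    · rw [h1, h2, sub_zero, sub_zero, hz]
      exact hf.norm z hz
  have hxne : ∀ i, xh0 - xs i ≠ 0 := by
    intro i
    refine sub_ne_zero.mpr ?_
    intro e
    rcases hxs i with ⟨h1, h2⟩ | ⟨h1, h2⟩
    · have h3 : pts i = y₀ := by
        rw [← h2, ← e]
      exact hsub i (by rw [h3, sub_self])
    · rw [e, h1, norm_zero] at hxh0n
      exact zero_ne_one hxh0n
  have hΞ_cd : ContDiffAt ℝ ∞ Ξ xh0 := by
    rw [contDiffAt_pi]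
    intro i
    exact (hX.contDiffAt_norm (hxne i)).comp xh0 (contDiffAt_id.sub contDiffAt_const)
  have hΞy : Ξ xh0 = Ψ y₀ := (hΨΞ xh0 hxh0n).symm
  have hnz_cd : ContDiffAt ℝ ∞ (nz (X := X)) x₀ := hX.contDiffAt_nz hx₀'
  have hcomp : ContDiffAt ℝ ∞ (fun x => Φ (Ξ (nz x))) x₀ := by
    have h1 : ContDiffAt ℝ ∞ Φ (Ξ (nz x₀)) := by
      rw [← hxh0, hΞy]
      exact hΦ
    have h2 : ContDiffAt ℝ ∞ Ξ (nz x₀) := hΞ_cd
    exact h1.comp x₀ (h2.comp x₀ hnz_cd)
  have hRHS : ContDiffAt ℝ ∞ (fun x : X => ‖x‖ • Φ (Ξ (nz x))) x₀ :=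
    (hX.contDiffAt_norm hx₀').smul hcomp
  refine hRHS.congr_of_eventuallyEq ?_
  -- eventual equality
  have hne : ∀ᶠ x in 𝓝 x₀, x ≠ 0 := isOpen_compl_singleton.mem_nhds hx₀'
  have htend : Tendsto (fun x => f (nz x)) (𝓝 x₀) (𝓝 y₀) := by
    rw [tendsto_iff_norm_sub_tendsto_zero]
    have h1 : Tendsto (fun x => ‖nz x - xh0‖) (𝓝 x₀) (𝓝 0) :=
      tendsto_iff_norm_sub_tendsto_zero.mp hnz_cd.continuousAt.tendsto
    refine h1.congr' ?_
    filter_upwards [hne] with x hx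
    exact (hf.dist _ _ (norm_nz hx) hxh0n).symm
  filter_upwards [hne, htend.eventually hleft] with x hx hx2
  show ‖x‖ • f (nz x) = ‖x‖ • Φ (Ξ (nz x))
  rw [← hΨΞ _ (norm_nz hx), hx2]

/-- Inverse of the isometry. -/
noncomputable def SphereIso.inv {f : X → Y} (hf : SphereIso f) (y : Y) : X :=
  open Classical in if h : ‖y‖ = 1 then (hf.surj y h).choose else 0

lemma SphereIso.inv_spec {f : X → Y} (hf : SphereIso f) {y : Y} (h : ‖y‖ = 1) :
    ‖hf.inv y‖ = 1 ∧ f (hf.inv y) = y := by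
  have e : hf.inv y = (hf.surj y h).choose := dif_pos h
  rw [e]
  exact (hf.surj y h).choose_spec

lemma SphereIso.inj {f : X → Y} (hf : SphereIso f) {x x' : X} (hx : ‖x‖ = 1) (hx' : ‖x'‖ = 1)
    (h : f x = f x') : x = x' := by
  have := hf.dist x x' hx hx'
  rw [h, sub_self, norm_zero] at this
  exact sub_eq_zero.mp (norm_eq_zero.mp this.symm)

lemma SphereIso.inv_iso {f : X → Y} (hf : SphereIso f) : SphereIso hf.inv where
  norm := fun y hy => (hf.inv_spec hy).1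
  dist := fun y y' hy hy' => by
    have h1 := hf.inv_spec hy
    have h2 := hf.inv_spec hy'
    rw [← hf.dist _ _ h1.1 h2.1, h1.2, h2.2]
  surj := fun x hx => by
    refine ⟨f x, hf.norm x hx, ?_⟩
    have h1 := hf.inv_spec (hf.norm x hx)
    exact hf.inj h1.1 hx h1.2

lemma Fext_norm {f : X → Y} (hf : SphereIso f) {x : X} (hx : x ≠ 0) : ‖Fext f x‖ = ‖x‖ := by
  rw [Fext, norm_smul, norm_norm, hf.norm _ (norm_nz hx), mul_one]

lemma Fext_ne {f : X → Y} (hf : SphereIso f) {x : X} (hx : x ≠ 0) : Fext f x ≠ 0 := by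
  intro e
  have := Fext_norm hf hx
  rw [e, norm_zero] at this
  exact hx (norm_eq_zero.mp this.symm)

lemma nz_smul {x : X} (hx : x ≠ 0) {t : ℝ} (ht : 0 < t) : nz (t • x) = nz x := by
  have h1 : ‖x‖ ≠ 0 := norm_ne_zero_iff.mpr hx
  rw [nz, nz, norm_smul, Real.norm_of_nonneg ht.le, smul_smul, mul_inv]
  congr 1
  field_simp

lemma Fext_hom (f : X → Y) {x : X} (hx : x ≠ 0) {t : ℝ} (ht : 0 < t) :
    Fext f (t • x) = t • Fext f x := by
  rw [Fext, Fext, nz_smul hx ht, norm_smul, Real.norm_of_nonneg ht.le, mul_smul]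

lemma Fext_unit (f : X → Y) {x : X} (hx : ‖x‖ = 1) : Fext f x = f x := by
  rw [Fext, hx, one_smul, nz, hx, inv_one, one_smul]

lemma Fext_inv_Fext {f : X → Y} (hf : SphereIso f) {x : X} (hx : x ≠ 0) :
    Fext hf.inv (Fext f x) = x := by
  have hn := norm_nz hx
  have h0 : Fext f x = ‖x‖ • f (nz x) := rfl
  have hfn : ‖f (nz x)‖ = 1 := hf.norm _ hn
  have hf0 : f (nz x) ≠ 0 := by
    intro e
    rw [e, norm_zero] at hfn
    exact zero_ne_one hfn
  have hxpos : 0 < ‖x‖ := norm_pos_iff.mpr hx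
  rw [h0, Fext_hom _ hf0 hxpos, Fext_unit _ hfn]
  have h1 := hf.inv_spec hfn
  rw [hf.inj h1.1 hn h1.2, nz, smul_smul, mul_inv_cancel₀ hxpos.ne', one_smul]

lemma Fext_Fext_inv {f : X → Y} (hf : SphereIso f) {y : Y} (hy : y ≠ 0) :
    Fext f (Fext hf.inv y) = y := by
  have hn := norm_nz hy
  have h0 : Fext hf.inv y = ‖y‖ • hf.inv (nz y) := rfl
  have h1 := hf.inv_spec hn
  have hf0 : hf.inv (nz y) ≠ 0 := by
    intro e
    have := h1.1
    rw [e, norm_zero] at this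
    exact zero_ne_one this
  have hypos : 0 < ‖y‖ := norm_pos_iff.mpr hy
  rw [h0, Fext_hom _ hf0 hypos, Fext_unit _ h1.1, h1.2, nz, smul_smul, mul_inv_cancel₀ hypos.ne',
    one_smul]

/-- The dimensions agree. -/
theorem finrank_eq (hX : SC X) (hY : SC Y) {f : X → Y} (hf : SphereIso f) [Nontrivial X] :
    Module.finrank ℝ X = Module.finrank ℝ Y := by
  obtain ⟨x₀, hx₀⟩ := exists_ne (0 : X)
  set y₀ := Fext f x₀ with hy₀
  have hy₀0 : y₀ ≠ 0 := Fext_ne hf hx₀
  have hG₀ : Fext hf.inv y₀ = x₀ := Fext_inv_Fext hf hx₀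
  have hF := Fext_smooth hX hY hf
  have hG := Fext_smooth hY hX hf.inv_iso
  have hFd : HasFDerivAt (Fext f) (fderiv ℝ (Fext f) x₀) x₀ :=
    ((hF.contDiffAt (isOpen_compl_singleton.mem_nhds hx₀)).differentiableAt (by simp)).hasFDerivAt
  have hGd : HasFDerivAt (Fext hf.inv) (fderiv ℝ (Fext hf.inv) y₀) y₀ :=
    ((hG.contDiffAt (isOpen_compl_singleton.mem_nhds hy₀0)).differentiableAt (by simp)).hasFDerivAt
  set F' := fderiv ℝ (Fext f) x₀ with hF'
  set G' := fderiv ℝ (Fext hf.inv) y₀ with hG'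
  have h1 : G'.comp F' = ContinuousLinearMap.id ℝ X := by
    have hGd' : HasFDerivAt (Fext hf.inv) G' (Fext f x₀) := hGd
    have h2 := hGd'.comp x₀ hFd
    have h3 : (Fext hf.inv ∘ Fext f) =ᶠ[𝓝 x₀] id := by
      filter_upwards [isOpen_compl_singleton.mem_nhds hx₀] with x hx
      exact Fext_inv_Fext hf hx
    exact (h2.congr_of_eventuallyEq h3.symm).unique (hasFDerivAt_id x₀)
  have h1' : F'.comp G' = ContinuousLinearMap.id ℝ Y := by
    have hFd' : HasFDerivAt (Fext f) F' (Fext hf.inv y₀) := by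
      rw [hG₀]
      exact hFd
    have h2 := hFd'.comp y₀ hGd
    have h3 : (Fext f ∘ Fext hf.inv) =ᶠ[𝓝 y₀] id := by
      filter_upwards [isOpen_compl_singleton.mem_nhds hy₀0] with y hy
      exact Fext_Fext_inv hf hy
    exact (h2.congr_of_eventuallyEq h3.symm).unique (hasFDerivAt_id y₀)
  have e : X ≃ₗ[ℝ] Y := LinearEquiv.ofLinearMap F'.toLinearMap G'.toLinearMap
    (by
      ext v
      exact congrArg (fun T : Y →L[ℝ] Y => T v) h1')
    (by
      ext v
      exact congrArg (fun T : X →L[ℝ] X => T v) h1)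
  exact e.finrank_eq

end ext

end Vale.Agent.P084
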