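import Vale.Agent.P084.Step7
import Vale.Agent.P084.Regular

/-!
Assembly: every surjective isometry between unit spheres of finite dimensional smooth strongly
convex norms extends to a linear isometry.
-/

set_option linter.unusedSectionVars false
set_option linter.unusedVariables false

open scoped ContDiff Topology
open Matrix

namespace Vale.Agent.P084

section main

variable {X Y : Type*} [NormedAddCommGroup X] [NormedSpace ℝ X] [FiniteDimensional ℝ X]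
  [NormedAddCommGroup Y] [NormedSpace ℝ Y] [FiniteDimensional ℝ Y]

lemma SphereIso.odd {φ : X → Y} (hφ : SphereIso φ) (hY : SC Y) {x : X} (hx : ‖x‖ = 1) :
    φ (-x) = - φ x := by
  have h1 := hφ.dist x (-x) hx (by rw [norm_neg, hx])
  have h2 : ‖x - (-x)‖ = 2 := by
    rw [sub_neg_eq_add, ← two_smul ℝ, norm_smul, hx]
    norm_num
  rw [h2] at h1
  exact hY.eq_neg_of_norm_sub _ _ (hφ.norm x hx) (hφ.norm _ (by rw [norm_neg, hx])) h1

/-- The identity on sums of unit vectors -/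
lemma SphereIso.add_id {φ : X → Y} (hφ : SphereIso φ) (hY : SC Y) {a b : X} (ha : ‖a‖ = 1)
    (hb : ‖b‖ = 1) : ‖φ a + φ b‖ = ‖a + b‖ := by
  have h1 := hφ.dist a (-b) ha (by rw [norm_neg, hb])
  rw [hφ.odd hY hb, sub_neg_eq_add, sub_neg_eq_add] at h1
  exact h1

/-- conclusion from a linear model -/
lemma finish_of_linear {φ : X → Y} (hφ : SphereIso φ) (T : X →ₗ[ℝ] Y)
    (hT : ∀ x, x ≠ 0 → T x = Fext φ x) :
    ∃ T' : X ≃ₗᵢ[ℝ] Y, ∀ x, ‖x‖ = 1 → T' x = φ x := by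
  have hnorm : ∀ x, ‖T x‖ = ‖x‖ := by
    intro x
    by_cases hx : x = 0
    · simp [hx]
    · rw [hT x hx, Fext_norm hφ hx]
  have hsurj : Function.Surjective T := by
    intro y
    by_cases hy : y = 0
    · exact ⟨0, by simp [hy]⟩
    · refine ⟨Fext hφ.inv y, ?_⟩
      rw [hT _ (Fext_ne hφ.inv_iso hy), Fext_Fext_inv hφ hy]
  refine ⟨LinearIsometryEquiv.ofSurjective ⟨T, hnorm⟩ hsurj, ?_⟩
  intro x hx
  have hx0 : x ≠ 0 := by
    intro e
    rw [e, norm_zero] at hx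
    exact zero_ne_one hx
  show T x = φ x
  rw [hT x hx0, Fext_unit _ hx]

/-- The system in coordinates -/
noncomputable def mkSys {n : ℕ} (Lx : (Fin n → ℝ) ≃L[ℝ] X) (Ly : (Fin n → ℝ) ≃L[ℝ] Y)
    (hX : SC X) (hY : SC Y) {φ : X → Y} (hφ : SphereIso φ) : Sys (Fin n) where
  NX := fun x => ‖Lx x‖
  NY := fun x => ‖Ly x‖
  F := fun x => Ly.symm (Fext φ (Lx x))
  NX_smooth := hX.smooth.comp Lx.contDiff.contDiffOn (fun x hx => by
    simpa using hx)
  NY_smooth := hY.smooth.comp Ly.contDiff.contDiffOn (fun x hx => by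
    simpa using hx)
  NX_pos := fun x hx => norm_pos_iff.mpr (by simpa using hx)
  NY_pos := fun x hx => norm_pos_iff.mpr (by simpa using hx)
  NX_hom := fun t ht x => by
    rw [map_smul, norm_smul, Real.norm_of_nonneg ht.le]
  NY_hom := fun t ht x => by
    rw [map_smul, norm_smul, Real.norm_of_nonneg ht.le]
  F_smooth := by
    have h1 : ContDiffOn ℝ ∞ (fun x => Fext φ (Lx x)) (UU (Fin n)) :=
      (Fext_smooth hX hY hφ).comp Lx.contDiff.contDiffOn (fun x hx => by simpa using hx)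
    exact Ly.symm.contDiff.comp_contDiffOn h1
  F_ne := fun x hx => by
    have h1 : Lx x ≠ 0 := by simpa using hx
    simpa using Fext_ne hφ h1
  F_norm := fun x hx => by
    have h1 : Lx x ≠ 0 := by simpa using hx
    simp only [ContinuousLinearEquiv.apply_symm_apply]
    exact Fext_norm hφ h1
  F_hom := fun t ht x hx => by
    have h1 : Lx x ≠ 0 := by simpa using hx
    simp only [map_smul]
    rw [Fext_hom _ h1 ht, map_smul]
  F_id := fun p q hp hq hp1 hq1 hpq => by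
    have e1 : Fext φ (Lx p) = φ (Lx p) := Fext_unit _ hp1
    have e2 : Fext φ (Lx q) = φ (Lx q) := Fext_unit _ hq1
    simp only [map_add, ContinuousLinearEquiv.apply_symm_apply, e1, e2]
    exact hφ.add_id hY hp1 hq1

/-- strong convexity in coordinates -/
lemma mkSys_hpd {n : ℕ} (Lx : (Fin n → ℝ) ≃L[ℝ] X) (Ly : (Fin n → ℝ) ≃L[ℝ] Y)
    (hX : SC X) (hY : SC Y) {φ : X → Y} (hφ : SphereIso φ) (x : UU (Fin n)) (v : Fin n → ℝ)
    (hv : v ≠ 0) : 0 < evx x (Dv v (Dv v (mkSys Lx Ly hX hY hφ).psiX)) := by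
  set s := mkSys Lx Ly hX hY hφ with hs
  set G : X → ℝ := fun z => ‖z‖ ^ 2 with hG
  have hdiff : ∀ y : UU (Fin n), HasFDerivAt (fun w => s.NX w ^ 2 / 2)
      ((1 / 2 : ℝ) • (fderiv ℝ G (Lx y)).comp (Lx : (Fin n → ℝ) →L[ℝ] X)) (y : Fin n → ℝ) := by
    intro y
    have hy0 : (y : Fin n → ℝ) ≠ 0 := y.2
    have hy : Lx y ≠ 0 := by simpa using hy0
    have h1 : HasFDerivAt G (fderiv ℝ G (Lx y)) (Lx y) :=
      ((hX.contDiffAt_sq hy).differentiableAt (by simp)).hasFDerivAt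
    have h2 := h1.comp (y : Fin n → ℝ) Lx.hasFDerivAt
    have h3 := h2.const_mul (1 / 2 : ℝ)
    have e : (fun w => s.NX w ^ 2 / 2) = fun w => (1 / 2 : ℝ) * (G ∘ Lx) w := by
      ext w
      show ‖Lx w‖ ^ 2 / 2 = (1 / 2 : ℝ) * ‖Lx w‖ ^ 2
      ring
    rw [e]
    exact h3
  -- first derivative
  have hfirst : ∀ y : UU (Fin n), ((Dv v s.psiX : RR (Fin n)) : UU (Fin n) → ℝ) y
      = (1 / 2 : ℝ) * fderiv ℝ G (Lx y) (Lx v) := by
    intro y
    have h1 := Dv_mk v ((s.NX_smooth.pow 2).div_const 2) y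
    have h2 := (hdiff y).fderiv
    have h3 : fderiv ℝ (fun w => s.NX w ^ 2 / 2) (y : Fin n → ℝ) v
        = (1 / 2 : ℝ) * fderiv ℝ G (Lx y) (Lx v) := by
      rw [h2]
      rfl
    rw [← h3]
    exact h1
  -- second derivative
  have hx0 : (x : Fin n → ℝ) ≠ 0 := x.2
  have hx : Lx x ≠ 0 := by simpa using hx0
  have hD2 : HasFDerivAt (fderiv ℝ G) (fderiv ℝ (fderiv ℝ G) (Lx x)) (Lx x) :=
    (hX.differentiableAt_fderiv_sq hx).hasFDerivAt
  have h4 := hD2.comp (x : Fin n → ℝ) Lx.hasFDerivAt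
  have h5 : HasFDerivAt (fun y => (1 / 2 : ℝ) * fderiv ℝ G (Lx y) (Lx v))
      ((1 / 2 : ℝ) • (((fderiv ℝ (fderiv ℝ G) (Lx x)).comp
        (Lx : (Fin n → ℝ) →L[ℝ] X)).flip (Lx v))) (x : Fin n → ℝ) :=
    (h4.clm_apply (hasFDerivAt_const (Lx v) (x : Fin n → ℝ))).const_mul (1 / 2 : ℝ) |>.congr_fderiv (by
      ext w
      simp)
  have h6 := Sm.fderiv_eq UU_open (Dv v s.psiX) (G := fun y => (1 / 2 : ℝ) * fderiv ℝ G (Lx y) (Lx v))
    (fun y => (hfirst y).symm) x.2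
  have h7 : evx x (Dv v (Dv v s.psiX))
      = (1 / 2 : ℝ) * fderiv ℝ (fderiv ℝ G) (Lx x) (Lx v) (Lx v) := by
    have h8 : evx x (Dv v (Dv v s.psiX)) = fderiv ℝ (ext0 ((Dv v s.psiX : RR (Fin n)) : UU (Fin n) → ℝ)) x v := rfl
    rw [h8, h6, h5.fderiv]
    rfl
  rw [h7]
  have hv' : Lx v ≠ 0 := by simpa using hv
  have := hX.pos (Lx x) hx (Lx v) hv'
  positivity

/-- Existence of the linear model when the dimension is at least two. -/
lemma linear_of_two {φ : X → Y} (hX : SC X) (hY : SC Y) (hφ : SphereIso φ)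
    (h2 : 1 < Module.finrank ℝ X) :
    ∃ T : X →ₗ[ℝ] Y, ∀ x, x ≠ 0 → T x = Fext φ x := by
  have hnt : Nontrivial X := Module.nontrivial_of_finrank_pos (R := ℝ) (by omega)
  have hdim := finrank_eq hX hY hφ
  set n := Module.finrank ℝ X with hn
  have h1 : Module.finrank ℝ (Fin n → ℝ) = Module.finrank ℝ X := by simp [hn]
  have h3 : Module.finrank ℝ (Fin n → ℝ) = Module.finrank ℝ Y := by
    rw [h1]
    exact hdim
  let Lx : (Fin n → ℝ) ≃L[ℝ] X := ContinuousLinearEquiv.ofFinrankEq h1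
  let Ly : (Fin n → ℝ) ≃L[ℝ] Y := ContinuousLinearEquiv.ofFinrankEq h3
  set s := mkSys Lx Ly hX hY hφ with hs
  have hι : 1 < Fintype.card (Fin n) := by simpa using h2
  obtain ⟨M, hM⟩ := s.exists_matrix (mkSys_hpd Lx Ly hX hY hφ) hι
  refine ⟨(Ly : (Fin n → ℝ) →ₗ[ℝ] Y).comp (M.mulVecLin.comp (Lx.symm : X →ₗ[ℝ] (Fin n → ℝ))), ?_⟩
  intro x hx
  have hx' : Lx.symm x ≠ 0 := by simpa using hx
  have h4 := hM _ hx'
  have h5 : s.F (Lx.symm x) = Ly.symm (Fext φ x) := by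
    show Ly.symm (Fext φ (Lx (Lx.symm x))) = _
    rw [ContinuousLinearEquiv.apply_symm_apply]
  show Ly (M *ᵥ (Lx.symm x)) = _
  rw [← h4, h5, ContinuousLinearEquiv.apply_symm_apply]

/-- Existence of the linear model in dimension one. -/
lemma linear_of_one {φ : X → Y} (hY : SC Y) (hφ : SphereIso φ)
    (h1 : Module.finrank ℝ X = 1) :
    ∃ T : X →ₗ[ℝ] Y, ∀ x, x ≠ 0 → T x = Fext φ x := by
  obtain ⟨e, he0, hspan⟩ := finrank_eq_one_iff'.mp h1
  set x₀ : X := nz e with hx₀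
  have hx₀n : ‖x₀‖ = 1 := norm_nz he0
  have hx₀0 : x₀ ≠ 0 := by
    intro h
    rw [h, norm_zero] at hx₀n
    exact zero_ne_one hx₀n
  have hsp : ∀ x : X, ∃ c : ℝ, x = c • x₀ := by
    intro x
    obtain ⟨c, hc⟩ := hspan x
    refine ⟨c * ‖e‖, ?_⟩
    rw [hx₀, nz, smul_smul, mul_assoc, mul_inv_cancel₀ (norm_ne_zero_iff.mpr he0), mul_one, hc]
  -- coordinates
  have hcoord : ∃ l : X →ₗ[ℝ] ℝ, l x₀ = 1 := by
    have h0 : ∃ l : Module.Dual ℝ X, l x₀ ≠ 0 := by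
      by_contra h
      push Not at h
      exact hx₀0 ((Module.forall_dual_apply_eq_zero_iff ℝ x₀).mp h)
    obtain ⟨l, hl⟩ := h0
    refine ⟨(l x₀)⁻¹ • l, ?_⟩
    simp [hl]
  obtain ⟨l, hl⟩ := hcoord
  have hl2 : ∀ x : X, x = l x • x₀ := by
    intro x
    obtain ⟨c, rfl⟩ := hsp x
    simp [hl]
  refine ⟨l.smulRight (φ x₀), ?_⟩
  intro x hx
  obtain ⟨c, rfl⟩ := hsp x
  have hc : c ≠ 0 := by
    intro h
    simp [h] at hx
  simp only [LinearMap.smulRight_apply, map_smul, hl, smul_eq_mul, mul_one]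
  rcases lt_or_gt_of_ne hc with hneg | hpos
  · have hpos : 0 < -c := by linarith
    have e1 : c • x₀ = (-c) • (-x₀) := by simp
    have hm : -x₀ ≠ 0 := neg_ne_zero.mpr hx₀0
    have hmn : ‖-x₀‖ = 1 := by rw [norm_neg, hx₀n]
    rw [e1, Fext_hom _ hm hpos, Fext_unit _ hmn, hφ.odd hY hx₀n]
    simp
  · rw [Fext_hom _ hx₀0 hpos, Fext_unit _ hx₀n]
    simp

/-- Main theorem, with total functions -/
theorem main_total {φ : X → Y} (hX : SC X) (hY : SC Y) (hφ : SphereIso φ) :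
    ∃ T' : X ≃ₗᵢ[ℝ] Y, ∀ x, ‖x‖ = 1 → T' x = φ x := by
  rcases Nat.lt_or_ge 1 (Module.finrank ℝ X) with h2 | h2
  · obtain ⟨T, hT⟩ := linear_of_two hX hY hφ h2
    exact finish_of_linear hφ T hT
  · rcases Nat.lt_or_ge 0 (Module.finrank ℝ X) with h3 | h3
    · obtain ⟨T, hT⟩ := linear_of_one hY hφ (by omega)
      exact finish_of_linear hφ T hT
    · have hsub : Subsingleton X := (Module.finrank_zero_iff (R := ℝ)).mp (by omega)
      refine finish_of_linear hφ 0 ?_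
      intro x hx
      exact absurd (Subsingleton.elim x 0) hx

/-- The main theorem -/
theorem main_thm (hX : ContDiffOn ℝ ∞ (fun x : X => ‖x‖) {0}ᶜ)
    (hY : ContDiffOn ℝ ∞ (fun y : Y => ‖y‖) {0}ᶜ)
    (hX2 : ∀ x : X, x ≠ 0 → ∀ v : X, v ≠ 0 → 0 < fderiv ℝ (fderiv ℝ (fun z : X => ‖z‖ ^ 2)) x v v)
    (hY2 : ∀ x : Y, x ≠ 0 → ∀ v : Y, v ≠ 0 → 0 < fderiv ℝ (fderiv ℝ (fun z : Y => ‖z‖ ^ 2)) x v v)
    (f : Metric.sphere (0 : X) 1 → Metric.sphere (0 : Y) 1) (hf : Isometry f)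
    (hs : Function.Surjective f) :
    ∃ T : X ≃ₗᵢ[ℝ] Y, ∀ x : Metric.sphere (0 : X) 1, T x = f x := by
  classical
  set φ : X → Y := fun x => if h : ‖x‖ = 1 then (f ⟨x, by simpa using h⟩ : Y) else 0 with hφdef
  have hφ1 : ∀ (x : X) (h : ‖x‖ = 1), φ x = f ⟨x, by simpa using h⟩ := by
    intro x h
    simp only [hφdef, dif_pos h]
  have hφ : SphereIso φ :=
    { norm := fun x hx => by
        rw [hφ1 x hx]
        simpa using (f ⟨x, by simpa using hx⟩).2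
      dist := fun x x' hx hx' => by
        rw [hφ1 x hx, hφ1 x' hx']
        have h1 := hf.dist_eq ⟨x, by simpa using hx⟩ ⟨x', by simpa using hx'⟩
        simpa [Subtype.dist_eq, dist_eq_norm] using h1
      surj := fun y hy => by
        obtain ⟨x, hx⟩ := hs ⟨y, by simpa using hy⟩
        have hxn : ‖(x : X)‖ = 1 := by simpa using x.2
        refine ⟨x, hxn, ?_⟩
        rw [hφ1 _ hxn]
        have e : (⟨(x : X), by simpa using hxn⟩ : Metric.sphere (0 : X) 1) = x := rfl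
        rw [e, hx] }
  obtain ⟨T, hT⟩ := main_total ⟨hX, hX2⟩ ⟨hY, hY2⟩ hφ
  refine ⟨T, fun x => ?_⟩
  have hxn : ‖(x : X)‖ = 1 := by simpa using x.2
  rw [hT _ hxn, hφ1 _ hxn]

end main

end Vale.Agent.P084
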