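import Vale.Agent.P084.Tangent

/-!
Polarization of the tangent relations, using radial vanishing.
-/

set_option linter.unusedSectionVars false
set_option linter.unusedVariables false

open scoped ContDiff

namespace Vale.Agent.P084

section abstract

variable {V : Type*} [AddCommGroup V]

lemma polarize2 (T : V → V → ℝ) (add1 : ∀ a a' b, T (a + a') b = T a b + T a' b)
    (symm : ∀ a b, T a b = T b a) (hQ : ∀ v, T v v = 0) (a b : V) : T a b = 0 := by
  have h := hQ (a + b)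
  rw [add1, symm a (a + b), symm b (a + b), add1, add1, hQ, hQ, symm b a] at h
  linarith

/-- expansion of the diagonal -/
lemma diag2 (T : V → V → ℝ) (add1 : ∀ a a' b, T (a + a') b = T a b + T a' b)
    (symm : ∀ a b, T a b = T b a) (a b : V) :
    T (a + b) (a + b) = T a a + 2 * T a b + T b b := by
  rw [add1, symm a (a + b), symm b (a + b), add1, add1, symm b a]
  ring

section four

variable (T : V → V → V → V → ℝ) (add1 : ∀ a a' b c d, T (a + a') b c d = T a b c d + T a' b c d)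
  (s12 : ∀ a b c d, T a b c d = T b a c d) (s23 : ∀ a b c d, T a b c d = T a c b d)
  (s34 : ∀ a b c d, T a b c d = T a b d c)

include add1 s12 s23 s34

lemma add2 (a b b' c d : V) : T a (b + b') c d = T a b c d + T a b' c d := by
  rw [s12, add1, s12 b, s12 b']

lemma add3 (a b c c' d : V) : T a b (c + c') d = T a b c d + T a b c' d := by
  rw [s23, add2 T add1 s12 s23 s34, s23 a c, s23 a c']

lemma add4 (a b c d d' : V) : T a b c (d + d') = T a b c d + T a b c d' := by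
  rw [s34, add3 T add1 s12 s23 s34, s34 a b d, s34 a b d']

/-- expansion of the quartic form -/
lemma diag4 (a b : V) :
    T (a + b) (a + b) (a + b) (a + b)
      = T a a a a + 4 * T a a a b + 6 * T a a b b + 4 * T a b b b + T b b b b := by
  simp only [add1, add2 T add1 s12 s23 s34, add3 T add1 s12 s23 s34, add4 T add1 s12 s23 s34]
  have e1 : T a a b a = T a a a b := s34 _ _ _ _
  have e2 : T a b a a = T a a a b := by rw [s23, e1]
  have e3 : T b a a a = T a a a b := by rw [s12, e2]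
  have e4 : T a b a b = T a a b b := s23 _ _ _ _
  have e5 : T a b b a = T a a b b := by rw [s34, e4]
  have e6 : T b a a b = T a a b b := by rw [s12, e4]
  have e7 : T b a b a = T a a b b := by rw [s12, e5]
  have e8 : T b b a a = T a a b b := by rw [s23, s12, s34, s23, s34, s12, s34]
  have e9 : T b a b b = T a b b b := s12 _ _ _ _
  have e10 : T b b a b = T a b b b := by rw [s23, e9]
  have e11 : T b b b a = T a b b b := by rw [s34, e10]
  rw [e1, e2, e3, e4, e5, e6, e7, e8, e9, e10, e11]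
  ring

lemma neg1 (a b c d : V) : T (-a) b c d = - T a b c d := by
  have h := add1 a (-a) b c d
  have h0 := add1 0 0 b c d
  rw [add_zero] at h0
  rw [add_neg_cancel] at h
  linarith

lemma polarize4 (hQ : ∀ v, T v v v v = 0) (a b c d : V) : T a b c d = 0 := by
  have n1 := neg1 T add1 s12 s23 s34
  have n2 : ∀ a b c d, T a (-b) c d = - T a b c d := by
    intro a b c d; rw [s12, n1, s12]
  have n3 : ∀ a b c d, T a b (-c) d = - T a b c d := by
    intro a b c d; rw [s23, n2, s23]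
  have n4 : ∀ a b c d, T a b c (-d) = - T a b c d := by
    intro a b c d; rw [s34, n3, s34]
  have step1 : ∀ a b, T a a b b = 0 := by
    intro a b
    have h1 := diag4 T add1 s12 s23 s34 a b
    have h2 := diag4 T add1 s12 s23 s34 a (-b)
    rw [hQ, hQ, hQ] at h1
    rw [hQ, hQ, hQ, n4, n3, n4, n2, n3, n4] at h2
    linarith
  have add2' := add2 T add1 s12 s23 s34
  have add3' := add3 T add1 s12 s23 s34
  have add4' := add4 T add1 s12 s23 s34
  have step2 : ∀ a c b, T a c b b = 0 := by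
    intro a c b
    have h := step1 (a + c) b
    rw [add1, add2', add2', step1, step1, s12 c a] at h
    linarith
  have h := step2 a b (c + d)
  rw [add3', add4', add4', step2, step2, s34 a b d c] at h
  linarith

end four

end abstract

variable {ι : Type*} [Fintype ι] [DecidableEq ι]

/-- homogeneity of degree `k` -/
def IsHom (g : RR ι) (k : ℤ) : Prop := ∀ t : ℝ, ∀ ht : 0 < t, Mt t ht g = (t ^ k : ℝ) • g

lemma IsHom.Dv {g : RR ι} {k : ℤ} (h : IsHom g k) (v : ι → ℝ) : IsHom (Dv v g) (k - 1) := by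
  intro t ht
  rw [Mt_Dv_of_hom t ht _ g (h t ht) v]
  congr 1
  rw [zpow_sub_one₀ ht.ne']
  rfl

/-- Euler's relation from homogeneity, integer exponents -/
lemma euler_zpow {G : (ι → ℝ) → ℝ} {y : ι → ℝ} (hG : DifferentiableAt ℝ G y) (k : ℤ)
    (h : ∀ t : ℝ, 0 < t → G (t • y) = t ^ k * G y) : fderiv ℝ G y y = k * G y := by
  have h1 : HasDerivAt (fun t : ℝ => t • y) y 1 := by
    simpa using (hasDerivAt_id (1 : ℝ)).smul_const y
  have h2 : HasFDerivAt G (fderiv ℝ G y) ((1 : ℝ) • y) := by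
    rw [one_smul]; exact hG.hasFDerivAt
  have h3 : HasDerivAt (fun t : ℝ => G (t • y)) (fderiv ℝ G y y) 1 := h2.comp_hasDerivAt 1 h1
  have h4 : HasDerivAt (fun t : ℝ => t ^ k * G y) (k * G y) 1 := by
    have := (hasDerivAt_zpow k (1 : ℝ) (Or.inl one_ne_zero)).mul_const (G y)
    simpa using this
  have h5 : (fun t : ℝ => G (t • y)) =ᶠ[nhds 1] fun t : ℝ => t ^ k * G y := by
    filter_upwards [lt_mem_nhds (show (0 : ℝ) < 1 by norm_num)] with t ht
    exact h t ht
  exact (h3.congr_of_eventuallyEq h5.symm).unique h4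

/-- The radial derivative at a point -/
lemma rad_Dv {g : RR ι} {k : ℤ} (h : IsHom g k) (x : UU ι) :
    evx x (Dv (x : ι → ℝ) g) = k * evx x g := by
  have hd : DifferentiableAt ℝ (ext0 (g : UU ι → ℝ)) x := Sm.diffAt UU_open g x
  have h1 := euler_zpow hd k (by
    intro t ht
    have := congrArg (fun g' : RR ι => (g' : UU ι → ℝ) x) (h t ht)
    simp only [Mt_apply] at this
    rw [ext0_of_mem _ (smul_mem_UU t ht x.2), ext0_coe, this]
    rfl)
  rw [ext0_coe] at h1
  exact h1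

lemma Dv_neg (v : ι → ℝ) (g : RR ι) : Dv (-v) g = - Dv v g := by
  have h := Dv_smul (-1 : ℝ) v g
  simpa using h

namespace Sys

variable (s : Sys ι)

lemma psiX_isHom : IsHom s.psiX 2 := fun t ht => by
  have := s.psiX_hom t ht
  simpa using this

lemma fY_isHom (α : ι) : IsHom (s.fY α) 1 := by
  intro t ht
  apply Sm.ext'
  intro y
  rw [Mt_apply]
  show s.F (t • (y : ι → ℝ)) α = (t ^ (1 : ℤ)) * s.F y α
  rw [s.F_hom t ht _ y.2, zpow_one]
  rfl

lemma D1_isHom (v : ι → ℝ) (α : ι) : IsHom (Dv v (s.fY α)) 0 := (s.fY_isHom α).Dv v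
lemma D2_isHom (u v : ι → ℝ) (α : ι) : IsHom (Dv u (Dv v (s.fY α))) (-1) :=
  (s.D1_isHom v α).Dv u
lemma D3_isHom (a u v : ι → ℝ) (α : ι) : IsHom (Dv a (Dv u (Dv v (s.fY α)))) (-2) :=
  (s.D2_isHom u v α).Dv a

/-- second order form -/
noncomputable def Zf (a b : ι → ℝ) : RR ι := ∑ α, s.dY α * Dv a (Dv b (s.fY α))

/-- third order form -/
noncomputable def C3f (a b c : ι → ℝ) : RR ι := ∑ α, s.dY α * Dv a (Dv b (Dv c (s.fY α)))

/-- fourth order form -/
noncomputable def C4f (a b c d : ι → ℝ) : RR ι :=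
  ∑ α, s.dY α * Dv a (Dv b (Dv c (Dv d (s.fY α))))

/-- quadratic form in second derivatives -/
noncomputable def Bf (a b c d : ι → ℝ) : RR ι :=
  ∑ γ, ∑ δ, Dv a (Dv b (s.fY γ)) * s.SS γ δ * Dv c (Dv d (s.fY δ))

/-- the full fourth order tensor -/
noncomputable def Kf (a b c d : ι → ℝ) : RR ι :=
  s.psiX * (s.C4f a b c d + s.Bf a b c d + s.Bf a c b d + s.Bf a d b c)
    + (Dv a s.psiX * s.C3f b c d + Dv b s.psiX * s.C3f a c d + Dv c s.psiX * s.C3f a b d
      + Dv d s.psiX * s.C3f a b c)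

lemma SS_symm (β α : ι) : s.SS β α = s.SS α β := by
  simp only [SS]
  rw [Dv_comm]

lemma Zf_add (a a' b : ι → ℝ) : s.Zf (a + a') b = s.Zf a b + s.Zf a' b := by
  simp only [Zf, Dv_add, mul_add, Finset.sum_add_distrib]

lemma Zf_symm (a b : ι → ℝ) : s.Zf a b = s.Zf b a := by
  simp only [Zf]
  refine Finset.sum_congr rfl fun α _ => ?_
  rw [Dv_comm]

lemma Zf_smul (l : ℝ) (a b : ι → ℝ) : s.Zf (l • a) b = l • s.Zf a b := by
  simp only [Zf, Dv_smul, Finset.smul_sum]
  refine Finset.sum_congr rfl fun α _ => ?_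
  rw [mul_smul_comm]

lemma C4f_add (a a' b c d : ι → ℝ) : s.C4f (a + a') b c d = s.C4f a b c d + s.C4f a' b c d := by
  simp only [C4f, Dv_add, mul_add, Finset.sum_add_distrib]

lemma C3f_add1 (a a' b c : ι → ℝ) : s.C3f (a + a') b c = s.C3f a b c + s.C3f a' b c := by
  simp only [C3f, Dv_add, mul_add, Finset.sum_add_distrib]

lemma C3f_add2 (a b b' c : ι → ℝ) : s.C3f a (b + b') c = s.C3f a b c + s.C3f a b' c := by
  simp only [C3f, Dv_add, map_add, mul_add, Finset.sum_add_distrib]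

lemma C3f_add3 (a b c c' : ι → ℝ) : s.C3f a b (c + c') = s.C3f a b c + s.C3f a b c' := by
  simp only [C3f, Dv_add, map_add, mul_add, Finset.sum_add_distrib]

lemma C3f_s12 (a b c : ι → ℝ) : s.C3f a b c = s.C3f b a c := by
  simp only [C3f]
  refine Finset.sum_congr rfl fun α _ => ?_
  rw [Dv_comm]

lemma C3f_s23 (a b c : ι → ℝ) : s.C3f a b c = s.C3f a c b := by
  simp only [C3f]
  refine Finset.sum_congr rfl fun α _ => ?_
  rw [Dv_comm b c]

lemma Bf_add (a a' b c d : ι → ℝ) : s.Bf (a + a') b c d = s.Bf a b c d + s.Bf a' b c d := by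
  simp only [Bf, Dv_add, add_mul, Finset.sum_add_distrib]

lemma Bf_add2 (a b b' c d : ι → ℝ) : s.Bf a (b + b') c d = s.Bf a b c d + s.Bf a b' c d := by
  simp only [Bf, Dv_add, map_add, add_mul, Finset.sum_add_distrib]

lemma Bf_s12 (a b c d : ι → ℝ) : s.Bf a b c d = s.Bf b a c d := by
  simp only [Bf]
  refine Finset.sum_congr rfl fun γ _ => Finset.sum_congr rfl fun δ _ => ?_
  rw [Dv_comm a b]

lemma Bf_s34 (a b c d : ι → ℝ) : s.Bf a b c d = s.Bf a b d c := by
  simp only [Bf]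
  refine Finset.sum_congr rfl fun γ _ => Finset.sum_congr rfl fun δ _ => ?_
  rw [Dv_comm c d]

lemma Bf_pair (a b c d : ι → ℝ) : s.Bf a b c d = s.Bf c d a b := by
  simp only [Bf]
  rw [Finset.sum_comm]
  refine Finset.sum_congr rfl fun γ _ => Finset.sum_congr rfl fun δ _ => ?_
  rw [s.SS_symm δ γ]
  ring

lemma Bf_add3 (a b c c' d : ι → ℝ) : s.Bf a b (c + c') d = s.Bf a b c d + s.Bf a b c' d := by
  rw [s.Bf_pair, s.Bf_add, s.Bf_pair c, s.Bf_pair c']

lemma Bf_add4 (a b c d d' : ι → ℝ) : s.Bf a b c (d + d') = s.Bf a b c d + s.Bf a b c d' := by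
  rw [s.Bf_pair, s.Bf_add2, s.Bf_pair _ _ a b, s.Bf_pair _ _ a b]

lemma C4f_s12 (a b c d : ι → ℝ) : s.C4f a b c d = s.C4f b a c d := by
  simp only [C4f]
  refine Finset.sum_congr rfl fun α _ => ?_
  rw [Dv_comm a b]

lemma C4f_s23 (a b c d : ι → ℝ) : s.C4f a b c d = s.C4f a c b d := by
  simp only [C4f]
  refine Finset.sum_congr rfl fun α _ => ?_
  rw [Dv_comm b c]

lemma C4f_s34 (a b c d : ι → ℝ) : s.C4f a b c d = s.C4f a b d c := by
  simp only [C4f]
  refine Finset.sum_congr rfl fun α _ => ?_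
  rw [Dv_comm c d]

lemma Kf_add (a a' b c d : ι → ℝ) : s.Kf (a + a') b c d = s.Kf a b c d + s.Kf a' b c d := by
  simp only [Kf, s.C4f_add, s.Bf_add, Dv_add, s.C3f_add1]
  ring

lemma Kf_s12 (a b c d : ι → ℝ) : s.Kf a b c d = s.Kf b a c d := by
  simp only [Kf]
  rw [s.C4f_s12 a b, s.Bf_s12 a b, s.Bf_pair b c a d, s.Bf_pair b d a c, s.C3f_s12 a b d,
    s.C3f_s12 a b c]
  ring

lemma Kf_s23 (a b c d : ι → ℝ) : s.Kf a b c d = s.Kf a c b d := by
  simp only [Kf]
  rw [s.C4f_s23 a b c d, s.Bf_s34 a d b c, s.C3f_s12 b c d, s.C3f_s23 a b c]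
  ring

lemma Kf_s34 (a b c d : ι → ℝ) : s.Kf a b c d = s.Kf a b d c := by
  simp only [Kf]
  rw [s.C4f_s34 a b c d, s.Bf_s34 a b c d, s.C3f_s23 b c d, s.C3f_s23 a c d]
  ring

/-- the tangent decomposition of any vector -/
lemma exists_decomp (x : UU ι) (v : ι → ℝ) :
    ∃ (l : ℝ) (w : ι → ℝ), v = l • (x : ι → ℝ) + w ∧ evx x (Dv w s.psiX) = 0 := by
  have hψ : evx x s.psiX ≠ 0 := by
    rw [evx_psiX]
    have := (s.NX_pos x x.2).ne'
    positivity
  refine ⟨evx x (Dv v s.psiX) / (2 * evx x s.psiX), v - (evx x (Dv v s.psiX) / (2 * evx x s.psiX)) • (x : ι → ℝ),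
    by abel, ?_⟩
  have h1 : Dv (v - (evx x (Dv v s.psiX) / (2 * evx x s.psiX)) • (x : ι → ℝ)) s.psiX
      = Dv v s.psiX - (evx x (Dv v s.psiX) / (2 * evx x s.psiX)) • Dv (x : ι → ℝ) s.psiX := by
    rw [sub_eq_add_neg, Dv_add, Dv_neg, Dv_smul, sub_eq_add_neg]
  rw [h1, map_sub]
  have h2 := rad_Dv s.psiX_isHom x
  have h3 : evx x ((evx x (Dv v s.psiX) / (2 * evx x s.psiX)) • Dv (x : ι → ℝ) s.psiX)
      = (evx x (Dv v s.psiX) / (2 * evx x s.psiX)) * evx x (Dv (x : ι → ℝ) s.psiX) := rfl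
  rw [h3, h2]
  field_simp
  push_cast
  ring

lemma evx_Zf (x : UU ι) (a b : ι → ℝ) :
    evx x (s.Zf a b) = ∑ α, evx x (s.dY α) * evx x (Dv a (Dv b (s.fY α))) := by
  simp only [Zf, map_sum, map_mul]

lemma Zf_rad (x : UU ι) (b : ι → ℝ) : evx x (s.Zf (x : ι → ℝ) b) = 0 := by
  rw [evx_Zf]
  refine Finset.sum_eq_zero fun α _ => ?_
  rw [rad_Dv (s.D1_isHom b α) x]
  simp

/-- The second order relation for all directions. -/
theorem Zf_eq_zero (a b : ι → ℝ) : s.Zf a b = 0 := by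
  apply Sm.eq_of_ev
  intro x
  rw [map_zero]
  refine polarize2 (fun a b => evx x (s.Zf a b)) ?_ ?_ ?_ a b
  · intro a a' b
    simp only [Zf_add, map_add]
  · intro a b
    simp only [Zf_symm s a b]
  · intro v
    obtain ⟨l, w, rfl, hw⟩ := s.exists_decomp x v
    have hT := (s.tangent_rel x w hw).1
    have add1 : ∀ a a' b, evx x (s.Zf (a + a') b) = evx x (s.Zf a b) + evx x (s.Zf a' b) := by
      intro a a' b
      simp only [Zf_add, map_add]
    have hs : ∀ a b, evx x (s.Zf a b) = evx x (s.Zf b a) := by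
      intro a b
      simp only [Zf_symm s a b]
    have hrad : ∀ b, evx x (s.Zf (l • (x : ι → ℝ)) b) = 0 := by
      intro b
      rw [Zf_smul]
      show l * evx x (s.Zf _ b) = 0
      rw [s.Zf_rad, mul_zero]
    show evx x (s.Zf (l • (x : ι → ℝ) + w) (l • (x : ι → ℝ) + w)) = 0
    rw [diag2 (fun a b => evx x (s.Zf a b)) add1 hs]
    simp only [hrad]
    rw [evx_Zf]
    simpa using hT

lemma evx_C3f (x : UU ι) (a b c : ι → ℝ) :
    evx x (s.C3f a b c) = ∑ α, evx x (s.dY α) * evx x (Dv a (Dv b (Dv c (s.fY α)))) := by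
  simp only [C3f, map_sum, map_mul]

lemma evx_C4f (x : UU ι) (a b c d : ι → ℝ) :
    evx x (s.C4f a b c d) = ∑ α, evx x (s.dY α) * evx x (Dv a (Dv b (Dv c (Dv d (s.fY α))))) := by
  simp only [C4f, map_sum, map_mul]

lemma evx_Bf (x : UU ι) (a b c d : ι → ℝ) :
    evx x (s.Bf a b c d) = ∑ γ, ∑ δ, evx x (Dv a (Dv b (s.fY γ))) * evx x (s.SS γ δ)
      * evx x (Dv c (Dv d (s.fY δ))) := by
  simp only [Bf, map_sum, map_mul]

lemma C4f_rad (x : UU ι) (b c d : ι → ℝ) :
    evx x (s.C4f (x : ι → ℝ) b c d) = - 2 * evx x (s.C3f b c d) := by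
  rw [evx_C4f, evx_C3f, Finset.mul_sum]
  refine Finset.sum_congr rfl fun α _ => ?_
  rw [rad_Dv (s.D3_isHom b c d α) x]
  push_cast
  ring

lemma C3f_rad (x : UU ι) (c d : ι → ℝ) :
    evx x (s.C3f (x : ι → ℝ) c d) = 0 := by
  have h := congrArg (evx x) (s.Zf_eq_zero c d)
  rw [map_zero, evx_Zf] at h
  rw [evx_C3f]
  have : ∑ α, evx x (s.dY α) * evx x (Dv (x : ι → ℝ) (Dv c (Dv d (s.fY α))))
      = - ∑ α, evx x (s.dY α) * evx x (Dv c (Dv d (s.fY α))) := by
    rw [← Finset.sum_neg_distrib]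
    refine Finset.sum_congr rfl fun α _ => ?_
    rw [rad_Dv (s.D2_isHom c d α) x]
    push_cast
    ring
  rw [this, h, neg_zero]

lemma Bf_rad (x : UU ι) (b c d : ι → ℝ) : evx x (s.Bf (x : ι → ℝ) b c d) = 0 := by
  rw [evx_Bf]
  refine Finset.sum_eq_zero fun γ _ => Finset.sum_eq_zero fun δ _ => ?_
  rw [rad_Dv (s.D1_isHom b γ) x]
  simp

lemma Kf_rad (x : UU ι) (b c d : ι → ℝ) : evx x (s.Kf (x : ι → ℝ) b c d) = 0 := by
  simp only [Kf, map_add, map_mul]
  rw [s.C4f_rad, s.Bf_rad, s.Bf_rad, s.Bf_rad, s.C3f_rad, s.C3f_rad, s.C3f_rad,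
    rad_Dv s.psiX_isHom x]
  push_cast
  ring

lemma Kf_smul (l : ℝ) (a b c d : ι → ℝ) : s.Kf (l • a) b c d = l • s.Kf a b c d := by
  have e1 : s.C4f (l • a) b c d = l • s.C4f a b c d := by
    simp only [C4f, Dv_smul, Finset.smul_sum]
    refine Finset.sum_congr rfl fun α _ => ?_
    rw [mul_smul_comm]
  have e2 : ∀ b c d, s.Bf (l • a) b c d = l • s.Bf a b c d := by
    intro b c d
    simp only [Bf, Dv_smul, Finset.smul_sum]
    refine Finset.sum_congr rfl fun γ _ => Finset.sum_congr rfl fun δ _ => ?_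
    rw [smul_mul_assoc, smul_mul_assoc]
  have e3 : ∀ b c, s.C3f (l • a) b c = l • s.C3f a b c := by
    intro b c
    simp only [C3f, Dv_smul, Finset.smul_sum]
    refine Finset.sum_congr rfl fun α _ => ?_
    rw [mul_smul_comm]
  simp only [Kf, e1, e2, e3, Dv_smul, smul_add, smul_mul_assoc, mul_smul_comm, mul_add]

lemma evx_smul (x : UU ι) (l : ℝ) (g : RR ι) : evx x (l • g) = l * evx x g := rfl

/-- The fourth order relation for all directions. -/
theorem Kf_eq_zero (a b c d : ι → ℝ) : s.Kf a b c d = 0 := by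
  apply Sm.eq_of_ev
  intro x
  rw [map_zero]
  have add1 : ∀ a a' b c d, evx x (s.Kf (a + a') b c d)
      = evx x (s.Kf a b c d) + evx x (s.Kf a' b c d) := by
    intro a a' b c d
    simp only [Kf_add, map_add]
  have h12 : ∀ a b c d, evx x (s.Kf a b c d) = evx x (s.Kf b a c d) := by
    intro a b c d
    rw [s.Kf_s12]
  have h23 : ∀ a b c d, evx x (s.Kf a b c d) = evx x (s.Kf a c b d) := by
    intro a b c d
    rw [s.Kf_s23]
  have h34 : ∀ a b c d, evx x (s.Kf a b c d) = evx x (s.Kf a b d c) := by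
    intro a b c d
    rw [s.Kf_s34]
  refine polarize4 (fun a b c d => evx x (s.Kf a b c d)) add1 h12 h23 h34 ?_ a b c d
  intro v
  obtain ⟨l, w, rfl, hw⟩ := s.exists_decomp x v
  have hT := (s.tangent_rel x w hw).2
  have hrad : ∀ b c d, evx x (s.Kf (l • (x : ι → ℝ)) b c d) = 0 := by
    intro b c d
    rw [Kf_smul, evx_smul, s.Kf_rad, mul_zero]
  show evx x (s.Kf (l • (x : ι → ℝ) + w) (l • (x : ι → ℝ) + w) (l • (x : ι → ℝ) + w) (l • (x : ι → ℝ) + w)) = 0
  rw [diag4 (fun a b c d => evx x (s.Kf a b c d)) add1 h12 h23 h34]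
  simp only [hrad]
  simp only [Kf, map_add, map_mul, hw, zero_mul, add_zero, s.evx_C4f, s.evx_Bf]
  have e : ∑ γ, ∑ δ, evx x (Dv w (Dv w (s.fY γ))) * evx x (s.SS γ δ) * evx x (Dv w (Dv w (s.fY δ)))
      = ∑ α, ∑ β, evx x (s.SS β α) * evx x (Dv w (Dv w (s.fY α))) * evx x (Dv w (Dv w (s.fY β))) := by
    rw [Finset.sum_comm]
    refine Finset.sum_congr rfl fun γ _ => Finset.sum_congr rfl fun δ _ => ?_
    rw [s.SS_symm δ γ]
    ring
  rw [e]
  have : ∑ α, evx x (s.dY α) * evx x (Dv w (Dv w (Dv w (Dv w (s.fY α)))))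
      = - (3 * ∑ α, ∑ β, evx x (s.SS β α) * evx x (Dv w (Dv w (s.fY α)))
          * evx x (Dv w (Dv w (s.fY β)))) := by linarith
  rw [this]
  ring

end Sys

end Vale.Agent.P084
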