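import Mathlib

/-!
The algebra of smooth functions on an open subset of a normed space, its directional derivations
and pullbacks.
-/

set_option linter.unusedSectionVars false
set_option linter.unusedVariables false

open scoped ContDiff

namespace Vale.Agent.P084

variable {E : Type*} [NormedAddCommGroup E] [NormedSpace ℝ E]

/-- Extension by zero of a function on a subset. -/
noncomputable def ext0 {U : Set E} (g : U → ℝ) : E → ℝ := by
  classical
  exact fun x => if h : x ∈ U then g ⟨x, h⟩ else 0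

lemma ext0_coe {U : Set E} (g : U → ℝ) (x : U) : ext0 g x = g x := by
  classical
  simp [ext0, x.2]

lemma ext0_of_mem {U : Set E} (g : U → ℝ) {x : E} (h : x ∈ U) : ext0 g x = g ⟨x, h⟩ := by
  classical
  simp [ext0, h]

/-- The algebra of smooth functions on `U`. -/
noncomputable def Sm (U : Set E) : Subalgebra ℝ (U → ℝ) where
  carrier := {g | ContDiffOn ℝ ∞ (ext0 g) U}
  mul_mem' := by
    intro a b ha hb
    refine (ContDiffOn.mul ha hb).congr ?_
    intro x hx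
    simp [ext0_of_mem _ hx]
  add_mem' := by
    intro a b ha hb
    refine (ContDiffOn.add ha hb).congr ?_
    intro x hx
    simp [ext0_of_mem _ hx]
  algebraMap_mem' := by
    intro r
    refine (contDiffOn_const (c := r)).congr ?_
    intro x hx
    simp [ext0_of_mem _ hx]

variable {U : Set E}

/-- constructor from a smooth function on the whole space -/
noncomputable def Sm.mk (G : E → ℝ) (hG : ContDiffOn ℝ ∞ G U) : Sm U :=
  ⟨fun x => G x, by
    show ContDiffOn ℝ ∞ (ext0 _) U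
    refine hG.congr ?_
    intro x hx
    simp [ext0_of_mem _ hx]⟩

@[simp] lemma Sm.mk_apply (G : E → ℝ) (hG : ContDiffOn ℝ ∞ G U) (x : U) :
    (Sm.mk G hG : U → ℝ) x = G x := rfl

lemma Sm.smooth (g : Sm U) : ContDiffOn ℝ ∞ (ext0 (g : U → ℝ)) U := g.2

@[ext] lemma Sm.ext' {g h : Sm U} (H : ∀ x : U, (g : U → ℝ) x = (h : U → ℝ) x) : g = h :=
  Subtype.ext (funext H)

/-- evaluation at a point -/
noncomputable def Sm.ev (x : U) : Sm U →+* ℝ :=
  { toFun := fun g => (g : U → ℝ) x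
    map_one' := rfl
    map_mul' := fun _ _ => rfl
    map_zero' := rfl
    map_add' := fun _ _ => rfl }

@[simp] lemma Sm.ev_apply (x : U) (g : Sm U) : Sm.ev x g = (g : U → ℝ) x := rfl

lemma Sm.eq_of_ev {g h : Sm U} (H : ∀ x : U, Sm.ev x g = Sm.ev x h) : g = h :=
  Sm.ext' H

section deriv

variable (hU : IsOpen U)
include hU

lemma Sm.diffAt (g : Sm U) (x : U) : DifferentiableAt ℝ (ext0 (g : U → ℝ)) x :=
  (((Sm.smooth g).contDiffAt (hU.mem_nhds x.2)).differentiableAt (by simp))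

lemma Sm.contDiffAt (g : Sm U) {x : E} (hx : x ∈ U) : ContDiffAt ℝ ∞ (ext0 (g : U → ℝ)) x :=
  (Sm.smooth g).contDiffAt (hU.mem_nhds hx)

lemma fderiv_apply_smooth {G : E → ℝ} (hG : ContDiffOn ℝ ∞ G U) (v : E) :
    ContDiffOn ℝ ∞ (fun x => fderiv ℝ G x v) U := by
  have h1 : ContDiffOn ℝ ∞ (fderiv ℝ G) U := hG.fderiv_of_isOpen hU (by simp)
  exact h1.clm_apply contDiffOn_const

/-- The directional derivative along `v`, as an element of the algebra. -/
noncomputable def Sm.dvFun (g : Sm U) (v : E) : Sm U :=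
  Sm.mk (fun x => fderiv ℝ (ext0 (g : U → ℝ)) x v) (fderiv_apply_smooth hU (Sm.smooth g) v)

lemma Sm.dvFun_apply (g : Sm U) (v : E) (x : U) :
    ((Sm.dvFun hU g v : Sm U) : U → ℝ) x = fderiv ℝ (ext0 (g : U → ℝ)) x v := rfl

/-- `ext0` of a sum etc. -/
lemma ext0_eventually (g : Sm U) {G : E → ℝ} (h : ∀ x : U, G x = (g : U → ℝ) x) {x : E} (hx : x ∈ U) :
    ext0 (g : U → ℝ) =ᶠ[nhds x] G := by
  filter_upwards [hU.mem_nhds hx] with y hy
  rw [ext0_of_mem _ hy, h ⟨y, hy⟩]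

lemma Sm.fderiv_eq (g : Sm U) {G : E → ℝ} (h : ∀ x : U, G x = (g : U → ℝ) x) {x : E} (hx : x ∈ U) :
    fderiv ℝ (ext0 (g : U → ℝ)) x = fderiv ℝ G x :=
  (ext0_eventually hU g h hx).fderiv_eq

/-- The derivation along `v`. -/
noncomputable def Sm.D (v : E) : Derivation ℝ (Sm U) (Sm U) :=
  Derivation.mk'
    { toFun := fun g => Sm.dvFun hU g v
      map_add' := by
        intro a b
        apply Sm.ext'
        intro x
        have e : fderiv ℝ (ext0 (((a + b : Sm U)) : U → ℝ)) x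
            = fderiv ℝ (fun y => ext0 (a : U → ℝ) y + ext0 (b : U → ℝ) y) x :=
          Sm.fderiv_eq hU (a + b) (fun x => by simp [ext0_coe]) x.2
        show fderiv ℝ (ext0 (((a + b : Sm U)) : U → ℝ)) x v = fderiv ℝ (ext0 (a : U → ℝ)) x v + fderiv ℝ (ext0 (b : U → ℝ)) x v
        rw [e, fderiv_fun_add (Sm.diffAt hU a x) (Sm.diffAt hU b x)]
        rfl
      map_smul' := by
        intro c a
        apply Sm.ext'
        intro x
        have e : fderiv ℝ (ext0 (((c • a : Sm U)) : U → ℝ)) x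
            = fderiv ℝ (fun y => c • ext0 (a : U → ℝ) y) x :=
          Sm.fderiv_eq hU (c • a) (fun x => by simp [ext0_coe]) x.2
        show fderiv ℝ (ext0 (((c • a : Sm U)) : U → ℝ)) x v = c • fderiv ℝ (ext0 (a : U → ℝ)) x v
        rw [e, fderiv_fun_const_smul (Sm.diffAt hU a x)]
        rfl }
    (by
      intro a b
      apply Sm.ext'
      intro x
      have e : fderiv ℝ (ext0 (((a * b : Sm U)) : U → ℝ)) x
          = fderiv ℝ (fun y => ext0 (a : U → ℝ) y * ext0 (b : U → ℝ) y) x :=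
        Sm.fderiv_eq hU (a * b) (fun x => by simp [ext0_coe]) x.2
      show fderiv ℝ (ext0 (((a * b : Sm U)) : U → ℝ)) x v
        = (a : U → ℝ) x * fderiv ℝ (ext0 (b : U → ℝ)) x v + (b : U → ℝ) x * fderiv ℝ (ext0 (a : U → ℝ)) x v
      rw [e, fderiv_fun_mul (Sm.diffAt hU a x) (Sm.diffAt hU b x)]
      simp [ext0_coe])

lemma Sm.D_apply (v : E) (g : Sm U) (x : U) :
    ((Sm.D hU v g : Sm U) : U → ℝ) x = fderiv ℝ (ext0 (g : U → ℝ)) x v := rfl

lemma Sm.D_mk (v : E) {G : E → ℝ} (hG : ContDiffOn ℝ ∞ G U) (x : U) :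
    ((Sm.D hU v (Sm.mk G hG) : Sm U) : U → ℝ) x = fderiv ℝ G x v := by
  rw [Sm.D_apply, Sm.fderiv_eq hU (Sm.mk G hG) (G := G) (fun _ => rfl) x.2]

lemma Sm.D_add_vec (v w : E) (g : Sm U) : Sm.D hU (v + w) g = Sm.D hU v g + Sm.D hU w g := by
  apply Sm.ext'
  intro x
  show fderiv ℝ (ext0 (g : U → ℝ)) x (v + w) = fderiv ℝ (ext0 (g : U → ℝ)) x v + fderiv ℝ (ext0 (g : U → ℝ)) x w
  rw [map_add]

lemma Sm.D_smul_vec (c : ℝ) (v : E) (g : Sm U) : Sm.D hU (c • v) g = c • Sm.D hU v g := by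
  apply Sm.ext'
  intro x
  show fderiv ℝ (ext0 (g : U → ℝ)) x (c • v) = c • fderiv ℝ (ext0 (g : U → ℝ)) x v
  rw [map_smul]

lemma Sm.D_sum_vec {κ : Type*} (s : Finset κ) (c : κ → ℝ) (v : κ → E) (g : Sm U) :
    Sm.D hU (∑ k ∈ s, c k • v k) g = ∑ k ∈ s, c k • Sm.D hU (v k) g := by
  apply Sm.ext'
  intro x
  show fderiv ℝ (ext0 (g : U → ℝ)) x (∑ k ∈ s, c k • v k) = _
  rw [map_sum]
  have : ((∑ k ∈ s, c k • Sm.D hU (v k) g : Sm U) : U → ℝ) x
      = ∑ k ∈ s, c k • ((Sm.D hU (v k) g : Sm U) : U → ℝ) x := by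
    have := map_sum (Sm.ev x) (fun k => c k • Sm.D hU (v k) g) s
    simp only [Sm.ev_apply] at this
    exact this
  rw [this]
  refine Finset.sum_congr rfl fun k _ => ?_
  rw [map_smul]
  rfl

/-- Commutation of directional derivatives -/
lemma Sm.D_comm (v w : E) (g : Sm U) : Sm.D hU v (Sm.D hU w g) = Sm.D hU w (Sm.D hU v g) := by
  apply Sm.ext'
  intro x
  have hcd := Sm.contDiffAt hU g x.2
  have hsymm : IsSymmSndFDerivAt ℝ (ext0 (g : U → ℝ)) x :=
    hcd.isSymmSndFDerivAt (by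
      rw [minSmoothness_of_isRCLikeNormedField]
      exact ENat.LEInfty.out)
  have hdiff : DifferentiableAt ℝ (fderiv ℝ (ext0 (g : U → ℝ))) x :=
    (hcd.fderiv_right (m := ∞) (by simp)).differentiableAt (by simp)
  have hv : ∀ u : E, fderiv ℝ (fun y => fderiv ℝ (ext0 (g : U → ℝ)) y u) x
      = (fderiv ℝ (fderiv ℝ (ext0 (g : U → ℝ))) x).flip u := by
    intro u
    have := (hdiff.hasFDerivAt.clm_apply (hasFDerivAt_const u (x : E))).fderiv
    rw [this]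
    ext z
    simp
  rw [Sm.D_apply, Sm.D_apply]
  have e1 : ∀ u, fderiv ℝ (ext0 ((Sm.D hU u g : Sm U) : U → ℝ)) x
      = fderiv ℝ (fun y => fderiv ℝ (ext0 (g : U → ℝ)) y u) x := by
    intro u
    exact Sm.fderiv_eq hU (Sm.D hU u g) (fun _ => rfl) x.2
  rw [e1, e1, hv, hv]
  simpa using hsymm v w

end deriv

section pull

variable {E' : Type*} [NormedAddCommGroup E'] [NormedSpace ℝ E'] {U' : Set E'}

/-- Pullback along a smooth map. -/
noncomputable def Sm.pull (Φ : E' → E) (hΦ : ContDiffOn ℝ ∞ Φ U') (hm : Set.MapsTo Φ U' U) :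
    Sm U →+* Sm U' where
  toFun g := Sm.mk (fun t => ext0 (g : U → ℝ) (Φ t)) ((Sm.smooth g).comp hΦ hm)
  map_one' := by
    apply Sm.ext'
    intro x
    simp [ext0_of_mem _ (hm x.2)]
  map_mul' a b := by
    apply Sm.ext'
    intro x
    simp [ext0_of_mem _ (hm x.2)]
  map_zero' := by
    apply Sm.ext'
    intro x
    simp [ext0_of_mem _ (hm x.2)]
  map_add' a b := by
    apply Sm.ext'
    intro x
    simp [ext0_of_mem _ (hm x.2)]

lemma Sm.pull_apply (Φ : E' → E) (hΦ : ContDiffOn ℝ ∞ Φ U') (hm : Set.MapsTo Φ U' U)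
    (g : Sm U) (x : U') : ((Sm.pull Φ hΦ hm g : Sm U') : U' → ℝ) x = (g : U → ℝ) ⟨Φ x, hm x.2⟩ := by
  show ext0 (g : U → ℝ) (Φ x) = _
  rw [ext0_of_mem _ (hm x.2)]

lemma Sm.pull_mk (Φ : E' → E) (hΦ : ContDiffOn ℝ ∞ Φ U') (hm : Set.MapsTo Φ U' U)
    (G : E → ℝ) (hG : ContDiffOn ℝ ∞ G U) (x : U') :
    ((Sm.pull Φ hΦ hm (Sm.mk G hG) : Sm U') : U' → ℝ) x = G (Φ x) := by
  rw [Sm.pull_apply]; rfl

/-- coordinate function -/
noncomputable def Sm.coord {ι : Type*} [Fintype ι] (Φ : E' → (ι → ℝ)) (hΦ : ContDiffOn ℝ ∞ Φ U')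
    (α : ι) : Sm U' :=
  Sm.mk (fun t => Φ t α) (by
    have := (contDiffOn_pi.mp hΦ) α
    exact this)

/-- abstract chain rule for a vector `u` -/
lemma Sm.D_pull_apply (hU : IsOpen U) (hU' : IsOpen U') (Φ : E' → E) (hΦ : ContDiffOn ℝ ∞ Φ U')
    (hm : Set.MapsTo Φ U' U) (v : E') (g : Sm U) (x : U') :
    ((Sm.D hU' v (Sm.pull Φ hΦ hm g) : Sm U') : U' → ℝ) x
      = fderiv ℝ (ext0 (g : U → ℝ)) (Φ x) (fderiv ℝ Φ x v) := by
  have e : fderiv ℝ (ext0 ((Sm.pull Φ hΦ hm g : Sm U') : U' → ℝ)) x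
      = fderiv ℝ (fun t => ext0 (g : U → ℝ) (Φ t)) x :=
    Sm.fderiv_eq hU' (Sm.pull Φ hΦ hm g) (fun _ => rfl) x.2
  rw [Sm.D_apply, e]
  have hd1 : DifferentiableAt ℝ (ext0 (g : U → ℝ)) (Φ x) :=
    ((Sm.contDiffAt hU g (hm x.2)).differentiableAt (by simp))
  have hd2 : DifferentiableAt ℝ Φ x :=
    ((hΦ.contDiffAt (hU'.mem_nhds x.2)).differentiableAt (by simp))
  have := (hd1.hasFDerivAt.comp (x : E') hd2.hasFDerivAt).fderiv
  have h3 : (fun t => ext0 (g : U → ℝ) (Φ t)) = (ext0 (g : U → ℝ)) ∘ Φ := rfl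
  rw [h3, this]
  rfl

/-- Chain rule with coordinates on the target -/
lemma Sm.D_pull {ι : Type*} [Fintype ι] [DecidableEq ι] {W : Set (ι → ℝ)} (hW : IsOpen W)
    (hU' : IsOpen U') (Φ : E' → (ι → ℝ)) (hΦ : ContDiffOn ℝ ∞ Φ U')
    (hm : Set.MapsTo Φ U' W) (v : E') (g : Sm W) :
    Sm.D hU' v (Sm.pull Φ hΦ hm g)
      = ∑ α, Sm.pull Φ hΦ hm (Sm.D hW (Pi.single α 1) g) * Sm.D hU' v (Sm.coord Φ hΦ α) := by
  apply Sm.ext'
  intro x
  rw [Sm.D_pull_apply hW hU']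
  have hsum : ((∑ α, Sm.pull Φ hΦ hm (Sm.D hW (Pi.single α 1) g) * Sm.D hU' v (Sm.coord Φ hΦ α) : Sm U') : U' → ℝ) x
      = ∑ α, ((Sm.pull Φ hΦ hm (Sm.D hW (Pi.single α 1) g) : Sm U') : U' → ℝ) x
          * ((Sm.D hU' v (Sm.coord Φ hΦ α) : Sm U') : U' → ℝ) x := by
    have := map_sum (Sm.ev x) (fun α => Sm.pull Φ hΦ hm (Sm.D hW (Pi.single α 1) g) * Sm.D hU' v (Sm.coord Φ hΦ α)) Finset.univ
    simp only [Sm.ev_apply, map_mul] at this
    simpa using this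
  rw [hsum]
  have hd2 : DifferentiableAt ℝ Φ x :=
    ((hΦ.contDiffAt (hU'.mem_nhds x.2)).differentiableAt (by simp))
  have hcoord : ∀ α, ((Sm.D hU' v (Sm.coord Φ hΦ α) : Sm U') : U' → ℝ) x = fderiv ℝ Φ x v α := by
    intro α
    rw [Sm.coord, Sm.D_mk hU']
    have := fderiv_apply hd2 α
    rw [this]
    rfl
  simp only [hcoord, Sm.pull_apply]
  set L := fderiv ℝ (ext0 (g : W → ℝ)) (Φ x) with hL
  have hdec : fderiv ℝ Φ x v = ∑ α, (fderiv ℝ Φ x v α) • (Pi.single α (1 : ℝ) : ι → ℝ) := by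
    ext β
    simp [Finset.sum_apply, Pi.single_apply]
  have h1 : L (fderiv ℝ Φ x v) = ∑ α, fderiv ℝ Φ x v α * L (Pi.single α 1) := by
    conv_lhs => rw [hdec, map_sum]
    refine Finset.sum_congr rfl fun α _ => ?_
    rw [map_smul, smul_eq_mul]
  rw [h1]
  refine Finset.sum_congr rfl fun α _ => ?_
  have h2 : ((Sm.D hW (Pi.single α 1) g : Sm W) : W → ℝ) ⟨Φ x, hm x.2⟩ = L (Pi.single α 1) := rfl
  rw [h2]
  ring

end pull

end Vale.Agent.P084
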