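import Vale.Agent.P084.Build
import Vale.Agent.P084.Hopf

/-!
The Jacobian determinant is constant, so the trace of the connection vanishes in all frames.
-/

set_option linter.unusedSectionVars false
set_option linter.unusedVariables false

open scoped ContDiff
open Matrix

namespace Vale.Agent.P084

variable {ι : Type*} [Fintype ι] [DecidableEq ι]

/-- The sphere used for compactness -/
lemma exists_max_of_hom0 [Nonempty ι] (g : RR ι) (hg : IsHom g 0) :
    ∃ x₀ : UU ι, ∀ x : UU ι, evx x g ≤ evx x₀ g := by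
  set S : Set (ι → ℝ) := {z | dd z 0 = 1} with hS
  have hS1 : S ⊆ {z | dd z 0 ≤ 1} := fun z hz => le_of_eq hz
  have hSc : IsCompact S :=
    (isCompact_ball 0 1).of_isClosed_subset (isClosed_eq (dd_continuous 0) continuous_const) hS1
  have hSU : S ⊆ UU ι := by
    intro z hz h0
    simp only [Set.mem_singleton_iff] at h0
    have hz' : dd z 0 = 1 := hz
    rw [h0, dd_self] at hz'
    exact zero_ne_one hz'
  have hnorm : ∀ x : UU ι, ∃ t : ℝ, 0 < t ∧ (1 / t) • (x : ι → ℝ) ∈ S := by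
    intro x
    have hpos : 0 < dd (x : ι → ℝ) 0 := dd_pos x.2
    refine ⟨Real.sqrt (dd (x : ι → ℝ) 0), Real.sqrt_pos.mpr hpos, ?_⟩
    show dd ((1 / Real.sqrt (dd (x : ι → ℝ) 0)) • (x : ι → ℝ)) 0 = 1
    have h2 : ∀ (t : ℝ) (z : ι → ℝ), dd (t • z) 0 = t ^ 2 * dd z 0 := by
      intro t z
      simp only [dd, Pi.smul_apply, smul_eq_mul, Pi.zero_apply, sub_zero, Finset.mul_sum]
      refine Finset.sum_congr rfl fun k _ => ?_
      ring
    rw [h2, div_pow, Real.sq_sqrt hpos.le]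
    field_simp
  have hne : S.Nonempty := by
    have hx0 : (Pi.single (Classical.arbitrary ι) 1 : ι → ℝ) ≠ 0 := by
      simp
    obtain ⟨t, ht, hts⟩ := hnorm ⟨_, hx0⟩
    exact ⟨_, hts⟩
  obtain ⟨x₀, hx₀S, hmax⟩ := hSc.exists_isMaxOn hne ((val_cont g).mono hSU)
  refine ⟨⟨x₀, hSU hx₀S⟩, ?_⟩
  intro x
  obtain ⟨t, ht, hts⟩ := hnorm x
  have h1 : val g ((1 / t) • (x : ι → ℝ)) ≤ val g x₀ := hmax hts
  have hinv : 0 < 1 / t := one_div_pos.mpr ht
  have h2 : evx x (Mt (1 / t) hinv g) = val g ((1 / t) • (x : ι → ℝ)) := by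
    rw [val_mem _ (hSU hts)]
    exact Mt_apply _ hinv g x
  rw [hg (1 / t) hinv] at h2
  rw [val_mem _ (hSU hx₀S)] at h1
  rw [← h2, Sys.evx_smul] at h1
  simpa using h1

lemma vv_one (i : ι) : vv (1 : Matrix ι ι ℝ) i = ee i := by
  ext β
  simp [vv, Matrix.one_apply, Pi.single_apply]

namespace Sys

variable (s : Sys ι) (hpd : ∀ (x : UU ι) (v : ι → ℝ), v ≠ 0 → 0 < evx x (Dv v (Dv v s.psiX)))
  (L Li : Matrix ι ι ℝ) (hL : Li * L = 1)

/-- Positivity of the inverse Hessian -/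
lemma Gi_quad_pos (x : UU ι) (c : ι → ℝ) (hc : c ≠ 0) :
    0 < ∑ i, ∑ k, evx x ((s.dat hpd L Li hL).Gi i k) * (c i * c k) := by
  set d := s.dat hpd L Li hL with hd
  set M : Matrix ι ι ℝ := evM (evx x) d.G with hM
  set N : Matrix ι ι ℝ := evM (evx x) d.Gi with hN
  have hMN : M * N = 1 := by
    rw [hM, hN, ← evM_mul, d.G_Gi, evM_one]
  have hNM : N * M = 1 := mul_eq_one_comm.mp hMN
  set e : ι → ℝ := N *ᵥ c with he
  have hce : M *ᵥ e = c := by
    rw [he, Matrix.mulVec_mulVec, hMN, Matrix.one_mulVec]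
  have hene : e ≠ 0 := by
    intro h0
    apply hc
    rw [← hce, h0, Matrix.mulVec_zero]
  have h1 := s.Gm_quad_pos hpd L Li hL x e hene
  have h2 : ∑ i, ∑ k, evx x (d.Gi i k) * (c i * c k) = c ⬝ᵥ e := by
    simp only [dotProduct, he, Matrix.mulVec, Finset.mul_sum]
    refine Finset.sum_congr rfl fun i _ => Finset.sum_congr rfl fun k _ => ?_
    simp only [hN, evM_apply]
    ring
  have h3 : c ⬝ᵥ e = ∑ i, ∑ j, e i * e j * evx x (Dv (vv L i) (Dv (vv L j) s.psiX)) := by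
    rw [← hce]
    simp only [dotProduct, Matrix.mulVec, Finset.sum_mul]
    refine Finset.sum_congr rfl fun i _ => Finset.sum_congr rfl fun j _ => ?_
    show evx x (Dv (vv L i) (Dv (vv L j) s.psiX)) * e j * e i = _
    ring
  rw [h2, h3]
  exact h1

/-- nonnegativity of the inverse Hessian form -/
lemma Gi_quad_nonneg (x : UU ι) (c : ι → ℝ) :
    0 ≤ ∑ i, ∑ k, evx x ((s.dat hpd L Li hL).Gi i k) * (c i * c k) := by
  by_cases hc : c = 0
  · simp [hc]
  · exact (s.Gi_quad_pos hpd L Li hL x c hc).le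

/-- The reference frame -/
noncomputable abbrev d0 : Data ι (RR ι) := s.dat hpd 1 1 (one_mul 1)

lemma d0_D (i : ι) : (s.d0 hpd).D i = Dv (ee i) := by
  show Dv (vv (1 : Matrix ι ι ℝ) i) = Dv (ee i)
  rw [vv_one]

/-- Homogeneity of ring-hom images -/
lemma IsHom.det_zero (M : Matrix ι ι (RR ι)) (hM : ∀ i j, IsHom (M i j) 0) : IsHom M.det 0 := by
  intro t ht
  have h1 := RingHom.map_det (Mt t ht) M
  have h2 : (Mt t ht).mapMatrix M = M := by
    ext1 i j
    show Mt t ht (M i j) = M i j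
    rw [hM i j t ht]
    simp
  rw [h1, h2]
  simp

lemma IsHom.pow_zero (g : RR ι) (hg : IsHom g 0) (n : ℕ) : IsHom (g ^ n) 0 := by
  intro t ht
  rw [map_pow, hg t ht]
  simp

lemma P_hom (α i : ι) : IsHom ((s.dat hpd L Li hL).P α i) 0 := s.D1_isHom _ α

lemma h_hom : IsHom (s.dat hpd L Li hL).h 0 :=
  IsHom.pow_zero _ (IsHom.det_zero _ (s.P_hom hpd L Li hL)) 2

/-- `h` is the square of a unit -/
lemma h_unit : ∃ hi : RR ι, (s.dat hpd L Li hL).h * hi = 1 := by
  set d := s.dat hpd L Li hL with hd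
  have h1 : d.P.det * d.Pi.det = 1 := by
    rw [← Matrix.det_mul, d.P_Pi, Matrix.det_one]
  refine ⟨d.Pi.det ^ 2, ?_⟩
  rw [Data.h, ← mul_pow, h1, one_pow]

lemma h_pos (x : UU ι) : 0 < evx x (s.dat hpd L Li hL).h := by
  obtain ⟨hi, hh⟩ := s.h_unit hpd L Li hL
  have h1 := congrArg (evx x) hh
  rw [map_mul, map_one] at h1
  have h2 : evx x (s.dat hpd L Li hL).h ≠ 0 := left_ne_zero_of_mul_eq_one h1
  have h3 : 0 ≤ evx x (s.dat hpd L Li hL).h := by
    rw [Data.h, map_pow]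
    positivity
  exact lt_of_le_of_ne h3 h2.symm

/-- The Jacobian determinant squared is constant. -/
theorem h0_const (hι : 1 < Fintype.card ι) (x₀ : UU ι)
    (hmax : ∀ x : UU ι, evx x (s.d0 hpd).h ≤ evx x₀ (s.d0 hpd).h) (x : UU ι) :
    evx x (s.d0 hpd).h = evx x₀ (s.d0 hpd).h := by
  set d := s.d0 hpd with hd
  set a : ι → ι → RR ι := fun i k => 2 * d.Gi i k with ha
  refine strong_max a d.bh ?_ ?_ hι d.h ?_ x₀ hmax x
  · intro i k
    simp only [ha]
    rw [d.Gi_symm]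
  · intro z c hc
    have h1 := s.Gi_quad_pos hpd 1 1 (one_mul 1) z c hc
    have e : ∑ i, ∑ k, evx z (a i k) * (c i * c k)
        = 2 * ∑ i, ∑ k, evx z (d.Gi i k) * (c i * c k) := by
      simp only [ha, map_mul, map_ofNat, Finset.mul_sum]
      refine Finset.sum_congr rfl fun i _ => Finset.sum_congr rfl fun k _ => ?_
      ring
    rw [e]
    have h2 : ∑ i, ∑ k, evx z (d.Gi i k) * (c i * c k) > 0 := h1
    linarith
  · intro z
    have e : Lop a d.bh d.h = 8 * d.h * ∑ i, ∑ k, d.Gi i k * (d.β i * d.β k) := by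
      rw [← d.h_eq]
      simp only [Lop, ha, Finset.mul_sum]
      simp only [d0_D, hd]
      congr 1
      refine Finset.sum_congr rfl fun i _ => Finset.sum_congr rfl fun k _ => ?_
      ring
    rw [e, map_mul, map_mul, map_ofNat, map_sum]
    simp only [map_sum, map_mul]
    have h1 := s.h_pos hpd 1 1 (one_mul 1) z
    have h2 := s.Gi_quad_nonneg hpd 1 1 (one_mul 1) z (fun k => evx z (d.β k))
    have h3 : 0 < evx z d.h := h1
    have h4 : 0 ≤ ∑ i, ∑ k, evx z (d.Gi i k) * (evx z (d.β i) * evx z (d.β k)) := h2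
    positivity

/-- relation of the frame Jacobians -/
lemma P_frame : (s.dat hpd L Li hL).P = (s.d0 hpd).P * L.map (algebraMap ℝ (RR ι)) := by
  ext1 α i
  simp only [Matrix.mul_apply, Data.P_apply, Matrix.map_apply]
  show Dv (vv L i) (s.fY α) = ∑ β, Dv (vv 1 β) (s.fY α) * algebraMap ℝ (RR ι) (L β i)
  rw [Dv_coord (vv L i) (s.fY α)]
  refine Finset.sum_congr rfl fun β _ => ?_
  rw [vv_one, Algebra.smul_def, mul_comm]
  rfl

lemma h_frame : (s.dat hpd L Li hL).h = (s.d0 hpd).h * algebraMap ℝ (RR ι) (L.det ^ 2) := by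
  simp only [Data.h]
  rw [s.P_frame hpd L Li hL, Matrix.det_mul, mul_pow, map_pow]
  congr 2
  exact (RingHom.map_det (algebraMap ℝ (RR ι)) L).symm

/-- The vanishing of the trace of the connection. -/
theorem beta_zero (hι : 1 < Fintype.card ι) (k : ι) : (s.dat hpd L Li hL).β k = 0 := by
  have : Nonempty ι := Fintype.card_pos_iff.mp (by omega)
  obtain ⟨x₀, hmax⟩ := exists_max_of_hom0 (s.d0 hpd).h (s.h_hom hpd 1 1 (one_mul 1))
  have hconst := s.h0_const hpd hι x₀ hmax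
  set c := evx x₀ (s.d0 hpd).h with hc
  have h1 : (s.d0 hpd).h = algebraMap ℝ (RR ι) c := by
    apply Sm.eq_of_ev
    intro x
    rw [hconst x]
    rfl
  have h2 : (s.dat hpd L Li hL).h = algebraMap ℝ (RR ι) (c * L.det ^ 2) := by
    rw [s.h_frame hpd L Li hL, h1, map_mul]
  have h3 := (s.dat hpd L Li hL).D_h k
  have h4 : (s.dat hpd L Li hL).D k (s.dat hpd L Li hL).h = 0 := by
    rw [h2]
    exact Derivation.map_algebraMap _ _
  rw [h4] at h3
  obtain ⟨hi, hh⟩ := s.h_unit hpd L Li hL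
  have h5 : (2 : RR ι) * (s.dat hpd L Li hL).β k = 2 * 0 := by
    have e : (2 : RR ι) * (s.dat hpd L Li hL).β k
        = hi * (2 * (s.dat hpd L Li hL).h * (s.dat hpd L Li hL).β k) := by
      linear_combination (-(2 * (s.dat hpd L Li hL).β k)) * hh
    rw [e, ← h3]
    simp
  exact Data.two_cancel _ _ h5

end Sys

end Vale.Agent.P084
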