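import Vale.Agent.P084.Step5

/-!
The Bochner argument: the second fundamental form vanishes and the map is linear.
-/

set_option linter.unusedSectionVars false
set_option linter.unusedVariables false

open scoped ContDiff Topology
open Matrix

namespace Vale.Agent.P084

variable {ι : Type*} [Fintype ι] [DecidableEq ι]

lemma exists_frame (G : Matrix ι ι ℝ) (hG : G.PosDef) :
    ∃ L Li : Matrix ι ι ℝ, Li * L = 1 ∧ Lᵀ * G * L = 1 := by
  have hA := hG.isHermitian
  set U : Matrix ι ι ℝ := (hA.eigenvectorUnitary : Matrix ι ι ℝ) with hU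
  have hlam : ∀ i, 0 < hA.eigenvalues i := hG.eigenvalues_pos
  have hspec : G = U * diagonal hA.eigenvalues * Uᵀ := by
    have h := hA.spectral_theorem
    rw [Unitary.conjStarAlgAut_apply] at h
    simpa [star_eq_conjTranspose, conjTranspose_eq_transpose_of_trivial] using h
  have hUU : Uᵀ * U = 1 := by
    have h := Unitary.coe_star_mul_self hA.eigenvectorUnitary
    simpa [star_eq_conjTranspose, conjTranspose_eq_transpose_of_trivial] using h
  have hUU' : U * Uᵀ = 1 := mul_eq_one_comm.mp hUU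
  set s : ι → ℝ := fun i => Real.sqrt (hA.eigenvalues i) with hs
  have hspos : ∀ i, 0 < s i := fun i => Real.sqrt_pos.mpr (hlam i)
  have hss : ∀ i, s i * s i = hA.eigenvalues i := fun i => Real.mul_self_sqrt (hlam i).le
  refine ⟨U * diagonal (fun i => (s i)⁻¹), diagonal s * Uᵀ, ?_, ?_⟩
  · calc diagonal s * Uᵀ * (U * diagonal (fun i => (s i)⁻¹))
        = diagonal s * (Uᵀ * U) * diagonal (fun i => (s i)⁻¹) := by simp only [Matrix.mul_assoc]
      _ = 1 := by
        rw [hUU, Matrix.mul_one, diagonal_mul_diagonal]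
        have : (fun i => s i * (s i)⁻¹) = fun _ => (1 : ℝ) := by
          ext i
          exact mul_inv_cancel₀ (hspos i).ne'
        rw [this, diagonal_one]
  · rw [hspec, transpose_mul, diagonal_transpose]
    calc diagonal (fun i => (s i)⁻¹) * Uᵀ * (U * diagonal hA.eigenvalues * Uᵀ) * (U * diagonal (fun i => (s i)⁻¹))
        = diagonal (fun i => (s i)⁻¹) * (Uᵀ * U) * diagonal hA.eigenvalues * (Uᵀ * U) * diagonal (fun i => (s i)⁻¹) := by
          simp only [Matrix.mul_assoc]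
      _ = 1 := by
        rw [hUU, Matrix.mul_one, Matrix.mul_one, diagonal_mul_diagonal, diagonal_mul_diagonal]
        have : (fun i => (s i)⁻¹ * hA.eigenvalues i * (s i)⁻¹) = fun _ => (1 : ℝ) := by
          ext i
          rw [← hss i]
          have := (hspos i).ne'
          field_simp
        rw [this, diagonal_one]

lemma IsHom.mul {g g' : RR ι} {k k' : ℤ} (h : IsHom g k) (h' : IsHom g' k') :
    IsHom (g * g') (k + k') := by
  intro t ht
  rw [map_mul, h t ht, h' t ht, smul_mul_smul_comm, zpow_add₀ ht.ne']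

lemma IsHom.mul' {g g' : RR ι} {k k' k'' : ℤ} (h : IsHom g k) (h' : IsHom g' k') (e : k + k' = k'') :
    IsHom (g * g') k'' := e ▸ h.mul h'

lemma IsHom.sum {κ : Type*} (S : Finset κ) (g : κ → RR ι) {k : ℤ} (h : ∀ i ∈ S, IsHom (g i) k) :
    IsHom (∑ i ∈ S, g i) k := by
  intro t ht
  rw [map_sum, Finset.smul_sum]
  exact Finset.sum_congr rfl fun i hi => h i hi t ht

/-- the inverse of degree zero matrix has degree zero -/
lemma inv_hom (P Q : Matrix ι ι (RR ι)) (hP : ∀ i j, IsHom (P i j) 0) (h1 : Q * P = 1)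
    (h2 : P * Q = 1) (i j : ι) : IsHom (Q i j) 0 := by
  intro t ht
  have hPm : (Mt t ht).mapMatrix P = P := by
    ext1 a b
    show Mt t ht (P a b) = P a b
    rw [hP a b t ht]
    simp
  have h3 : (Mt t ht).mapMatrix Q * P = 1 := by
    have := congrArg (Mt t ht).mapMatrix h1
    rwa [map_mul, map_one, hPm] at this
  have h4 : (Mt t ht).mapMatrix Q = Q := by
    calc (Mt t ht).mapMatrix Q = (Mt t ht).mapMatrix Q * (P * Q) := by rw [h2, Matrix.mul_one]
      _ = ((Mt t ht).mapMatrix Q * P) * Q := by rw [Matrix.mul_assoc]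
      _ = Q := by rw [h3, Matrix.one_mul]
  have h5 := congrFun (congrFun h4 i) j
  show Mt t ht (Q i j) = _
  rw [show Mt t ht (Q i j) = (Mt t ht).mapMatrix Q i j from rfl, h5]
  simp

/-- Change of frame for the pairing -/
lemma pair_change {R : Type*} [CommRing R] (M Mi G' G0 : Matrix ι ι R) (A' A0 : ι → Matrix ι ι R)
    (h1 : M * Mi = 1) (hM : Mi * M = 1)
    (hG : G' = Mi * G0 * Miᵀ) (hA : ∀ j, A' j = ∑ m, M m j • (Mi * A0 m * M)) :
    ∑ j, ∑ b, G' j b * trace (A' j * A' b) = ∑ j, ∑ b, G0 j b * trace (A0 j * A0 b) := by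
  have htr : ∀ j b, trace (A' j * A' b) = ∑ m, ∑ n, M m j * M n b * trace (A0 m * A0 n) := by
    intro j b
    rw [hA j, hA b, Finset.sum_mul, Matrix.trace_sum]
    refine Finset.sum_congr rfl fun m _ => ?_
    rw [Finset.mul_sum, Matrix.trace_sum]
    refine Finset.sum_congr rfl fun n _ => ?_
    rw [smul_mul_assoc, mul_smul_comm, Matrix.trace_smul, Matrix.trace_smul, smul_eq_mul,
      smul_eq_mul, ← mul_assoc]
    congr 1
    have e : Mi * A0 m * M * (Mi * A0 n * M) = Mi * (A0 m * (M * Mi) * A0 n) * M := by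
      simp only [Matrix.mul_assoc]
    rw [e, h1, Matrix.mul_one, Matrix.trace_mul_comm, ← Matrix.mul_assoc, h1, Matrix.one_mul]
  have hMG : M * G' * Mᵀ = G0 := by
    have h1t : Miᵀ * Mᵀ = 1 := by
      rw [← Matrix.transpose_mul, h1, Matrix.transpose_one]
    rw [hG]
    calc M * (Mi * G0 * Miᵀ) * Mᵀ = (M * Mi) * G0 * (Miᵀ * Mᵀ) := by simp only [Matrix.mul_assoc]
      _ = G0 := by rw [h1, h1t, Matrix.one_mul, Matrix.mul_one]
  have hentry : ∀ m n, ∑ j, ∑ b, G' j b * (M m j * M n b) = G0 m n := by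
    intro m n
    rw [← hMG]
    simp only [Matrix.mul_apply, Matrix.transpose_apply, Finset.sum_mul, Finset.mul_sum]
    rw [Finset.sum_comm]
    refine Finset.sum_congr rfl fun b _ => Finset.sum_congr rfl fun j _ => ?_
    ring
  calc ∑ j, ∑ b, G' j b * trace (A' j * A' b)
      = ∑ j, ∑ b, ∑ m, ∑ n, G' j b * (M m j * M n b) * trace (A0 m * A0 n) := by
        refine Finset.sum_congr rfl fun j _ => Finset.sum_congr rfl fun b _ => ?_
        rw [htr, Finset.mul_sum]
        refine Finset.sum_congr rfl fun m _ => ?_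
        rw [Finset.mul_sum]
        refine Finset.sum_congr rfl fun n _ => ?_
        ring
    _ = ∑ m, ∑ n, (∑ j, ∑ b, G' j b * (M m j * M n b)) * trace (A0 m * A0 n) := by
        simp only [Finset.sum_mul]
        calc ∑ j, ∑ b, ∑ m, ∑ n, G' j b * (M m j * M n b) * trace (A0 m * A0 n)
            = ∑ j, ∑ m, ∑ b, ∑ n, G' j b * (M m j * M n b) * trace (A0 m * A0 n) :=
              Finset.sum_congr rfl fun j _ => Finset.sum_comm
          _ = ∑ m, ∑ j, ∑ b, ∑ n, G' j b * (M m j * M n b) * trace (A0 m * A0 n) :=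
              Finset.sum_comm
          _ = ∑ m, ∑ n, ∑ j, ∑ b, G' j b * (M m j * M n b) * trace (A0 m * A0 n) := by
              refine Finset.sum_congr rfl fun m _ => ?_
              calc ∑ j, ∑ b, ∑ n, G' j b * (M m j * M n b) * trace (A0 m * A0 n)
                  = ∑ j, ∑ n, ∑ b, G' j b * (M m j * M n b) * trace (A0 m * A0 n) :=
                    Finset.sum_congr rfl fun j _ => Finset.sum_comm
                _ = _ := Finset.sum_comm
    _ = _ := by
        simp only [hentry]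

namespace Sys

variable (s : Sys ι) (hpd : ∀ (x : UU ι) (v : ι → ℝ), v ≠ 0 → 0 < evx x (Dv v (Dv v s.psiX)))
  (L Li : Matrix ι ι ℝ) (hL : Li * L = 1)

/-- Value of `S0` in a normalized frame, as a sum of squares. -/
lemma ev_S0_of_G {R : Type*} [CommRing R] [Algebra ℝ R] (d : Data ι R) (ev : R →+* ℝ)
    (hG : evM ev d.G = 1) : ev d.S0 = ∑ j, ∑ m, ∑ n, (evM ev (d.A j) m n) ^ 2 := by
  have hGi : evM ev d.Gi = 1 := by
    have h := congrArg (evM ev) d.Gi_G
    rw [evM_mul, evM_one, hG, Matrix.mul_one] at h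
    exact h
  have hGi' : ∀ i j, ev (d.Gi i j) = if i = j then 1 else 0 := by
    intro i j
    have := congrFun (congrFun hGi i) j
    simpa [Matrix.one_apply] using this
  have hsym : ∀ j, (evM ev (d.A j))ᵀ = evM ev (d.A j) := by
    intro j
    have h := congrArg (evM ev) (d.A_transpose_G j)
    rw [evM_mul, evM_mul, evM_transpose, hG, Matrix.mul_one, Matrix.one_mul] at h
    exact h
  have h1 : ev d.S0 = ∑ j, trace (evM ev (d.A j) * evM ev (d.A j)) := by
    simp only [Data.S0, Data.pair, map_sum, map_mul, hGi', ev_trace, evM_mul, ite_mul, one_mul,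
      zero_mul, Finset.sum_ite_eq, Finset.mem_univ, if_true]
  rw [h1]
  refine Finset.sum_congr rfl fun j _ => ?_
  have := trace_mul_transpose_eq (evM ev (d.A j))
  rwa [hsym j] at this

/-- embedded frame matrix -/
noncomputable abbrev Lt (L : Matrix ι ι ℝ) : Matrix ι ι (RR ι) := L.map (algebraMap ℝ (RR ι))

lemma Lt_mul (A B : Matrix ι ι ℝ) : Lt (A * B) = Lt A * Lt B := by
  simp only [Lt]
  ext i j
  simp [Matrix.mul_apply, map_sum]

lemma Lt_one : Lt (1 : Matrix ι ι ℝ) = 1 := by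
  simp only [Lt]
  ext i j
  simp [Matrix.one_apply, apply_ite]

lemma dM_Lt (D : Derivation ℝ (RR ι) (RR ι)) (L : Matrix ι ι ℝ) : dM D (Lt L) = 0 := by
  ext i j
  simp [dM_apply, Lt]

lemma D_frame (j : ι) (g : RR ι) :
    (s.dat hpd L Li hL).D j g = ∑ m, algebraMap ℝ (RR ι) (L m j) * (s.d0 hpd).D m g := by
  show Dv (vv L j) g = _
  rw [Dv_coord (vv L j) g]
  refine Finset.sum_congr rfl fun m _ => ?_
  rw [s.d0_D, Algebra.smul_def]
  rfl

lemma Pi_frame : (s.dat hpd L Li hL).Pi = Lt Li * (s.d0 hpd).Pi := by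
  set d := s.dat hpd L Li hL with hd
  set d0 := s.d0 hpd with hd0
  have h1 : (Lt Li * d0.Pi) * d.P = 1 := by
    rw [s.P_frame hpd L Li hL]
    calc Lt Li * d0.Pi * (d0.P * Lt L) = Lt Li * (d0.Pi * d0.P) * Lt L := by
          simp only [Matrix.mul_assoc]
      _ = 1 := by rw [d0.Pi_P, Matrix.mul_one, ← Lt_mul, hL, Lt_one]
  calc d.Pi = ((Lt Li * d0.Pi) * d.P) * d.Pi := by rw [h1, Matrix.one_mul]
    _ = (Lt Li * d0.Pi) * (d.P * d.Pi) := by rw [Matrix.mul_assoc]
    _ = _ := by rw [d.P_Pi, Matrix.mul_one]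

lemma dP_frame (j : ι) : dM ((s.dat hpd L Li hL).D j) (s.dat hpd L Li hL).P
    = ∑ m, algebraMap ℝ (RR ι) (L m j) • (dM ((s.d0 hpd).D m) (s.d0 hpd).P * Lt L) := by
  rw [s.P_frame hpd L Li hL, dM_mul, dM_Lt, Matrix.mul_zero, add_zero]
  refine Matrix.ext fun a b => ?_
  simp only [Matrix.mul_apply, dM_apply, Matrix.sum_apply, Matrix.smul_apply, smul_eq_mul,
    Finset.mul_sum]
  rw [Finset.sum_comm]
  refine Finset.sum_congr rfl (fun c _ => ?_)
  rw [s.D_frame hpd L Li hL j, Finset.sum_mul]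
  refine Finset.sum_congr rfl fun m _ => ?_
  ring

lemma A_frame (j : ι) : (s.dat hpd L Li hL).A j
    = ∑ m, Lt L m j • (Lt Li * (s.d0 hpd).A m * Lt L) := by
  rw [Data.A, s.dP_frame hpd L Li hL, s.Pi_frame hpd L Li hL, Finset.mul_sum]
  refine Finset.sum_congr rfl fun m _ => ?_
  rw [Matrix.mul_smul]
  congr 1
  simp only [Data.A, Matrix.mul_assoc]

lemma G_frame : (s.dat hpd L Li hL).G = (Lt L)ᵀ * (s.d0 hpd).G * Lt L := by
  refine Matrix.ext fun a b => ?_
  simp only [Matrix.mul_apply, Data.G_apply, Matrix.transpose_apply, Finset.sum_mul]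
  have e : (s.dat hpd L Li hL).ψ = (s.d0 hpd).ψ := rfl
  rw [s.D_frame hpd L Li hL a, s.D_frame hpd L Li hL b, e]
  simp only [map_sum, Derivation.leibniz, smul_eq_mul, Derivation.map_algebraMap, mul_zero,
    add_zero, Finset.mul_sum, Finset.sum_mul]
  rw [Finset.sum_comm]
  refine Finset.sum_congr rfl fun m _ => Finset.sum_congr rfl fun n _ => ?_
  simp only [Lt, Matrix.map_apply]
  ring

lemma Gi_frame : (s.dat hpd L Li hL).Gi = Lt Li * (s.d0 hpd).Gi * (Lt Li)ᵀ := by
  set d := s.dat hpd L Li hL with hd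
  set d0 := s.d0 hpd with hd0
  have hLL : Lt L * Lt Li = 1 := by
    rw [← Lt_mul, mul_eq_one_comm.mp hL, Lt_one]
  have h1 : (Lt Li * d0.Gi * (Lt Li)ᵀ) * d.G = 1 := by
    have h2 : (Lt Li)ᵀ * (Lt L)ᵀ = 1 := by
      rw [← Matrix.transpose_mul, hLL, Matrix.transpose_one]
    have h3 : d.G = (Lt L)ᵀ * d0.G * Lt L := s.G_frame hpd L Li hL
    rw [h3]
    calc Lt Li * d0.Gi * (Lt Li)ᵀ * ((Lt L)ᵀ * d0.G * Lt L)
        = Lt Li * d0.Gi * ((Lt Li)ᵀ * (Lt L)ᵀ) * d0.G * Lt L := by simp only [Matrix.mul_assoc]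
      _ = Lt Li * (d0.Gi * d0.G) * Lt L := by rw [h2, Matrix.mul_one]; simp only [Matrix.mul_assoc]
      _ = 1 := by rw [d0.Gi_G, Matrix.mul_one, ← Lt_mul, hL, Lt_one]
  calc d.Gi = ((Lt Li * d0.Gi * (Lt Li)ᵀ) * d.G) * d.Gi := by rw [h1, Matrix.one_mul]
    _ = (Lt Li * d0.Gi * (Lt Li)ᵀ) * (d.G * d.Gi) := by rw [Matrix.mul_assoc]
    _ = _ := by rw [d.G_Gi, Matrix.mul_one]

/-- The function `S0` does not depend on the frame. -/
theorem S0_frame : (s.dat hpd L Li hL).S0 = (s.d0 hpd).S0 := by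
  have hLL : Lt L * Lt Li = 1 := by
    rw [← Lt_mul, mul_eq_one_comm.mp hL, Lt_one]
  have hLL' : Lt Li * Lt L = 1 := by
    rw [← Lt_mul, hL, Lt_one]
  exact pair_change (Lt L) (Lt Li) _ _ _ _ hLL hLL' (s.Gi_frame hpd L Li hL)
    (s.A_frame hpd L Li hL)

lemma w_frame : (s.dat hpd L Li hL).w = (s.d0 hpd).w := by
  simp only [Data.w]
  rw [s.S0_frame hpd L Li hL]
  rfl

lemma Gi_hom (i j : ι) : IsHom ((s.d0 hpd).Gi i j) 0 := by
  refine inv_hom _ _ ?_ (s.d0 hpd).Gi_G (s.d0 hpd).G_Gi i j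
  intro a b
  have h := ((s.psiX_isHom).Dv (vv (1 : Matrix ι ι ℝ) b)).Dv (vv (1 : Matrix ι ι ℝ) a)
  have e : (2 : ℤ) - 1 - 1 = 0 := by norm_num
  rw [e] at h
  exact h

lemma Pi_hom (i j : ι) : IsHom ((s.d0 hpd).Pi i j) 0 :=
  inv_hom _ _ (s.P_hom hpd 1 1 (one_mul 1)) (s.d0 hpd).Pi_P (s.d0 hpd).P_Pi i j

lemma A_hom (j a b : ι) : IsHom ((s.d0 hpd).A j a b) (-1) := by
  simp only [Data.A, Matrix.mul_apply]
  refine IsHom.sum _ _ fun c _ => ?_
  refine IsHom.mul' (s.Pi_hom hpd a c) ?_ (by norm_num : (0 : ℤ) + (-1) = -1)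
  exact s.D2_isHom _ _ c

lemma S0_hom : IsHom (s.d0 hpd).S0 (-2) := by
  simp only [Data.S0, Data.pair]
  refine IsHom.sum _ _ fun j _ => IsHom.sum _ _ fun b _ => ?_
  refine IsHom.mul' (s.Gi_hom hpd j b) ?_ (by norm_num : (0 : ℤ) + (-2) = -2)
  simp only [Matrix.trace, Matrix.diag_apply, Matrix.mul_apply]
  refine IsHom.sum _ _ fun a _ => IsHom.sum _ _ fun c _ => ?_
  exact IsHom.mul' (s.A_hom hpd j a c) (s.A_hom hpd b c a) (by norm_num)

lemma w_hom : IsHom (s.d0 hpd).w 0 :=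
  IsHom.mul' s.psiX_isHom (s.S0_hom hpd) (by norm_num)

/-- Real positive definiteness of the Hessian -/
lemma G0_posDef (x : UU ι) : (evM (evx x) (s.d0 hpd).G).PosDef := by
  refine Matrix.PosDef.of_dotProduct_mulVec_pos ?_ ?_
  · ext i j
    simp only [Matrix.conjTranspose_apply, evM_apply, star_trivial]
    rw [(s.d0 hpd).G_symm]
  · intro c hc
    have h := s.Gm_quad_pos hpd 1 1 (one_mul 1) x c hc
    have e : star c ⬝ᵥ (evM (evx x) (s.d0 hpd).G).mulVec c
        = ∑ i, ∑ j, c i * c j * evx x (Dv (vv (1 : Matrix ι ι ℝ) i) (Dv (vv (1 : Matrix ι ι ℝ) j) s.psiX)) := by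
      simp only [dotProduct, Matrix.mulVec, Finset.mul_sum, Pi.star_apply, star_trivial]
      refine Finset.sum_congr rfl fun i _ => Finset.sum_congr rfl fun j _ => ?_
      show c i * (evx x (Dv (vv (1 : Matrix ι ι ℝ) i) (Dv (vv (1 : Matrix ι ι ℝ) j) s.psiX)) * c j) = _
      ring
    rw [e]
    exact h

lemma evM_Lt (x : UU ι) (L : Matrix ι ι ℝ) : evM (evx x) (Lt L) = L := by
  ext i j
  rfl

/-- A normalizing frame at each point. -/
lemma exists_normal (x : UU ι) : ∃ (L Li : Matrix ι ι ℝ) (hL : Li * L = 1),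
    evM (evx x) (s.dat hpd L Li hL).G = 1 := by
  obtain ⟨L, Li, hL, hG⟩ := exists_frame _ (s.G0_posDef hpd x)
  refine ⟨L, Li, hL, ?_⟩
  rw [s.G_frame hpd L Li hL, evM_mul, evM_mul, evM_transpose, evM_Lt]
  exact hG

lemma psiX_pos (x : UU ι) : 0 < evx x s.psiX := by
  rw [evx_psiX]
  have := s.NX_pos x x.2
  positivity

lemma isLocalMax_of_global (g : RR ι) (x₀ : UU ι) (h : ∀ x : UU ι, evx x g ≤ evx x₀ g) :
    IsLocalMax (val g) x₀ := by
  filter_upwards [UU_open.mem_nhds x₀.2] with y hy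
  rw [val_mem _ hy, val_mem _ x₀.2]
  exact h ⟨y, hy⟩

include hpd in
/-- The Bochner argument: the second derivatives of the map vanish. -/
theorem second_zero (hι : 1 < Fintype.card ι) (x : UU ι) (u v : ι → ℝ) (α : ι) :
    evx x (Dv u (Dv v (s.fY α))) = 0 := by
  have hne : Nonempty ι := Fintype.card_pos_iff.mp (by omega)
  set w0 := (s.d0 hpd).w with hw0
  obtain ⟨x₀, hmax⟩ := exists_max_of_hom0 w0 (s.w_hom hpd)
  have hloc := isLocalMax_of_global w0 x₀ hmax
  -- negativity of S0 at the maximum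
  have hS0max : evx x₀ (s.d0 hpd).S0 ≤ 0 := by
    obtain ⟨L, Li, hL, hG⟩ := s.exists_normal hpd x₀
    have hwf := s.w_frame hpd L Li hL
    have hp : (s.dat hpd L Li hL).AtPt (evx x₀) :=
      { hG := hG
        hψ := s.psiX_pos x₀
        hβ := fun k => s.beta_zero hpd L Li hL hι k
        hdw := fun q => by
          rw [hwf]
          exact local_max_D1 w0 x₀ hloc _ }
    have h1 := hp.lap_w
    have h2 : ∑ p, evx x₀ ((s.dat hpd L Li hL).D p ((s.dat hpd L Li hL).D p (s.dat hpd L Li hL).w)) ≤ 0 := by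
      refine Finset.sum_nonpos fun p _ => ?_
      rw [hwf]
      exact local_max_D2 w0 x₀ hloc _
    have h3 : 0 < (Fintype.card ι : ℝ) := by
      have : 0 < Fintype.card ι := by omega
      exact_mod_cast this
    rw [← s.S0_frame hpd L Li hL]
    have h4 := h1.trans h2
    by_contra hc
    rw [not_le] at hc
    have := mul_pos h3 hc
    linarith
  have hw0max : evx x₀ w0 ≤ 0 := by
    show evx x₀ (s.psiX * (s.d0 hpd).S0) ≤ 0
    rw [map_mul]
    exact mul_nonpos_of_nonneg_of_nonpos (s.psiX_pos x₀).le hS0max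
  have hS0all : evx x (s.d0 hpd).S0 ≤ 0 := by
    have h1 : evx x w0 ≤ 0 := (hmax x).trans hw0max
    have h2 : evx x w0 = evx x s.psiX * evx x (s.d0 hpd).S0 := map_mul _ _ _
    rw [h2] at h1
    by_contra hc
    rw [not_le] at hc
    have := mul_pos (s.psiX_pos x) hc
    linarith
  -- the normalized frame at `x`
  obtain ⟨L, Li, hL, hG⟩ := s.exists_normal hpd x
  set d := s.dat hpd L Li hL with hd
  have hS := ev_S0_of_G d (evx x) hG
  rw [show d.S0 = (s.d0 hpd).S0 from s.S0_frame hpd L Li hL] at hS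
  have hzero : ∀ j m n, evM (evx x) (d.A j) m n = 0 := by
    intro j m n
    have h0 : ∑ j, ∑ m, ∑ n, (evM (evx x) (d.A j) m n) ^ 2 ≤ 0 := by
      rw [← hS]
      exact hS0all
    have hnn1 : ∀ j m, 0 ≤ ∑ n, (evM (evx x) (d.A j) m n) ^ 2 :=
      fun j m => Finset.sum_nonneg fun _ _ => sq_nonneg _
    have hnn2 : ∀ j, 0 ≤ ∑ m, ∑ n, (evM (evx x) (d.A j) m n) ^ 2 :=
      fun j => Finset.sum_nonneg fun _ _ => hnn1 j _
    have h1 : ∑ j, ∑ m, ∑ n, (evM (evx x) (d.A j) m n) ^ 2 = 0 :=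
      le_antisymm h0 (Finset.sum_nonneg fun _ _ => hnn2 _)
    have h2 := (Finset.sum_eq_zero_iff_of_nonneg fun _ _ => hnn2 _).mp h1 j (Finset.mem_univ j)
    have h3 := (Finset.sum_eq_zero_iff_of_nonneg fun _ _ => hnn1 j _).mp h2 m (Finset.mem_univ m)
    have h4 := (Finset.sum_eq_zero_iff_of_nonneg fun _ _ => sq_nonneg _).mp h3 n (Finset.mem_univ n)
    exact pow_eq_zero_iff (two_ne_zero) |>.mp h4
  have hframe : ∀ j i, evx x (Dv (vv L j) (Dv (vv L i) (s.fY α))) = 0 := by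
    intro j i
    have h1 := congrFun (congrFun (d.P_A j) α) i
    have h2 := congrArg (evx x) h1
    rw [Matrix.mul_apply, map_sum] at h2
    have h3 : evx x (dM (d.D j) d.P α i) = evx x (Dv (vv L j) (Dv (vv L i) (s.fY α))) := rfl
    rw [← h3, ← h2]
    refine Finset.sum_eq_zero fun c _ => ?_
    rw [map_mul]
    have h4 : evx x (d.A j c i) = 0 := hzero j c i
    rw [h4, mul_zero]
  rw [← frame_sum L Li hL u, ← frame_sum L Li hL v]
  simp only [Dv_sum, map_sum, Derivation.map_smul, evx_smul, hframe, mul_zero, Finset.sum_const_zero]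

include hpd in
/-- The map is linear. -/
theorem exists_matrix (hι : 1 < Fintype.card ι) :
    ∃ M : Matrix ι ι ℝ, ∀ x : ι → ℝ, x ≠ 0 → s.F x = M *ᵥ x := by
  have hne : Nonempty ι := Fintype.card_pos_iff.mp (by omega)
  have hprecon : IsPreconnected (UU ι) := by
    have := precon_UU (ι := ι) hι
    exact isPreconnected_iff_preconnectedSpace.mpr this
  have hb : (Pi.single (Classical.arbitrary ι) 1 : ι → ℝ) ∈ UU ι := by
    simp
  set b : UU ι := ⟨_, hb⟩ with hbdef
  have hconst : ∀ (k α : ι) (x : UU ι), evx x (Dv (ee k) (s.fY α)) = evx b (Dv (ee k) (s.fY α)) := by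
    intro k α x
    have h := UU_open.is_const_of_fderiv_eq_zero (𝕜 := ℝ) (f := val (Dv (ee k) (s.fY α))) hprecon
      (fun y hy => (Sm.diffAt UU_open (Dv (ee k) (s.fY α)) ⟨y, hy⟩).differentiableWithinAt)
      (fun y hy => by
        ext v
        exact s.second_zero hpd hι ⟨y, hy⟩ v (ee k) α) x.2 b.2
    rwa [val_mem _ x.2, val_mem _ b.2] at h
  refine ⟨Matrix.of fun α k => evx b (Dv (ee k) (s.fY α)), ?_⟩
  intro x hx
  ext α
  have h1 := rad_Dv (s.fY_isHom α) ⟨x, hx⟩
  have h2 : evx (⟨x, hx⟩ : UU ι) (s.fY α) = s.F x α := rfl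
  rw [h2] at h1
  simp only [Int.cast_one, one_mul] at h1
  rw [← h1, Dv_coord]
  simp only [map_sum, evx_smul, Matrix.mulVec, dotProduct, Matrix.of_apply]
  refine Finset.sum_congr rfl fun k _ => ?_
  rw [hconst k α ⟨x, hx⟩, mul_comm]

end Sys

end Vale.Agent.P084
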