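import Vale.Agent.P084.Even

/-!
The concrete analytic system: two norms in coordinates and a homogeneous smooth map.
-/

set_option linter.unusedSectionVars false
set_option linter.unusedVariables false

open scoped ContDiff

namespace Vale.Agent.P084

variable {ι : Type*} [Fintype ι] [DecidableEq ι]

/-- The punctured space -/
abbrev UU (ι : Type*) : Set (ι → ℝ) := {0}ᶜ

lemma UU_open : IsOpen (UU ι) := isOpen_compl_singleton

/-- The algebra of smooth functions on the punctured space. -/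
noncomputable abbrev RR (ι : Type*) [Fintype ι] := Sm (UU ι)

/-- derivation of the algebra along a vector -/
noncomputable def Dv (v : ι → ℝ) : Derivation ℝ (RR ι) (RR ι) := Sm.D UU_open v

/-- unit vector -/
abbrev ee (α : ι) : ι → ℝ := Pi.single α 1

lemma Dv_comm (v w : ι → ℝ) (g : RR ι) : Dv v (Dv w g) = Dv w (Dv v g) := Sm.D_comm UU_open v w g

lemma Dv_apply (v : ι → ℝ) (g : RR ι) (x : UU ι) :
    ((Dv v g : RR ι) : UU ι → ℝ) x = fderiv ℝ (ext0 (g : UU ι → ℝ)) x v := rfl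

lemma Dv_mk (v : ι → ℝ) {G : (ι → ℝ) → ℝ} (hG : ContDiffOn ℝ ∞ G (UU ι)) (x : UU ι) :
    ((Dv v (Sm.mk G hG) : RR ι) : UU ι → ℝ) x = fderiv ℝ G x v := Sm.D_mk UU_open v hG x

lemma Dv_add (v w : ι → ℝ) (g : RR ι) : Dv (v + w) g = Dv v g + Dv w g := Sm.D_add_vec UU_open v w g

lemma Dv_smul (c : ℝ) (v : ι → ℝ) (g : RR ι) : Dv (c • v) g = c • Dv v g :=
  Sm.D_smul_vec UU_open c v g

lemma Dv_sum {κ : Type*} (s : Finset κ) (c : κ → ℝ) (v : κ → (ι → ℝ)) (g : RR ι) :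
    Dv (∑ k ∈ s, c k • v k) g = ∑ k ∈ s, c k • Dv (v k) g := Sm.D_sum_vec UU_open s c v g

/-- evaluation at a point of the punctured space -/
noncomputable abbrev evx (x : UU ι) : RR ι →+* ℝ := Sm.ev x

section scale

variable (t : ℝ) (ht : 0 < t)

lemma smul_mem_UU (ht : 0 < t) {x : ι → ℝ} (hx : x ∈ UU ι) : t • x ∈ UU ι := by
  simp only [Set.mem_compl_iff, Set.mem_singleton_iff] at hx ⊢
  exact smul_ne_zero ht.ne' hx

lemma scale_smooth (t : ℝ) : ContDiffOn ℝ ∞ (fun y : ι → ℝ => t • y) (UU ι) :=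
  (contDiff_id.const_smul t).contDiffOn

lemma scale_maps (t : ℝ) (ht : 0 < t) : Set.MapsTo (fun y : ι → ℝ => t • y) (UU ι) (UU ι) :=
  fun _ hy => smul_mem_UU t ht hy

/-- pull back by the scaling -/
noncomputable def Mt (t : ℝ) (ht : 0 < t) : RR ι →+* RR ι :=
  Sm.pull (fun y : ι → ℝ => t • y) (scale_smooth t) (scale_maps t ht)

lemma Mt_apply (t : ℝ) (ht : 0 < t) (g : RR ι) (y : UU ι) :
    ((Mt t ht g : RR ι) : UU ι → ℝ) y = (g : UU ι → ℝ) ⟨t • (y : ι → ℝ), smul_mem_UU t ht y.2⟩ :=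
  Sm.pull_apply _ _ _ _ _

lemma Dv_Mt (t : ℝ) (ht : 0 < t) (v : ι → ℝ) (g : RR ι) :
    Dv v (Mt t ht g) = t • Mt t ht (Dv v g) := by
  apply Sm.ext'
  intro y
  have h1 : Dv v (Mt t ht g) = Sm.D UU_open v (Sm.pull (fun y : ι → ℝ => t • y)
      (scale_smooth t) (scale_maps t ht) g) := rfl
  rw [h1, Sm.D_pull_apply UU_open UU_open]
  have h2 : fderiv ℝ (fun y : ι → ℝ => t • y) y v = t • v := by
    have h3 : HasFDerivAt (fun y : ι → ℝ => t • y) (t • ContinuousLinearMap.id ℝ (ι → ℝ)) (y : ι → ℝ) :=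
      (hasFDerivAt_id (y : ι → ℝ)).const_smul t
    rw [h3.fderiv]
    simp
  rw [h2, map_smul]
  show _ = t • ((Mt t ht (Dv v g) : RR ι) : UU ι → ℝ) y
  rw [Mt_apply]
  rfl

/-- homogeneity of derivatives -/
lemma Mt_Dv_of_hom (t : ℝ) (ht : 0 < t) (c : ℝ) (g : RR ι) (h : Mt t ht g = c • g) (v : ι → ℝ) :
    Mt t ht (Dv v g) = (c / t) • Dv v g := by
  have h1 := Dv_Mt t ht v g
  rw [h, Derivation.map_smul] at h1
  have h2 : t • Mt t ht (Dv v g) = t • ((c / t) • Dv v g) := by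
    rw [← h1, smul_smul]
    congr 1
    field_simp
  exact smul_right_injective _ ht.ne' h2

end scale

/-- Euler's relation from homogeneity -/
lemma euler_of_hom {G : (ι → ℝ) → ℝ} {y : ι → ℝ} (hG : DifferentiableAt ℝ G y) (k : ℕ)
    (h : ∀ t : ℝ, 0 < t → G (t • y) = t ^ k * G y) : fderiv ℝ G y y = k * G y := by
  have h1 : HasDerivAt (fun t : ℝ => t • y) y 1 := by
    simpa using (hasDerivAt_id (1 : ℝ)).smul_const y
  have h2 : HasFDerivAt G (fderiv ℝ G y) ((1 : ℝ) • y) := by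
    rw [one_smul]; exact hG.hasFDerivAt
  have h3 : HasDerivAt (fun t : ℝ => G (t • y)) (fderiv ℝ G y y) 1 := h2.comp_hasDerivAt 1 h1
  have h4 : HasDerivAt (fun t : ℝ => t ^ k * G y) (k * G y) 1 := by
    have := (hasDerivAt_pow k (1 : ℝ)).mul_const (G y)
    simpa using this
  have h5 : (fun t : ℝ => G (t • y)) =ᶠ[nhds 1] fun t : ℝ => t ^ k * G y := by
    filter_upwards [lt_mem_nhds (show (0 : ℝ) < 1 by norm_num)] with t ht
    exact h t ht
  exact (h3.congr_of_eventuallyEq h5.symm).unique h4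

/-- Euler in coordinates. -/
lemma euler_coord (g : RR ι) (x : UU ι) (k : ℕ)
    (h : ∀ t : ℝ, ∀ ht : 0 < t, Mt t ht g = ((t ^ k : ℝ)) • g) :
    ∑ α, (x : ι → ℝ) α * ((Dv (ee α) g : RR ι) : UU ι → ℝ) x = k * (g : UU ι → ℝ) x := by
  have hd : DifferentiableAt ℝ (ext0 (g : UU ι → ℝ)) x := Sm.diffAt UU_open g x
  have h1 := euler_of_hom hd k (by
    intro t ht
    have := congrArg (fun g' : RR ι => (g' : UU ι → ℝ) x) (h t ht)
    simp only [Mt_apply] at this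
    rw [ext0_of_mem _ (smul_mem_UU t ht x.2), ext0_coe, this]
    rfl)
  rw [ext0_coe] at h1
  rw [← h1]
  have hdec : (x : ι → ℝ) = ∑ α, (x : ι → ℝ) α • ee α := by
    ext β
    simp [Finset.sum_apply, Pi.single_apply]
  calc ∑ α, (x : ι → ℝ) α * ((Dv (ee α) g : RR ι) : UU ι → ℝ) x
      = ∑ α, fderiv ℝ (ext0 (g : UU ι → ℝ)) x ((x : ι → ℝ) α • ee α) := by
        refine Finset.sum_congr rfl fun α _ => ?_
        rw [map_smul, smul_eq_mul]
        rfl
    _ = fderiv ℝ (ext0 (g : UU ι → ℝ)) x (∑ α, (x : ι → ℝ) α • ee α) := by rw [map_sum]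
    _ = _ := by rw [← hdec]

end Vale.Agent.P084
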