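import Vale.Agent.P084.Expand

/-!
The second and fourth order relations for tangent directions, from the identity on sums.
-/

set_option linter.unusedSectionVars false
set_option linter.unusedVariables false

open scoped ContDiff

namespace Vale.Agent.P084

variable {ι : Type*} [Fintype ι] [DecidableEq ι]

namespace CurveData

variable (C : CurveData ι) (r : RR ι) (f : ι → RR ι)

lemma cF_apply (h : ℝ) (hh : h ∈ C.I) (α : ι) :
    C.cF r f h α
      = (r : UU ι → ℝ) ⟨(C.x : ι → ℝ) + h • C.w, C.hp hh⟩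
          * (f α : UU ι → ℝ) ⟨(C.x : ι → ℝ) + h • C.w, C.hp hh⟩
        + (r : UU ι → ℝ) ⟨(C.x : ι → ℝ) - h • C.w, C.hm hh⟩
          * (f α : UU ι → ℝ) ⟨(C.x : ι → ℝ) - h • C.w, C.hm hh⟩ := by
  show ext0 ((C.cc r f α : Sm C.I) : C.I → ℝ) h = _
  rw [ext0_of_mem _ hh]
  show ((C.A (r * f α) : Sm C.I) : C.I → ℝ) ⟨h, hh⟩ + ((C.B (r * f α) : Sm C.I) : C.I → ℝ) ⟨h, hh⟩ = _
  simp only [A, B, linePlus_apply, lineMinus_apply]
  rfl

end CurveData

namespace Sys

variable (s : Sys ι)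

/-- unit vector along a nonzero vector -/
noncomputable def unitX (y : ι → ℝ) : ι → ℝ := (1 / s.NX y) • y

lemma NX_unit (y : ι → ℝ) (hy : y ≠ 0) : s.NX (s.unitX y) = 1 := by
  have h := s.NX_pos y hy
  rw [unitX, s.NX_hom _ (one_div_pos.mpr h)]
  field_simp

lemma unit_ne (y : ι → ℝ) (hy : y ≠ 0) : s.unitX y ≠ 0 :=
  smul_ne_zero (one_div_pos.mpr (s.NX_pos y hy)).ne' hy

/-- sum of the two unit vectors -/
noncomputable def cXfun (x w : ι → ℝ) (h : ℝ) : ι → ℝ :=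
  s.unitX (x + h • w) + s.unitX (x - h • w)

/-- parameter set -/
def Iset (x w : ι → ℝ) : Set ℝ := {h | x + h • w ≠ 0 ∧ x - h • w ≠ 0 ∧ s.cXfun x w h ≠ 0}

lemma Iset_open (x w : ι → ℝ) : IsOpen (s.Iset x w) := by
  have hp : Continuous fun h : ℝ => x + h • w := continuous_const.add (continuous_id.smul continuous_const)
  have hm : Continuous fun h : ℝ => x - h • w := continuous_const.sub (continuous_id.smul continuous_const)
  have h1 : IsOpen {h : ℝ | x + h • w ≠ 0} := isOpen_ne_fun hp continuous_const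
  have h2 : IsOpen {h : ℝ | x - h • w ≠ 0} := isOpen_ne_fun hm continuous_const
  have hI : IsOpen ({h : ℝ | x + h • w ≠ 0} ∩ {h : ℝ | x - h • w ≠ 0}) := h1.inter h2
  have hN : ContinuousOn s.NX (UU ι) := s.NX_smooth.continuousOn
  have hu : ∀ (l : ℝ → ι → ℝ), Continuous l → ContinuousOn (fun h => s.unitX (l h)) {h | l h ≠ 0} := by
    intro l hl
    show ContinuousOn (fun h => (1 / s.NX (l h)) • l h) _
    have h1 : ContinuousOn (fun h => 1 / s.NX (l h)) {h | l h ≠ 0} := by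
      refine ContinuousOn.div continuousOn_const ?_ ?_
      · exact hN.comp hl.continuousOn (fun h hh => hh)
      · intro h hh
        exact (s.NX_pos _ hh).ne'
    exact h1.smul hl.continuousOn
  have hc : ContinuousOn (s.cXfun x w) ({h : ℝ | x + h • w ≠ 0} ∩ {h : ℝ | x - h • w ≠ 0}) := by
    have h3 := (hu _ hp).mono (Set.inter_subset_left (t := {h : ℝ | x - h • w ≠ 0}))
    have h4 := (hu _ hm).mono (Set.inter_subset_right (s := {h : ℝ | x + h • w ≠ 0}))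
    exact h3.add h4
  have := hc.isOpen_inter_preimage hI (isOpen_compl_singleton (x := (0 : ι → ℝ)))
  convert this using 1
  ext h
  simp only [Iset, Set.mem_ofPred_eq, Set.mem_inter_iff, Set.mem_preimage, Set.mem_compl_iff,
    Set.mem_singleton_iff]
  tauto

lemma cXfun_zero (x : UU ι) (w : ι → ℝ) : s.cXfun x w 0 ≠ 0 := by
  have hx : (x : ι → ℝ) ≠ 0 := x.2
  simp only [cXfun, zero_smul, add_zero, sub_zero, unitX]
  rw [← two_smul ℝ]
  exact smul_ne_zero two_ne_zero (smul_ne_zero (one_div_pos.mpr (s.NX_pos _ hx)).ne' hx)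

/-- the curve data -/
def curve (x : UU ι) (w : ι → ℝ) : CurveData ι where
  x := x
  w := w
  I := s.Iset x w
  hI := s.Iset_open x w
  h0 := by
    have hx : (x : ι → ℝ) ≠ 0 := x.2
    refine ⟨by simpa using hx, by simpa using hx, s.cXfun_zero x w⟩
  hp := fun h hh => hh.1
  hm := fun h hh => hh.2.1

lemma NY_zero : s.NY 0 = 0 := by
  have h := s.NY_hom 2 two_pos 0
  rw [smul_zero] at h
  linarith

lemma F_unit (y : ι → ℝ) (hy : y ≠ 0) : s.F (s.unitX y) = (1 / s.NX y) • s.F y :=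
  s.F_hom _ (one_div_pos.mpr (s.NX_pos y hy)) y hy

lemma curve_cF_Y (x : UU ι) (w : ι → ℝ) (h : ℝ) (hh : h ∈ (s.curve x w).I) :
    (s.curve x w).cF s.r s.fY h = s.F (s.unitX ((x : ι → ℝ) + h • w)) + s.F (s.unitX ((x : ι → ℝ) - h • w)) := by
  ext α
  rw [CurveData.cF_apply _ _ _ h hh, s.F_unit _ hh.1, s.F_unit _ hh.2.1]
  rfl

lemma curve_cF_X (x : UU ι) (w : ι → ℝ) (h : ℝ) (hh : h ∈ (s.curve x w).I) :
    (s.curve x w).cF s.r fXc h = s.cXfun x w h := by
  ext α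
  rw [CurveData.cF_apply _ _ _ h hh]
  rfl

lemma maps_Y (x : UU ι) (w : ι → ℝ) :
    Set.MapsTo ((s.curve x w).cF s.r s.fY) (s.curve x w).I (UU ι) := by
  intro h hh
  rw [s.curve_cF_Y x w h hh]
  have h1 := s.F_id _ _ (s.unit_ne _ hh.1) (s.unit_ne _ hh.2.1) (s.NX_unit _ hh.1) (s.NX_unit _ hh.2.1)
    hh.2.2
  intro h0
  simp only [Set.mem_singleton_iff] at h0
  rw [h0, s.NY_zero] at h1
  have h2 := s.NX_pos _ hh.2.2
  exact absurd h1 (by
    show ¬ (0 = s.NX (s.unitX _ + s.unitX _))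
    exact h2.ne)

lemma maps_X (x : UU ι) (w : ι → ℝ) :
    Set.MapsTo ((s.curve x w).cF s.r fXc) (s.curve x w).I (UU ι) := by
  intro h hh
  rw [s.curve_cF_X x w h hh]
  exact hh.2.2

lemma curve_id (x : UU ι) (w : ι → ℝ) :
    (s.curve x w).P s.r s.fY (s.maps_Y x w) s.psiY
      = (s.curve x w).P s.r fXc (s.maps_X x w) s.psiX := by
  apply Sm.ext'
  rintro ⟨h, hh⟩
  simp only [CurveData.P, Sm.pull_apply]
  show (s.NY ((s.curve x w).cF s.r s.fY h)) ^ 2 / 2 = (s.NX ((s.curve x w).cF s.r fXc h)) ^ 2 / 2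
  rw [s.curve_cF_Y x w h hh, s.curve_cF_X x w h hh]
  have h1 := s.F_id _ _ (s.unit_ne _ hh.1) (s.unit_ne _ hh.2.1) (s.NX_unit _ hh.1) (s.NX_unit _ hh.2.1)
    hh.2.2
  rw [h1]
  rfl

lemma ev_D2 (x : UU ι) (w : ι → ℝ) (hw : evx x (Dv w s.psiX) = 0) (f : RR ι) :
    evx x (Dv w (Dv w (s.r * f)))
      = evx x (Dv w (Dv w s.r)) * evx x f + evx x s.r * evx x (Dv w (Dv w f)) := by
  rw [Dw2_mul]
  simp only [map_add, map_mul, s.r1_zero x w hw]
  ring

lemma ev_D4 (x : UU ι) (w : ι → ℝ) (hw : evx x (Dv w s.psiX) = 0) (f : RR ι) :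
    evx x (Dv w (Dv w (Dv w (Dv w (s.r * f)))))
      = evx x (Dv w (Dv w (Dv w (Dv w s.r)))) * evx x f
        + 4 * (evx x (Dv w (Dv w (Dv w s.r))) * evx x (Dv w f))
        + 6 * (evx x (Dv w (Dv w s.r)) * evx x (Dv w (Dv w f)))
        + evx x s.r * evx x (Dv w (Dv w (Dv w (Dv w f)))) := by
  rw [Dw4_mul]
  simp only [map_add, map_mul, s.r1_zero x w hw, map_ofNat]
  ring

lemma evx_dY (x : UU ι) (α : ι) :
    evx x (s.dY α) = evx ⟨s.F x, s.F_maps x.2⟩ (Dv (ee α) s.psiY) :=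
  Sm.pull_apply s.F s.F_smooth s.F_maps _ x

lemma evx_SS (x : UU ι) (β α : ι) :
    evx x (s.SS β α) = evx ⟨s.F x, s.F_maps x.2⟩ (Dv (ee β) (Dv (ee α) s.psiY)) :=
  Sm.pull_apply s.F s.F_smooth s.F_maps _ x

lemma evx_psiY (x : UU ι) :
    evx ⟨s.F x, s.F_maps x.2⟩ s.psiY = evx x s.psiX := by
  rw [← s.pF_psiY]
  exact (Sm.pull_apply s.F s.F_smooth s.F_maps s.psiY x).symm

theorem tangent_rel (x : UU ι) (w : ι → ℝ) (hw : evx x (Dv w s.psiX) = 0) :
    (∑ α, evx x (s.dY α) * evx x (Dv w (Dv w (s.fY α))) = 0) ∧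
    (∑ α, evx x (s.dY α) * evx x (Dv w (Dv w (Dv w (Dv w (s.fY α)))))
      + 3 * ∑ α, ∑ β, evx x (s.SS β α) * evx x (Dv w (Dv w (s.fY α)))
          * evx x (Dv w (Dv w (s.fY β))) = 0) := by
  set C := s.curve x w with hC
  have hCx : C.x = x := rfl
  have hCw : C.w = w := rfl
  have hr0 : 0 < evx x s.r := s.r_pos x
  set lam : ℝ := 2 * evx x s.r with hlamdef
  have hlam : 0 < lam := by positivity
  set y : UU ι := ⟨s.F x, s.F_maps x.2⟩ with hy
  have hidY := s.curve_id x w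
  -- base values
  have hyY : ∀ α, C.cF s.r s.fY 0 α = lam * (y : ι → ℝ) α := by
    intro α
    rw [CurveData.cF_zero]
    rfl
  have hyX : ∀ α, C.cF s.r fXc 0 α = lam * (x : ι → ℝ) α := by
    intro α
    rw [CurveData.cF_zero]
    rfl
  have ev1Y : ∀ α, C.ev0 (C.P s.r s.fY (s.maps_Y x w) (Dv (ee α) s.psiY)) = lam * evx x (s.dY α) := by
    intro α
    rw [CurveData.ev0_P C s.r s.fY (s.maps_Y x w) _ lam hlam y hyY (lam ^ 1)
      (grad_hom s.psiY s.psiY_hom _ lam hlam), pow_one, s.evx_dY]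
  have ev1X : ∀ α, C.ev0 (C.P s.r fXc (s.maps_X x w) (Dv (ee α) s.psiX))
      = lam * evx x (Dv (ee α) s.psiX) := by
    intro α
    rw [CurveData.ev0_P C s.r fXc (s.maps_X x w) _ lam hlam x hyX (lam ^ 1)
      (grad_hom s.psiX s.psiX_hom _ lam hlam), pow_one]
  have ev2Y : ∀ β α, C.ev0 (C.P s.r s.fY (s.maps_Y x w) (Dv (ee β) (Dv (ee α) s.psiY)))
      = evx x (s.SS β α) := by
    intro β α
    rw [CurveData.ev0_P C s.r s.fY (s.maps_Y x w) _ lam hlam y hyY 1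
      (hess_hom s.psiY s.psiY_hom _ _ lam hlam), one_mul, s.evx_SS]
  have ev2X : ∀ β α, C.ev0 (C.P s.r fXc (s.maps_X x w) (Dv (ee β) (Dv (ee α) s.psiX)))
      = evx x (Dv (ee β) (Dv (ee α) s.psiX)) := by
    intro β α
    rw [CurveData.ev0_P C s.r fXc (s.maps_X x w) _ lam hlam x hyX 1
      (hess_hom s.psiX s.psiX_hom _ _ lam hlam), one_mul]
  -- the expansions
  have e2Y := C.exp2 s.r s.fY (s.maps_Y x w) s.psiY
  have e2X := C.exp2 s.r fXc (s.maps_X x w) s.psiX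
  have e4Y := C.exp4 s.r s.fY (s.maps_Y x w) s.psiY
  have e4X := C.exp4 s.r fXc (s.maps_X x w) s.psiX
  simp only [hCx, hCw, ev1Y, ev1X, ev2Y, ev2X, s.ev_D2 x w hw, s.ev_D4 x w hw] at e2Y e2X e4Y e4X
  have hE2 : C.ev0 (C.d (C.d (C.P s.r s.fY (s.maps_Y x w) s.psiY)))
      = C.ev0 (C.d (C.d (C.P s.r fXc (s.maps_X x w) s.psiX))) := by rw [hidY]
  have hE4 : C.ev0 (C.d (C.d (C.d (C.d (C.P s.r s.fY (s.maps_Y x w) s.psiY)))))
      = C.ev0 (C.d (C.d (C.d (C.d (C.P s.r fXc (s.maps_X x w) s.psiX))))) := by rw [hidY]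
  rw [e2Y, e2X] at hE2
  rw [e4Y, e4X] at hE4
  simp only [Derivation.map_algebraMap, map_zero, mul_zero, zero_mul, add_zero, Dv_fXc] at hE2 hE4
  -- identify the pieces
  have he1 : ∑ α, evx x (s.dY α) * (y : ι → ℝ) α = 2 * evx x s.psiX := by
    have := euler1 s.psiY s.psiY_hom y
    rw [s.evx_psiY] at this
    rw [← this]
    refine Finset.sum_congr rfl fun α _ => ?_
    rw [s.evx_dY, mul_comm]
  have he2 : ∑ α, evx x (Dv (ee α) s.psiX) * (x : ι → ℝ) α = 2 * evx x s.psiX := by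
    have := euler1 s.psiX s.psiX_hom x
    rw [← this]
    refine Finset.sum_congr rfl fun α _ => ?_
    rw [mul_comm]
  have hz : ∑ α, evx x (s.dY α) * evx x (Dv w (Dv w (s.fY α))) = 0 := by
    refine compare2 (fun α => evx x (s.dY α)) (y : ι → ℝ) (fun α => evx x (Dv w (Dv w (s.fY α))))
      (fun α => evx x (Dv (ee α) s.psiX)) (x : ι → ℝ) lam (evx x s.r) (evx x (Dv w (Dv w s.r)))
      (evx x s.psiX) hlam.ne' hr0.ne' he1 he2 ?_
    exact hE2
  refine ⟨hz, ?_⟩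
  refine compare4 (fun β α => evx x (s.SS β α)) (fun β α => evx x (Dv (ee β) (Dv (ee α) s.psiX)))
    (fun α => evx x (s.dY α)) (y : ι → ℝ) (fun α => evx x (Dv w (s.fY α)))
    (fun α => evx x (Dv w (Dv w (s.fY α)))) (fun α => evx x (Dv w (Dv w (Dv w (Dv w (s.fY α))))))
    (fun α => evx x (Dv (ee α) s.psiX)) (x : ι → ℝ) w lam (evx x s.r) (evx x (Dv w (Dv w s.r)))
    (evx x (Dv w (Dv w (Dv w s.r)))) (evx x (Dv w (Dv w (Dv w (Dv w s.r))))) (evx x s.psiX)
    rfl hr0.ne' ?_ ?_ he1 he2 ?_ ?_ hz ?_ ?_ ?_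
  · intro a b
    show evx x (s.SS a b) = evx x (s.SS b a)
    rw [s.evx_SS, s.evx_SS, Dv_comm]
  · intro a b
    show evx x (Dv (ee a) (Dv (ee b) s.psiX)) = evx x (Dv (ee b) (Dv (ee a) s.psiX))
    rw [Dv_comm]
  · intro β
    have := euler2 s.psiY s.psiY_hom y (ee β)
    show ∑ α, (y : ι → ℝ) α * evx x (s.SS α β) = evx x (s.dY β)
    rw [s.evx_dY, ← this]
    refine Finset.sum_congr rfl fun α _ => ?_
    rw [s.evx_SS]
  · intro β
    exact euler2 s.psiX s.psiX_hom x (ee β)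
  · have := congrArg (evx x) (s.chain1 w)
    rw [hw, map_sum] at this
    simp only [map_mul] at this
    exact this.symm
  · have := Dv_coord w s.psiX
    rw [this, map_sum] at hw
    simp only [Algebra.smul_def, map_mul] at hw
    rw [← hw]
    refine Finset.sum_congr rfl fun α _ => ?_
    rw [mul_comm]
    rfl
  · simp only [mul_zero, add_zero, zero_mul] at hE4 ⊢
    exact hE4

end Sys

end Vale.Agent.P084
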